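import Crest.Agent.FE.Defs

/-! (CS) lower bound for the non-microstates entropy from bounds on the Fisher information. -/

set_option autoImplicit false
open Crest.OpAlg MeasureTheory Filter Topology Set

namespace Crest.Agent.FE.Cs

lemma K {a : ℝ} (ha : 0 < a) :
    IntegrableOn (fun s : ℝ => 1 / (1 + s) - 1 / (a + s)) (Ioi 0) ∧
      ∫ s in Ioi (0 : ℝ), (1 / (1 + s) - 1 / (a + s)) = Real.log a := by
  have hd : ∀ s ∈ Ici (0 : ℝ), HasDerivAt (fun s => Real.log (1 + s) - Real.log (a + s))
      (1 / (1 + s) - 1 / (a + s)) s := fun s hs => by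
    have hs : 0 ≤ s := hs
    exact (((hasDerivAt_id s).const_add 1).log (by simp only [id]; positivity)).sub
      (((hasDerivAt_id s).const_add a).log (by simp only [id]; positivity))
  have ht : Tendsto (fun s => Real.log (1 + s) - Real.log (a + s)) atTop (𝓝 0) := by
    simpa [add_comm] using (Real.tendsto_log_comp_add_sub_log 1).sub
      (Real.tendsto_log_comp_add_sub_log a)
  have hi : IntegrableOn (fun s : ℝ => 1 / (1 + s) - 1 / (a + s)) (Ioi 0) := by
    rcases le_total 1 a with h | h
    · refine integrableOn_Ioi_deriv_of_nonneg' hd (fun s hs => sub_nonneg.2 ?_) ht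
      have hs : 0 < s := hs
      gcongr
    · refine integrableOn_Ioi_deriv_of_nonpos' hd (fun s hs => sub_nonpos.2 ?_) ht
      have hs : 0 < s := hs
      gcongr
  exact ⟨hi, by simpa using integral_Ioi_of_hasDerivAt_of_tendsto' hd hi ht⟩

lemma K2 {t c g : ℝ} (h : 0 < t + c) (hg : 0 ≤ g) :
    IntegrableOn (fun s : ℝ => g / (t + s) ^ 2) (Ioi c) ∧
      ∫ s in Ioi c, g / (t + s) ^ 2 = g / (t + c) := by
  have hd : ∀ s ∈ Ici c, HasDerivAt (fun s => -g * (t + s)⁻¹) (g / (t + s) ^ 2) s := fun s hs => by
    have hs : c ≤ s := hs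
    exact ((((hasDerivAt_id' s).const_add t).inv (by linarith)).const_mul (-g)).congr_deriv
      (by ring)
  have ht : Tendsto (fun s => -g * (t + s)⁻¹) atTop (𝓝 0) := by
    simpa using (tendsto_inv_atTop_zero.comp (tendsto_atTop_add_const_left _ t tendsto_id)).const_mul
      (-g)
  refine ⟨integrableOn_Ioi_deriv_of_nonneg' hd (fun s _ => by positivity) ht, ?_⟩
  rw [integral_Ioi_of_hasDerivAt_of_nonneg' hd (fun s _ => by positivity) ht]
  ring

lemma meas {A : Type} [CStarAlgebra A] {τ : A →ₗ[ℂ] ℂ} {n : ℕ} (Z S : Fin n → A)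
    (hτ : Continuous τ) : Measurable fun s => freeFisher τ (heatTuple Z S s) := by
  have h1 : ∀ w, Continuous fun s => wordEval (heatTuple Z S s) w := fun w => by
    simp only [wordEval, FreeMonoid.lift_apply]
    refine continuous_list_prod _ fun i _ => ?_
    unfold heatTuple
    fun_prop
  have h2 : ∀ P, Continuous fun s => polyEval (heatTuple Z S s) P := fun P => by
    simp only [polyEval, MonoidAlgebra.lift_apply, Finsupp.sum]
    exact continuous_finset_sum _ fun w _ => (h1 w).const_smul _
  have h3 : ∀ i P, Continuous fun s => splitPairing τ (heatTuple Z S s) i P := fun i P => by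
    refine continuous_finset_sum _ fun w _ => continuous_const.mul
      (continuous_finset_sum _ fun k _ => ?_)
    split_ifs
    · exact (hτ.comp (h1 _)).mul (hτ.comp (h1 _))
    · exact continuous_const
  refine (lowerSemicontinuous_biSup fun P _ => Continuous.lowerSemicontinuous ?_).measurable
  exact ENNReal.continuous_ofReal.comp (Complex.continuous_re.comp (continuous_finset_sum _
    fun i _ => (continuous_const.mul (h3 _ _)).sub (hτ.comp ((h2 _).mul (h2 _)))))

end Crest.Agent.FE.Cs

namespace Crest.Agent.FE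
open Cs

theorem cs : CSStmt := by
  intro A _ τ n Z S t V σ₁ g hτ ht hV hσ hg hg' h
  have hm := meas Z S hτ
  have n0 : (0 : ℝ) ≤ n := n.cast_nonneg
  have c0 : 0 < t + (σ₁ - t) := by linarith
  have up : ∀ s ∈ Ioi (0 : ℝ), (n : ℝ) / (1 + s) - (freeFisher τ (heatTuple Z S s)).toReal ≤
      n * (1 / (1 + s) - 1 / (t + V + s)) := fun s hs => by
    have := (ENNReal.ofReal_le_iff_le_toReal (ne_top_of_le_ne_top ENNReal.ofReal_ne_top
      (h s hs).2.1)).1 (h s hs).1
    rw [mul_sub, mul_one_div, mul_one_div, add_right_comm t]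
    linarith
  have lo : ∀ s ∈ Ioi (0 : ℝ), n * (1 / (1 + s) - 1 / (t + s)) +
      (Ioi (σ₁ - t)).indicator (fun s => g / (t + s) ^ 2) s ≤
      (n : ℝ) / (1 + s) - (freeFisher τ (heatTuple Z S s)).toReal := fun s hs => by
    have s0 : 0 < t + s := add_pos ht hs
    rw [mul_sub, mul_one_div, mul_one_div]
    by_cases e : s ∈ Ioi (σ₁ - t)
    · have e' : σ₁ ≤ t + s := by linarith [mem_Ioi.1 e]
      have := ENNReal.toReal_le_of_le_ofReal (by
        rw [sub_nonneg, div_le_div_iff₀ (by positivity) s0]
        nlinarith [mul_le_mul_of_nonneg_left e' n0]) ((h s hs).2.2 e')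
      rw [indicator_of_mem e]
      linarith
    · have := ENNReal.toReal_le_of_le_ofReal (by positivity) (h s hs).2.1
      rw [indicator_of_notMem e]
      linarith
  have i1 : IntegrableOn ((Ioi (σ₁ - t)).indicator fun s => g / (t + s) ^ 2) (Ioi 0) :=
    ((integrable_indicator_iff measurableSet_Ioi).2 (K2 c0 hg).1).integrableOn
  have i2 := ((K ht).1.const_mul (n : ℝ)).add i1
  have i3 : IntegrableOn (fun s : ℝ => (n : ℝ) / (1 + s) -
      (freeFisher τ (heatTuple Z S s)).toReal) (Ioi 0) :=
    integrable_of_le_of_le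
      (Measurable.aestronglyMeasurable ((by fun_prop : Measurable _).sub hm.ennreal_toReal))
      (ae_restrict_of_forall_mem measurableSet_Ioi lo)
      (ae_restrict_of_forall_mem measurableSet_Ioi up) i2
      ((K (add_pos_of_pos_of_nonneg ht hV)).1.const_mul _)
  refine ⟨i3, ?_⟩
  have e1 := setIntegral_mono_on i2 i3 measurableSet_Ioi lo
  simp only [Pi.add_apply] at e1
  rw [integral_add ((K ht).1.const_mul _) i1, integral_const_mul, (K ht).2,
    setIntegral_indicator measurableSet_Ioi, Ioi_inter_Ioi, sup_eq_right.2 (sub_nonneg.2 hσ),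
    (K2 c0 hg).2, add_sub_cancel] at e1
  have p0 : 2 * Real.pi ≠ 0 := by positivity
  rw [chiStar, Real.log_mul p0 ht.ne', Real.log_mul p0 (Real.exp_ne_zero 1), Real.log_exp,
    mul_comm 2 σ₁, ← div_div]
  linarith

end Crest.Agent.FE
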