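import Crest.Agent.FE.H

/-! Schwinger-Dyson equations imply freeness. -/

set_option autoImplicit false
set_option linter.unusedSectionVars false
set_option linter.unusedSimpArgs false
open Finset Crest.OpAlg

namespace Crest.Agent.FE.Fr
open Hd

variable {A : Type} [Ring A] [Algebra ℂ A] {n : ℕ}

noncomputable def le (Z : Fin n → A) : Fin n ⊕ Fin n → A × (Fin n → ℂ) :=
  Sum.elim (fun i => (Z i, 0)) fun j => (0, Pi.single j 1)

variable {τ : A →ₗ[ℂ] ℂ} {Z S : Fin n → A}

lemma le_mem (i : Fin n ⊕ Fin n) : (le Z i).1 ∈ Algebra.adjoin ℂ (Set.range Z) := by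
  cases i with
  | inl i => exact Algebra.subset_adjoin ⟨i, rfl⟩
  | inr j => exact Subalgebra.zero_mem _

lemma DD_inl (b : A) (j i : Fin n) (x : List (Fin n ⊕ Fin n) →₀ ℂ) :
    DD τ S (le Z) b j (mulL (Sum.inl i) x) = DD τ S (le Z) (b * Z i) j x := by
  induction x using Finsupp.induction_linear with
  | zero => simp
  | add x y hx hy => simp only [map_add, hx, hy]
  | single w c =>
    simp [mulL_single, DD_single, spl_cons, le, ev_cons, aff_const, mul_assoc]

lemma DD_add (b b' : A) (j : Fin n) (x : List (Fin n ⊕ Fin n) →₀ ℂ) :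
    DD τ S (le Z) (b + b') j x = DD τ S (le Z) b j x + DD τ S (le Z) b' j x := by
  induction x using Finsupp.induction_linear with
  | zero => simp
  | add x y hx hy => simp only [map_add, hx, hy]; abel
  | single w c => simp only [DD_single, add_mul, map_add, mul_add, add_smul, spl_add, smul_add]

lemma DD_smul (a : ℂ) (b : A) (j : Fin n) (x : List (Fin n ⊕ Fin n) →₀ ℂ) :
    DD τ S (le Z) (a • b) j x = a • DD τ S (le Z) b j x := by
  induction x using Finsupp.induction_linear with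
  | zero => simp
  | add x y hx hy => simp only [map_add, hx, hy, smul_add]
  | single w c =>
    have e2 : ∀ (z : ℂ) (v : List (Fin n ⊕ Fin n))
        (F : List _ → _ → List _ → (List (Fin n ⊕ Fin n) →₀ ℂ)),
        z • spl v F = spl v fun a b c => z • F a b c :=
      fun z v F => map_spl (DistribSMul.toAddMonoidHom _ z) v F
    simp only [DD_single, e2, smul_smul, smul_mul_assoc, map_smul, smul_eq_mul]
    exact spl_congr fun u i v _ => by congr 1; ring

/-- left multiplication by constants lifts to formal words -/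
lemma liftZ (b : A) (hb : b ∈ Algebra.adjoin ℂ (Set.range Z)) :
    ∀ x : List (Fin n ⊕ Fin n) →₀ ℂ, ∃ ξ, EE S (le Z) ξ = b * EE S (le Z) x ∧
      ∀ b' j, DD τ S (le Z) b' j ξ = DD τ S (le Z) (b' * b) j x := by
  induction hb using Algebra.adjoin_induction with
  | mem b hb =>
    obtain ⟨i, rfl⟩ := hb
    intro x
    exact ⟨mulL (Sum.inl i) x, by simp [EE_mulL, le, aff_const], fun b' j => DD_inl b' j i x⟩
  | algebraMap r =>
    intro x
    refine ⟨r • x, by simp [Algebra.smul_def], fun b' j => ?_⟩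
    rw [map_smul, ← DD_smul, Algebra.smul_def, Algebra.commutes]
  | add a b _ _ ha hb =>
    intro x
    obtain ⟨ξ, h1, h2⟩ := ha x
    obtain ⟨ζ, h3, h4⟩ := hb x
    exact ⟨ξ + ζ, by rw [map_add, h1, h3, add_mul], fun b' j => by
      rw [map_add, h2, h4, mul_add, DD_add]⟩
  | mul a b _ _ ha hb =>
    intro x
    obtain ⟨ζ, h3, h4⟩ := hb x
    obtain ⟨ξ, h1, h2⟩ := ha ζ
    exact ⟨ξ, by rw [h1, h3, mul_assoc], fun b' j => by rw [h2, h4, mul_assoc]⟩

lemma poly_mem (P : NCPoly n) : polyEval Z P ∈ Algebra.adjoin ℂ (Set.range Z) := by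
  rw [polyEval_eq]
  refine sum_mem fun w _ => Subalgebra.smul_mem _ ?_ _
  induction (FreeMonoid.toList w) with
  | nil => simp
  | cons i w ih => rw [ev_cons]; exact mul_mem (Algebra.subset_adjoin ⟨i, rfl⟩) ih

lemma step (hT : Tr τ) (h : SDL τ (Algebra.adjoin ℂ (Set.range Z)) S) (j : Fin n)
    (ξ : List (Fin n ⊕ Fin n) →₀ ℂ) (hξ : DD τ S (le Z) 1 j ξ = 0) (a : ℕ) :
    S j * EE S (le Z) ((CC τ S (le Z) Sum.inr j)^[a + 1] ξ) =
      EE S (le Z) ((CC τ S (le Z) Sum.inr j)^[a + 2] ξ) +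
        EE S (le Z) ((CC τ S (le Z) Sum.inr j)^[a] ξ) ∧
    S j * EE S (le Z) ξ = EE S (le Z) ((CC τ S (le Z) Sum.inr j)^[1] ξ) := by
  constructor
  · rw [mul_EE (τ := τ) (s := Sum.inr) (fun _ => rfl), Function.iterate_succ_apply' _ (a + 1),
      Function.iterate_succ_apply' _ a,
      DD_CC hT h le_mem (fun _ => rfl) _ _ _ (Subalgebra.one_mem _), hT.1]
    simp
  · rw [mul_EE (τ := τ) (s := Sum.inr) (fun _ => rfl), hξ]; simp

lemma cheb (hT : Tr τ) (h : SDL τ (Algebra.adjoin ℂ (Set.range Z)) S) (j : Fin n)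
    (ξ : List (Fin n ⊕ Fin n) →₀ ℂ) (hξ : DD τ S (le Z) 1 j ξ = 0) (a : ℕ) :
    EE S (le Z) ((CC τ S (le Z) Sum.inr j)^[a] (Finsupp.single [] 1)) * EE S (le Z) ξ =
      EE S (le Z) ((CC τ S (le Z) Sum.inr j)^[a] ξ) := by
  have h1 : EE S (le Z) (Finsupp.single [] 1) = 1 := by simp [EE_single]
  induction a using Nat.twoStepInduction with
  | zero => simp [h1]
  | one => rw [← (step hT h j _ (DD_nil _ _ _) 0).2, ← (step hT h j _ hξ 0).2, h1, mul_one]
  | more a ih1 ih2 =>
    rw [← sub_eq_iff_eq_add.mpr (step hT h j _ (DD_nil _ _ _) a).1,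
      ← sub_eq_iff_eq_add.mpr (step hT h j _ hξ a).1, sub_mul, mul_assoc, ih1, ih2]

lemma Sstep (hT : Tr τ) (h : SDL τ (Algebra.adjoin ℂ (Set.range Z)) S) (j : Fin n)
    (ξ : List (Fin n ⊕ Fin n) →₀ ℂ) (hξ : DD τ S (le Z) 1 j ξ = 0) (P : NCPoly n)
    (hP : τ (polyEval (fun _ => S j) P) = 0) :
    ∃ x, EE S (le Z) (CC τ S (le Z) Sum.inr j x) = polyEval (fun _ => S j) P * EE S (le Z) ξ := by
  set U : ℕ → A := fun a => EE S (le Z) ((CC τ S (le Z) Sum.inr j)^[a] (Finsupp.single [] 1))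
    with hU
  have hU0 : U 0 = 1 := by simp [hU, EE_single]
  have h1 : ∀ b ∈ Submodule.span ℂ (Set.range U), S j * b ∈ Submodule.span ℂ (Set.range U) := by
    intro b hb
    induction hb using Submodule.span_induction with
    | mem b hb =>
      obtain ⟨a, rfl⟩ := hb
      cases a with
      | zero =>
        have := (step hT h j _ (DD_nil _ _ (1 : ℂ)) 0).2
        exact this ▸ Submodule.subset_span ⟨1, rfl⟩
      | succ a =>
        have := (step hT h j _ (DD_nil _ _ (1 : ℂ)) a).1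
        exact this ▸ add_mem (Submodule.subset_span ⟨a + 2, rfl⟩) (Submodule.subset_span ⟨a, rfl⟩)
    | zero => simp
    | add a b _ _ ha hb => rw [mul_add]; exact add_mem ha hb
    | smul c a _ ha => rw [mul_smul_comm]; exact Submodule.smul_mem _ _ ha
  have h2 : polyEval (fun _ => S j) P ∈ Submodule.span ℂ (Set.range U) := by
    rw [polyEval_eq]
    refine sum_mem fun w _ => Submodule.smul_mem _ _ ?_
    induction (FreeMonoid.toList w) with
    | nil => rw [ev_nil, ← hU0]; exact Submodule.subset_span ⟨0, rfl⟩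
    | cons i w ih => rw [ev_cons]; exact h1 _ ih
  have h3 : ∀ b ∈ Submodule.span ℂ (Set.range U), ∃ x, b * EE S (le Z) ξ =
      τ b • EE S (le Z) ξ + EE S (le Z) (CC τ S (le Z) Sum.inr j x) := by
    intro b hb
    induction hb using Submodule.span_induction with
    | mem b hb =>
      obtain ⟨a, rfl⟩ := hb
      cases a with
      | zero => exact ⟨0, by simp [hU0, hT.1]⟩
      | succ a =>
        refine ⟨(CC τ S (le Z) Sum.inr j)^[a] ξ, ?_⟩
        have := tr_CC (s := Sum.inr) hT h le_mem (fun _ => rfl) j 1 (Subalgebra.one_mem _)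
          ((CC τ S (le Z) Sum.inr j)^[a] (Finsupp.single [] 1))
        simp only [hU]
        rw [cheb hT h j ξ hξ, Function.iterate_succ_apply', Function.iterate_succ_apply',
          ← one_mul (EE S (le Z) (CC τ S (le Z) Sum.inr j (_^[a] (Finsupp.single [] 1)))), this]
        simp
    | zero => exact ⟨0, by simp⟩
    | add a b _ _ ha hb =>
      obtain ⟨x, hx⟩ := ha
      obtain ⟨y, hy⟩ := hb
      exact ⟨x + y, by simp only [add_mul, hx, hy, map_add, add_smul]; abel⟩
    | smul c a _ ha =>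
      obtain ⟨x, hx⟩ := ha
      exact ⟨c • x, by simp only [smul_mul_assoc, hx, map_smul, smul_add, smul_eq_mul, mul_smul]⟩
  obtain ⟨x, hx⟩ := h3 _ h2
  exact ⟨x, by rw [hx, hP]; simp⟩

/-- the invariant -/
def Good (τ : A →ₗ[ℂ] ℂ) (Z S : Fin n → A) (t : Option (Fin n))
    (ξ : List (Fin n ⊕ Fin n) →₀ ℂ) : Prop :=
  match t with
  | none => (∀ j, DD τ S (le Z) 1 j ξ = 0) ∧ τ (EE S (le Z) ξ) = 0
  | some j => ∃ x, ξ = CC τ S (le Z) Sum.inr j x

lemma extend (hT : Tr τ) (h : SDL τ (Algebra.adjoin ℂ (Set.range Z)) S) (t : Option (Fin n))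
    (P : NCPoly n) (hP : τ (polyEval (withNoise Z S t) P) = 0) (ξ : List (Fin n ⊕ Fin n) →₀ ℂ)
    (hξ : ξ = Finsupp.single [] 1 ∨ ∃ t', t ≠ t' ∧ Good τ Z S t' ξ) :
    ∃ ζ, EE S (le Z) ζ = polyEval (withNoise Z S t) P * EE S (le Z) ξ ∧ Good τ Z S t ζ := by
  cases t with
  | none =>
    change τ (polyEval Z P) = 0 at hP
    obtain ⟨ζ, h1, h2⟩ := liftZ (τ := τ) (S := S) _ (poly_mem (Z := Z) P) ξ
    refine ⟨ζ, h1, ?_⟩
    rcases hξ with rfl | ⟨t', ht, hg⟩
    · exact ⟨fun j => by rw [h2, DD_nil], by rw [h1]; simpa [EE_single] using hP⟩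
    · cases t' with
      | none => exact absurd rfl ht
      | some j' =>
        obtain ⟨x, rfl⟩ := hg
        refine ⟨fun j => ?_, ?_⟩
        · rw [h2, one_mul, DD_CC hT h le_mem (fun _ => rfl) _ _ _ (poly_mem P), hP]; simp
        · rw [h1]; exact tr_CC hT h le_mem (fun _ => rfl) _ _ (poly_mem P) _
  | some j =>
    have : DD τ S (le Z) 1 j ξ = 0 := by
      rcases hξ with rfl | ⟨t', ht, hg⟩
      · exact DD_nil _ _ _
      · cases t' with
        | none => exact hg.1 j
        | some j' =>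
          obtain ⟨x, rfl⟩ := hg
          rw [DD_CC hT h le_mem (fun _ => rfl) _ _ _ (Subalgebra.one_mem _),
            if_neg fun hj => ht (by rw [hj])]
          simp
    obtain ⟨x, hx⟩ := Sstep hT h j ξ this P hP
    exact ⟨_, hx, x, rfl⟩

end Crest.Agent.FE.Fr

namespace Crest.Agent.FE
open Hd Fr

theorem w2 : W2Stmt := by
  intro A _ _ τ n Z S hT h
  have key : ∀ (l : List (Option (Fin n) × NCPoly n)) (a : Option (Fin n) × NCPoly n),
      (a :: l).IsChain (fun a b => a.1 ≠ b.1) →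
      (∀ e ∈ a :: l, τ (polyEval (withNoise Z S e.1) e.2) = 0) →
      ∃ ζ, EE S (le Z) ζ = ((a :: l).map fun e => polyEval (withNoise Z S e.1) e.2).prod ∧
        Good τ Z S a.1 ζ := by
    intro l
    induction l with
    | nil =>
      intro a _ ha
      obtain ⟨ζ, h1, h2⟩ := extend hT h a.1 a.2 (ha a (by simp)) _ (Or.inl rfl)
      exact ⟨ζ, by simpa [EE_single] using h1, h2⟩
    | cons b l ih =>
      intro a hc ha
      rw [List.isChain_cons_cons] at hc
      obtain ⟨ξ, h1, h2⟩ := ih b hc.2 fun e he => ha e (List.mem_cons_of_mem _ he)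
      obtain ⟨ζ, h3, h4⟩ := extend hT h a.1 a.2 (ha a (by simp)) ξ (Or.inr ⟨b.1, hc.1, h2⟩)
      exact ⟨ζ, by rw [h3, h1]; simp, h4⟩
  intro l hl hc ha
  obtain ⟨a, l, rfl⟩ := List.exists_cons_of_ne_nil hl
  obtain ⟨ζ, h1, h2⟩ := key l a hc ha
  rw [← h1]
  obtain ⟨t, P⟩ := a
  cases t with
  | none => exact h2.2
  | some j =>
    obtain ⟨x, rfl⟩ := h2
    have := tr_CC (s := Sum.inr) hT h le_mem (fun _ => rfl) j 1 (Subalgebra.one_mem _) x
    rwa [one_mul] at this

end Crest.Agent.FE
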