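import Crest.Agent.FE.Model
import Crest.Agent.FE.W2

/-! Assembly of the pieces, with abstract parameters. -/

set_option autoImplicit false
open Finset Crest.OpAlg Filter Topology MeasureTheory

namespace Crest.Agent.FE.As
open Hd Po

/-- the target -/
def Goal : Prop :=
    ∃ (A : Type) (_ : CStarAlgebra A) (τ : A →ₗ[ℂ] ℂ) (n : ℕ) (X S : Fin n → A),
      Crest.OpAlg.IsFaithfulTracialState τ ∧ 2 ≤ n ∧ (∀ i, IsSelfAdjoint (X i)) ∧
      Crest.OpAlg.IsStandardSemicircular τ S ∧ Crest.OpAlg.IsFreeFamily τ (Crest.OpAlg.withNoise X S) ∧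
      (∀ s : ℝ, 0 < s → Crest.OpAlg.freeFisher τ (Crest.OpAlg.heatTuple X S s) < ⊤) ∧
      MeasureTheory.IntegrableOn
        (fun s : ℝ => (n : ℝ) / (1 + s) - (Crest.OpAlg.freeFisher τ (Crest.OpAlg.heatTuple X S s)).toReal)
        (Set.Ioi 0) ∧
      ⊥ < Crest.OpAlg.chi τ X ∧ Crest.OpAlg.chi τ X ≤ ((Crest.OpAlg.chiStar τ X S - 1 / 2 : ℝ) : EReal)

section
variable {A : Type} [CStarAlgebra A] {τ : A →ₗ[ℂ] ℂ} {N k : ℕ} {p : Fin k → A} {y : Fin N → A}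
  {S' S : Fin (N + 1) → A}

lemma sig_sa (h : Setup τ p y S') (L : ℝ) (l : Fin (N + 1)) : IsSelfAdjoint (sig p y L l) :=
  Fin.cases (G1.cen_sa h L) (fun i => h.y_sa i) l

lemma sig_mem (L : ℝ) (l : Fin (N + 1)) :
    sig p y L l ∈ Algebra.adjoin ℂ (Set.range p ∪ Set.range y) := by
  refine Fin.cases ?_ (fun i => Algebra.subset_adjoin (Or.inr ⟨i, rfl⟩)) l
  have : ∀ j, p j ∈ Algebra.adjoin ℂ (Set.range p ∪ Set.range y) := fun j =>
    Algebra.subset_adjoin (Or.inl ⟨j, rfl⟩)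
  change cen p L ∈ _
  exact sum_mem fun j _ => Subalgebra.smul_mem _ (this j) _

lemma heat_sa {n : ℕ} {X S : Fin n → A} (hX : ∀ i, IsSelfAdjoint (X i))
    (hS : ∀ i, IsSelfAdjoint (S i)) (t : ℝ) (i : Fin n) : IsSelfAdjoint (heatTuple X S t i) := by
  simp only [IsSelfAdjoint, heatTuple, star_add, star_smul, (hX i).star_eq, (hS i).star_eq,
    RCLike.star_def, Complex.conj_ofReal]

lemma rot (h1 : W1Stmt) (h3 : W3Stmt) (h : Setup τ p y S')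
    (hS : SDL τ (Algebra.adjoin ℂ (Set.range p ∪ Set.range y)) (Sum.elim S' S))
    (hsa : ∀ i, IsSelfAdjoint (S i)) (X : Fin (N + 1) → A) {t s : ℝ} (ht : 0 < t) (hs : 0 < s) :
    ∃ S'', Setup τ p y S'' ∧ heatTuple (heatTuple X S' t) S s = heatTuple X S'' (t + s) := by
  obtain ⟨-, -, -, hd⟩ := h1 A τ
  have hts : 0 < √(t + s) := Real.sqrt_pos.mpr (by positivity)
  have hsd := hd _ _ S' S (√t / √(t + s)) (√s / √(t + s)) (by
    rw [div_pow, div_pow, Real.sq_sqrt ht.le, Real.sq_sqrt hs.le, Real.sq_sqrt (by positivity)]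
    field_simp) hS
  have hsa' : ∀ j, IsSelfAdjoint (((√t / √(t + s) : ℝ) : ℂ) • S' j +
      ((√s / √(t + s) : ℝ) : ℂ) • S j) := fun j => by
    simp only [IsSelfAdjoint, star_add, star_smul, (h.S_sa j).star_eq, (hsa j).star_eq,
      RCLike.star_def, Complex.conj_ofReal]
  obtain ⟨-, -, -, -, hw⟩ := h3 A τ h.tr
  refine ⟨_, { h with S_sa := hsa', S_sd := hsd, S_norm := fun i => (hw _ _ _ hsd hsa' i).1 }, ?_⟩
  funext i
  simp only [heatTuple, smul_add, smul_smul, ← Complex.ofReal_mul, mul_div_cancel₀ _ hts.ne',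
    add_assoc]

lemma upper (h1 : W1Stmt) (h3 : W3Stmt) (hG2 : G2Stmt) (hG3 : G3Stmt) (hT : TStmt) (hV : VStmt)
    (hUP : UPStmt) (h : Setup τ p y S') {n₁ m : ℕ} {L z η E T Λ : ℝ} (hn : 0 < n₁)
    (h2n : 2 * n₁ ≤ N) (hL : 0 < L) (hz : 0 < z) (hz1 : z ≤ 1)
    (c4 : 2200 * z * (1 + k * L) ≤ L / 4) (hη : 0 ≤ η)
    (c5 : 3 * (1600 * z ^ 2 / n₁) + 8 * (162 * z / n₁ + 2016 * z ^ 2 * (1 + k * L)) ^ 2 / L ^ 2 ≤
      η ^ 2) (c6 : η ^ 2 < 1 / k)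
    (c7 : N * z ^ 2 + 32 * N * η ^ 2 + 12 * (2 * n₁) * z * η < E) (c8 : E ≤ 1)
    (c9 : (N + 1) * (k * L + 4) ^ 2 < T) (c10 : 12 * √T ≤ z ^ 2 * 2 ^ m)
    (c11 : Real.log ((T + 1) / z ^ 2) ≤ Λ) :
    chi τ (heatTuple (sig p y L) S' (z ^ 2)) ≤
      ((((N + 1 : ℕ) : ℝ) / 2 * Real.log (2 * Real.pi * z ^ 2) +
        ((E + z ^ 2) / (2 * z ^ 2) + 1 / 2 + (N / k + 1 / 2) * Λ + 2 * m * 4) : ℝ) : EReal) := by
  have hk := h.kpos
  have hk' : (0 : ℝ) < k := by exact_mod_cast hk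
  obtain ⟨I₁, -, hI₁⟩ := exists_subset_card_eq (s := (univ : Finset (Fin N))) (n := n₁)
    (by simp; omega)
  obtain ⟨I₂, hI, hI₂⟩ := exists_subset_card_eq (s := univ \ I₁) (n := n₁)
    (by rw [card_univ_sdiff]; simp; omega)
  have hd : Disjoint I₁ I₂ := disjoint_left.mpr fun i h1 h2 => (mem_sdiff.mp (hI h2)).2 h1
  have ht1 : z ^ 2 ≤ 1 := by nlinarith
  obtain ⟨f, a, r, hf, e1, e2, e3, e4, e5⟩ :=
    G1.g1 h1 h3 h hL (pow_pos hz 2) ht1 hn hI₁ hI₂ hd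
  set Z := heatTuple (sig p y L) S' (z ^ 2) with hZ
  rw [Real.sqrt_sq hz.le] at e2 e4
  have hZsa : ∀ i, IsSelfAdjoint (Z i) := heat_sa (sig_sa h L) h.S_sa _
  have hc : IsSelfAdjoint (polyEval Z f) := by
    rw [IsSelfAdjoint, polyEval_pe, star_pe Z fun i => (hZsa i).star_eq, hf]
  obtain ⟨q1, q2, q3⟩ := hG2 A τ k p L _ a r h.tr h.p_sa h.p_mul h.p_sum hL hc e1 (e2.trans c4)
  obtain ⟨r1, r2⟩ := hG3 A τ N k p y S' L (z ^ 2) η _ (I₁ ∪ I₂) h (pow_pos hz 2) hη hc q1 q2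
    (q3.trans (le_trans (by gcongr) c5))
    fun i hi => e5 i (fun h' => hi (mem_union_left _ h')) fun h' => hi (mem_union_right _ h')
  rw [card_union_of_disjoint hd, hI₁, hI₂, Real.sqrt_sq hz.le] at r2
  obtain ⟨hn1, -⟩ := h3 A τ h.tr
  have hZn : ∀ l, ‖Z l‖ ≤ k * L + 4 := fun l => by
    have a1 : ‖sig p y L l‖ ≤ k * L + 2 := by
      refine Fin.cases ?_ (fun i => ?_) l
      · exact (G1.cen_norm h hL).trans (by linarith)
      · exact (h.y_norm i).trans (le_add_of_nonneg_left (by positivity))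
    refine (norm_add_le _ _).trans ?_
    rw [norm_smul, Real.sqrt_sq hz.le, Complex.norm_real, Real.norm_of_nonneg hz.le]
    nlinarith [h.S_norm l, norm_nonneg (S' l)]
  have hTb : ∑ l, (τ (Z l * Z l)).re < T := by
    refine lt_of_le_of_lt ?_ c9
    have : ∀ l ∈ univ, (τ (Z l * Z l)).re ≤ (k * L + 4) ^ 2 := fun l _ =>
      ((Complex.re_le_norm _).trans (hn1 _)).trans ((norm_mul_le _ _).trans
        (by rw [pow_two]; gcongr <;> exact hZn l))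
    simpa using sum_le_card_nsmul _ _ _ this
  have hE0 : 0 ≤ E := le_trans (by positivity) c7.le
  have hT0 : 0 ≤ T := le_trans (by positivity) c9.le
  have hTr := hT A τ N k Z f L E T hn1 hk hL hZsa hf
    (fun j => (r1 j).trans_lt (by rw [show (2 : ℝ) / k = 1 / k + 1 / k by ring]; linarith))
    (r2.trans_lt (by push_cast; linarith)) hTb
  refine hUP A τ (N + 1) Z (z ^ 2) _ (Real.log k) (pow_pos hz 2) fun R => ?_
  obtain ⟨m', ε, hε, hsub⟩ := hTr R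
  refine ⟨m', ε, hε, fun d hd0 => ((measure_mono (hsub d hd0)).trans
    (hV N k d m E T (z ^ 2) hk hd0 hE0 hT0 (pow_pos hz 2) (by linarith))).trans ?_⟩
  have b1 : (√E + 4 / 2 ^ m * √T) ^ 2 ≤ E + z ^ 2 := by
    have u1 : 4 / 2 ^ m * √T ≤ z ^ 2 / 3 := by
      rw [div_mul_eq_mul_div, div_le_div_iff₀ (by positivity) (by positivity)]; linarith
    have u2 : √E ≤ 1 := Real.sqrt_le_one.mpr c8
    have u3 : 0 ≤ 4 / 2 ^ m * √T := by positivity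
    have u4 := Real.sq_sqrt hE0
    have u5 := Real.sqrt_nonneg E
    nlinarith
  have b2 : Real.log 5 ≤ 4 := by linarith [Real.log_le_sub_one_of_pos (x := 5) (by norm_num)]
  refine ENNReal.ofReal_le_ofReal (Real.exp_le_exp.mpr ?_)
  push_cast
  simp only [add_assoc]
  gcongr

end

theorem core (hRM : RMStmt) (hUL : ULStmt) (h1 : W1Stmt) (h3 : W3Stmt) (h4 : W4Stmt)
    (hFI : FIStmt) (hCS : CSStmt) (hLO : LOStmt) (hG2 : G2Stmt) (hG3 : G3Stmt) (hT : TStmt)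
    (hV : VStmt) (hUP : UPStmt) (N k n₁ m : ℕ) (L z σ₁ η E T Λ : ℝ) (hk : 0 < k) (hn : 0 < n₁)
    (h2n : 2 * n₁ ≤ N) (hL : 0 < L) (hz : 0 < z) (hz1 : z ≤ 1)
    (c1 : 108 * (k * L) ^ 2 ≤ σ₁) (c2 : 216 * √N ≤ σ₁) (c3 : 1728 ≤ σ₁)
    (c4 : 2200 * z * (1 + k * L) ≤ L / 4) (hη : 0 ≤ η)
    (c5 : 3 * (1600 * z ^ 2 / n₁) + 8 * (162 * z / n₁ + 2016 * z ^ 2 * (1 + k * L)) ^ 2 / L ^ 2 ≤
      η ^ 2) (c6 : η ^ 2 < 1 / k)
    (c7 : N * z ^ 2 + 32 * N * η ^ 2 + 12 * (2 * n₁) * z * η < E) (c8 : E ≤ 1)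
    (c9 : (N + 1) * (k * L + 4) ^ 2 < T) (c10 : 12 * √T ≤ z ^ 2 * 2 ^ m)
    (c11 : Real.log ((T + 1) / z ^ 2) ≤ Λ)
    (c12 : (E + z ^ 2) / (2 * z ^ 2) + 1 / 2 + (N / k + 1 / 2) * Λ + 2 * m * 4 ≤
      N / 2 + N / 2 / (2 * σ₁)) : Goal := by
  obtain ⟨A, inst, τ, p, y, S', S, ρ, x, h, hS, hsa, hxh, hxρ, hx⟩ :=
    model hRM hUL h1 h3 h4 N hk L
  have hup := upper h1 h3 hG2 hG3 hT hV hUP h hn h2n hL hz hz1 c4 hη c5 c6 c7 c8 c9 c10 c11
  set Z := heatTuple (sig p y L) S' (z ^ 2) with hZ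
  have ht : 0 < z ^ 2 := pow_pos hz 2
  have ht1 : z ^ 2 ≤ 1 := by nlinarith
  obtain ⟨hn1, -, -, -, hw⟩ := h3 A τ h.tr
  have hSZ : SDL τ (Algebra.adjoin ℂ (Set.range Z)) S := by
    refine sdl_mono ((h1 A τ).2.1 _ _ _ _ _ hS).1 (Algebra.adjoin_le ?_)
    rintro _ ⟨l, rfl⟩
    have : S' l ∈ Algebra.adjoin ℂ (Set.range S') := Algebra.subset_adjoin ⟨l, rfl⟩
    exact add_mem ((le_sup_left : Algebra.adjoin ℂ _ ≤ _) (sig_mem L l)) (Subalgebra.smul_mem _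
      ((le_sup_right : Algebra.adjoin ℂ _ ≤ _) this) _)
  have hfi := fun (s : ℝ) (hs : 0 < s) => by
    have := rot h1 h3 h hS hsa (sig p y L) ht hs
    exact this.imp fun S'' hh => And.intro hh.2
      (hFI A τ N k p y S'' L (z ^ 2 + s) hh.1 hL (by positivity))
  have hN : (0 : ℝ) ≤ N := by positivity
  obtain ⟨i1, i2⟩ := hCS A τ (N + 1) Z S (z ^ 2) ((k * L) ^ 2 + 1) σ₁ (N / 2)
    (τ.mkContinuous 1 (by simpa using hn1)).continuous ht (by positivity) (by linarith)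
    (by positivity) (by push_cast; nlinarith) fun s hs => by
      obtain ⟨S'', e, f1, f2, f3⟩ := hfi s hs
      rw [hZ, e]
      push_cast
      exact ⟨f1, f2, fun hσ => f3 (c1.trans hσ) (c2.trans hσ) (c3.trans hσ)⟩
  refine ⟨A, inst, τ, N + 1, Z, S, h.tr, by omega, heat_sa (sig_sa h L) h.S_sa _,
    ⟨hsa, fun i => (hw _ _ _ hSZ hsa i).2⟩, w2 A τ _ Z S (tr_of h) hSZ, fun s hs => ?_, i1,
    hLO A τ (N + 1) _ S' _ ρ x (by omega) (tr_of h) ht (sdl_mono h.S_sd (Algebra.adjoin_le ?_))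
      hxh hxρ hx, hup.trans (EReal.coe_le_coe_iff.mpr ?_)⟩
  · obtain ⟨S'', e, -, f2, -⟩ := hfi s hs
    rw [hZ, e]
    exact f2.trans_lt ENNReal.ofReal_lt_top
  · rintro _ ⟨l, rfl⟩
    exact sig_mem L l
  · push_cast at i2 ⊢
    linarith

set_option exponentiation.threshold 3000 in
theorem goal (hRM : RMStmt) (hUL : ULStmt) (h1 : W1Stmt) (h3 : W3Stmt) (h4 : W4Stmt)
    (hFI : FIStmt) (hCS : CSStmt) (hLO : LOStmt) (hG2 : G2Stmt) (hG3 : G3Stmt) (hT : TStmt)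
    (hV : VStmt) (hUP : UPStmt) : Goal := by
  refine core hRM hUL h1 h3 h4 hFI hCS hLO hG2 hG3 hT hV hUP (2 ^ 320) (2 ^ 200) (2 ^ 240) 1040
    (1 / 2 ^ 120) (1 / 2 ^ 360) (1728 * 2 ^ 160) (500 / 2 ^ 480)
    ((2 ^ 320 + 2 ^ 134) / 2 ^ 720) (2 ^ 520) 1280 (by positivity) (by positivity) (by norm_num)
    (by positivity) (by positivity) (by norm_num) (by norm_num) ?_ (by norm_num) (by norm_num)
    (by positivity) (by norm_num) (by norm_num) (by norm_num) (by norm_num) (by norm_num) ?_ ?_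
    (by norm_num)
  · have : √((2 ^ 320 : ℕ) : ℝ) ≤ 2 ^ 160 := Real.sqrt_le_iff.mpr ⟨by positivity, by norm_num⟩
    linarith
  · have : √((2 : ℝ) ^ 520) ≤ 2 ^ 260 := Real.sqrt_le_iff.mpr ⟨by positivity, by norm_num⟩
    refine le_trans (by gcongr) (by norm_num)
  · have h2 : Real.log 2 ≤ 1 := by linarith [Real.log_le_sub_one_of_pos (x := 2) (by norm_num)]
    calc _ ≤ Real.log (2 ^ 1280) := Real.log_le_log (by positivity) (by norm_num)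
      _ = 1280 * Real.log 2 := by rw [Real.log_pow]; norm_num
      _ ≤ _ := by linarith

end Crest.Agent.FE.As
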