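import Crest.Prelude.Def_CStarRep
import Crest.Prelude.Def_FreeEntropy

/-! Definitions and piece statements for S0118 (microstates versus non-microstates entropy). -/

set_option autoImplicit false
open Crest.OpAlg MeasureTheory Filter Topology
open scoped ENNReal

namespace Crest.Agent.FE

/-- product of the letters of a word -/
def ev {Λ A : Type*} [Monoid A] (a : Λ → A) (w : List Λ) : A := (w.map a).prod

/-- sum over all splittings `b = u ++ i :: v` -/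
def spl {Λ M : Type*} [AddCommMonoid M] : List Λ → (List Λ → Λ → List Λ → M) → M
  | [], _ => 0
  | a :: b, F => F [] a b + spl b fun u i v => F (a :: u) i v

section alg
variable {A : Type*} [Ring A] [Algebra ℂ A]

/-- Schwinger-Dyson defect of the letter `g j` on the word `w` -/
noncomputable def sdd {β κ : Type*} [DecidableEq κ] (τ : A →ₗ[ℂ] ℂ) (x : β → A) (g : κ → A)
    (j : κ) (w : List (β ⊕ κ)) : ℂ :=
  τ (g j * ev (Sum.elim x g) w) - spl w fun u i v =>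
    Sum.elim (fun _ => (0 : ℂ)) (fun j' => if j' = j then 1 else 0) i *
      (τ (ev (Sum.elim x g) u) * τ (ev (Sum.elim x g) v))

/-- monomial Schwinger-Dyson equations -/
def SD {β κ : Type*} [DecidableEq κ] (τ : A →ₗ[ℂ] ℂ) (x : β → A) (g : κ → A) : Prop :=
  ∀ j w, sdd τ x g j w = 0

/-- affine letter -/
noncomputable def aff {κ : Type*} [Fintype κ] (g : κ → A) (e : A × (κ → ℂ)) : A :=
  e.1 + ∑ j, e.2 j • g j

/-- Schwinger-Dyson equations for affine letters with constant parts in `B` -/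
def SDL {κ : Type*} [Fintype κ] (τ : A →ₗ[ℂ] ℂ) (B : Subalgebra ℂ A) (g : κ → A) : Prop :=
  ∀ (j : κ) (L : List (A × (κ → ℂ))), (∀ e ∈ L, e.1 ∈ B) →
    τ (g j * ev (aff g) L) = spl L fun u e v => e.2 j * (τ (ev (aff g) u) * τ (ev (aff g) v))

/-- trace property and normalisation -/
def Tr (τ : A →ₗ[ℂ] ℂ) : Prop := τ 1 = 1 ∧ ∀ a b : A, τ (a * b) = τ (b * a)

end alg

/-- normalised trace -/
noncomputable def ntr (d : ℕ) : Matrix (Fin d) (Fin d) ℂ →ₗ[ℂ] ℂ :=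
  (d : ℂ)⁻¹ • Matrix.traceLinearMap (Fin d) ℂ ℂ

/-- operator norm -/
noncomputable def opn {d : ℕ} (M : Matrix (Fin d) (Fin d) ℂ) : ℝ :=
  ‖Matrix.toEuclideanCLM (n := Fin d) (𝕜 := ℂ) M‖

/-- GUE normalisation of a coordinate vector -/
noncomputable def gue {κ : Type} {d : ℕ} (a : EuclideanSpace ℝ (κ × (Fin d × Fin d))) (l : κ) :
    Matrix (Fin d) (Fin d) ℂ :=
  ((Real.sqrt d)⁻¹ : ℂ) • hermitianOfCoords (WithLp.toLp 2 fun p => a (l, p))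

/-- squared 2-norm -/
noncomputable def n2 {A : Type*} [CStarAlgebra A] (τ : A →ₗ[ℂ] ℂ) (x : A) : ℝ := (τ (star x * x)).re

/-- trapezoid equal to 1 near `j L` -/
noncomputable def hat (L : ℝ) (j : ℕ) (x : ℝ) : ℝ := max 0 (min 1 (2 - 4 * |x - j * L| / L))

/-- the hidden central element -/
noncomputable def cen {A : Type*} [CStarAlgebra A] {k : ℕ} (p : Fin k → A) (L : ℝ) : A :=
  ∑ j : Fin k, (((j : ℕ) * L : ℝ) : ℂ) • p j

/-- the signal tuple `(c, y_1, ..., y_N)` -/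
noncomputable def sig {A : Type*} [CStarAlgebra A] {N k : ℕ} (p : Fin k → A) (y : Fin N → A)
    (L : ℝ) : Fin (N + 1) → A := Fin.cons (cen p L) y

/-- the limit model -/
structure Setup {A : Type} [CStarAlgebra A] {N k : ℕ} (τ : A →ₗ[ℂ] ℂ) (p : Fin k → A)
    (y : Fin N → A) (S : Fin (N + 1) → A) : Prop where
  tr : IsFaithfulTracialState τ
  kpos : 0 < k
  p_sa : ∀ j, IsSelfAdjoint (p j)
  p_mul : ∀ j l, p j * p l = if j = l then p j else 0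
  p_sum : ∑ j, p j = 1
  y_sa : ∀ i, IsSelfAdjoint (y i)
  y_comm : ∀ j i, p j * y i = y i * p j
  y_sd : SDL τ ⊥ y
  y_norm : ∀ i, ‖y i‖ ≤ 2
  p_ind : ∀ j, ∀ a ∈ Algebra.adjoin ℂ (Set.range y), τ (p j * a) = τ a / k
  S_sa : ∀ i, IsSelfAdjoint (S i)
  S_sd : SDL τ (Algebra.adjoin ℂ (Set.range p ∪ Set.range y)) S
  S_norm : ∀ i, ‖S i‖ ≤ 2

/-- off-block energy -/
noncomputable def offE {A : Type*} [CStarAlgebra A] {k : ℕ} (τ : A →ₗ[ℂ] ℂ) (q : Fin k → A)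
    (z : A) : ℝ := (τ (z * z) - ∑ j, τ (q j * z * q j * z)).re

/-- matrix tuples close to block diagonal form -/
def Blocky (N k d : ℕ) (E T : ℝ) : Set (EuclideanSpace ℝ (Fin (N + 1) × (Fin d × Fin d))) :=
  {a | (∑ l, ∑ x, ∑ y, ‖matrixTuple a l x y‖ ^ 2 ≤ T * d) ∧
    ∃ U ∈ Matrix.unitaryGroup (Fin d) ℂ, ∃ cl : Fin d → Fin k,
      (∀ j, (((Finset.univ.filter fun x => cl x = j).card : ℕ) : ℝ) ≤ 2 * d / k) ∧
      ∑ i : Fin N, ∑ x, ∑ y, (if cl x = cl y then 0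
        else ‖(star U * matrixTuple a i.succ * U) x y‖ ^ 2) ≤ E * d}

/-! ### Piece statements -/

/-- (RM) random matrices: approximate Schwinger-Dyson on a set of volume at least one -/
def RMStmt : Prop :=
  ∀ (β κ : Type) [Fintype β] [Fintype κ] [DecidableEq κ] [Nonempty κ], ∃ R₀ : ℝ,
    ∀ (ρ ε : ℝ) (m : ℕ), 0 < ε → ∀ᶠ d : ℕ in atTop, ∀ x : β → Matrix (Fin d) (Fin d) ℂ, (∀ b, opn (x b) ≤ ρ) →
      1 ≤ volume {a : EuclideanSpace ℝ (κ × (Fin d × Fin d)) | (∀ j, opn (gue a j) ≤ R₀) ∧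
        ∀ j (w : List (β ⊕ κ)), w.length ≤ m → ‖sdd (ntr d) x (gue a) j w‖ ≤ ε}

/-- (RMn) operator norm of GUE: exponential moment -/
def RMnStmt : Prop :=
  ∃ C : ℝ, ∀ (d : ℕ), 0 < d →
    ∫⁻ z : Fin d × Fin d → ℝ, ENNReal.ofReal (Real.exp
      (opn (((Real.sqrt d)⁻¹ : ℂ) • hermitianOfCoords (WithLp.toLp 2 z)) / 4))
      ∂(Measure.pi fun _ => ProbabilityTheory.gaussianReal 0 1) ≤ ENNReal.ofReal C

/-- (UL) ultralimit of bounded Hermitian matrix families -/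
def ULStmt : Prop :=
  ∀ (Λ : Type) (M : (d : ℕ) → Λ → Matrix (Fin d) (Fin d) ℂ), (∀ d l, (M d l).IsHermitian) →
    (∀ l, ∃ ρ : ℝ, ∀ d, opn (M d l) ≤ ρ) →
    ∃ (A : Type) (_ : CStarAlgebra A) (τ : A →ₗ[ℂ] ℂ) (a : Λ → A), IsFaithfulTracialState τ ∧
      (∀ l, IsSelfAdjoint (a l)) ∧ ∀ P : FreeAlgebra ℂ Λ,
        Tendsto (fun d => ntr d (FreeAlgebra.lift ℂ (M d) P)) (hyperfilter ℕ : Filter ℕ)
          (𝓝 (τ (FreeAlgebra.lift ℂ a P)))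

/-- (W1) toolkit for the Schwinger-Dyson equations -/
def W1Stmt : Prop :=
  ∀ (A : Type) [Ring A] [Algebra ℂ A] (τ : A →ₗ[ℂ] ℂ),
    (∀ (β κ : Type) [Fintype κ] [DecidableEq κ] (x : β → A) (g : κ → A),
      SD τ x g → SDL τ (Algebra.adjoin ℂ (Set.range x)) g) ∧
    (∀ (κ₁ κ₂ : Type) [Fintype κ₁] [Fintype κ₂] (B : Subalgebra ℂ A) (g₁ : κ₁ → A) (g₂ : κ₂ → A),
      SDL τ B (Sum.elim g₁ g₂) → SDL τ (B ⊔ Algebra.adjoin ℂ (Set.range g₁)) g₂ ∧ SDL τ B g₁) ∧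
    (∀ (κ : Type) [Fintype κ] [DecidableEq κ] (B : Subalgebra ℂ A) (g : κ → A) (j : κ),
      SDL τ B g → ∀ b ∈ B ⊔ Algebra.adjoin ℂ (g '' {l | l ≠ j}), ∀ b' ∈
        B ⊔ Algebra.adjoin ℂ (g '' {l | l ≠ j}), τ (g j * b) = 0 ∧
          τ (g j * b * g j * b') = τ b * τ b') ∧
    (∀ (κ : Type) [Fintype κ] (B : Subalgebra ℂ A) (g₁ g₂ : κ → A) (α β : ℝ), α ^ 2 + β ^ 2 = 1 →
      SDL τ B (Sum.elim g₁ g₂) → SDL τ B fun j => (α : ℂ) • g₁ j + (β : ℂ) • g₂ j)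

/-- (W2) Schwinger-Dyson implies freeness -/
def W2Stmt : Prop :=
  ∀ (A : Type) [Ring A] [Algebra ℂ A] (τ : A →ₗ[ℂ] ℂ) (n : ℕ) (Z S : Fin n → A), Tr τ →
    SDL τ (Algebra.adjoin ℂ (Set.range Z)) S → IsFreeFamily τ (withNoise Z S)

/-- (W3) semicircular moments and norm; continuity and Cauchy-Schwarz for the trace -/
def W3Stmt : Prop :=
  ∀ (A : Type) [CStarAlgebra A] (τ : A →ₗ[ℂ] ℂ), IsFaithfulTracialState τ →
    (∀ a : A, ‖τ a‖ ≤ ‖a‖) ∧ (∀ a : A, τ (star a) = starRingEnd ℂ (τ a)) ∧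
    (∀ a b : A, ‖τ (star a * b)‖ ^ 2 ≤ n2 τ a * n2 τ b) ∧
    (∀ a b : A, n2 τ (a * b) ≤ ‖a‖ ^ 2 * n2 τ b ∧ n2 τ (a * b) ≤ n2 τ a * ‖b‖ ^ 2) ∧
    ∀ (κ : Type) [Fintype κ] (B : Subalgebra ℂ A) (g : κ → A), SDL τ B g →
      (∀ j, IsSelfAdjoint (g j)) → ∀ j, ‖g j‖ ≤ 2 ∧
        ∀ m : ℕ, τ (g j ^ (2 * m)) = (catalan m : ℂ) ∧ τ (g j ^ (2 * m + 1)) = 0

/-- (W4) block compression of free semicirculars -/
def W4Stmt : Prop :=
  ∀ (A : Type) [Ring A] [Algebra ℂ A] (τ : A →ₗ[ℂ] ℂ) (N k : ℕ) (p : Fin k → A) (G : Fin N → A),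
    Tr τ → 0 < k → (∀ j l, p j * p l = if j = l then p j else 0) → ∑ j, p j = 1 →
    (∀ j, τ (p j) = 1 / k) → SDL τ (Algebra.adjoin ℂ (Set.range p)) G →
    SDL τ ⊥ (fun i => ((Real.sqrt k : ℝ) : ℂ) • ∑ j, p j * G i * p j) ∧
      ∀ j, ∀ a ∈ Algebra.adjoin ℂ (Set.range fun i => ((Real.sqrt k : ℝ) : ℂ) • ∑ j, p j * G i * p j),
        τ (p j * a) = τ a / k

/-- (H) hardness of estimating `y i` at high noise -/
def HStmt : Prop :=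
  ∀ (A : Type) [CStarAlgebra A] (τ : A →ₗ[ℂ] ℂ) (N k : ℕ) (p : Fin k → A) (y : Fin N → A)
    (S : Fin (N + 1) → A) (L σ : ℝ), Setup τ p y S → 0 < L → 0 < σ → 108 * (k * L) ^ 2 ≤ σ →
    216 * Real.sqrt N ≤ σ → ∀ (i : Fin N) (P : NCPoly (N + 1)),
      ‖τ (y i * polyEval (heatTuple (sig p y L) S σ) P)‖ ^ 2 ≤
        864 / σ * n2 τ (polyEval (heatTuple (sig p y L) S σ) P)

/-- (FI) bounds on the free Fisher information -/
def FIStmt : Prop :=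
  ∀ (A : Type) [CStarAlgebra A] (τ : A →ₗ[ℂ] ℂ) (N k : ℕ) (p : Fin k → A) (y : Fin N → A)
    (S : Fin (N + 1) → A) (L σ : ℝ), Setup τ p y S → 0 < L → 0 < σ →
    ENNReal.ofReal ((N + 1 : ℝ) / (σ + ((k * L) ^ 2 + 1))) ≤
        freeFisher τ (heatTuple (sig p y L) S σ) ∧
      freeFisher τ (heatTuple (sig p y L) S σ) ≤ ENNReal.ofReal ((N + 1 : ℝ) / σ) ∧
      (108 * (k * L) ^ 2 ≤ σ → 216 * Real.sqrt N ≤ σ → 1728 ≤ σ →
        freeFisher τ (heatTuple (sig p y L) S σ) ≤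
          ENNReal.ofReal ((N + 1 : ℝ) / σ - N / 2 / σ ^ 2))

/-- (CS) lower bound for the non-microstates entropy -/
def CSStmt : Prop :=
  ∀ (A : Type) [CStarAlgebra A] (τ : A →ₗ[ℂ] ℂ) (n : ℕ) (Z S : Fin n → A) (t V σ₁ g : ℝ),
    Continuous τ → 0 < t → 0 ≤ V → t ≤ σ₁ → 0 ≤ g → g ≤ n * σ₁ →
    (∀ s : ℝ, 0 < s → ENNReal.ofReal ((n : ℝ) / (t + s + V)) ≤ freeFisher τ (heatTuple Z S s) ∧
      freeFisher τ (heatTuple Z S s) ≤ ENNReal.ofReal ((n : ℝ) / (t + s)) ∧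
      (σ₁ ≤ t + s → freeFisher τ (heatTuple Z S s) ≤
        ENNReal.ofReal ((n : ℝ) / (t + s) - g / (t + s) ^ 2))) →
    IntegrableOn (fun s : ℝ => (n : ℝ) / (1 + s) - (freeFisher τ (heatTuple Z S s)).toReal)
        (Set.Ioi 0) ∧
      (n : ℝ) / 2 * Real.log (2 * Real.pi * t) + n / 2 + g / (2 * σ₁) ≤ chiStar τ Z S

/-- (LO) the microstates entropy is not `-∞` -/
def LOStmt : Prop :=
  ∀ (A : Type) [Ring A] [Algebra ℂ A] (τ : A →ₗ[ℂ] ℂ) (n : ℕ) (X S : Fin n → A) (t ρ : ℝ)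
    (x : (d : ℕ) → Fin n → Matrix (Fin d) (Fin d) ℂ), 0 < n → Tr τ → 0 < t →
    SDL τ (Algebra.adjoin ℂ (Set.range X)) S → (∀ d l, (x d l).IsHermitian) →
    (∀ d l, opn (x d l) ≤ ρ) →
    (∀ w : List (Fin n), Tendsto (fun d => ntr d (ev (x d) w)) (hyperfilter ℕ : Filter ℕ)
      (𝓝 (τ (ev X w)))) → ⊥ < chi τ (heatTuple X S t)

/-- (G1) polynomial estimator of the hidden central element -/
def G1Stmt : Prop :=
  ∀ (A : Type) [CStarAlgebra A] (τ : A →ₗ[ℂ] ℂ) (N k : ℕ) (p : Fin k → A) (y : Fin N → A)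
    (S : Fin (N + 1) → A) (L t : ℝ) (I₁ I₂ : Finset (Fin N)) (n₁ : ℕ), Setup τ p y S → 0 < L →
    0 < t → t ≤ 1 → 0 < n₁ → I₁.card = n₁ → I₂.card = n₁ → Disjoint I₁ I₂ →
    ∃ (f : NCPoly (N + 1)) (a r : A), polyStar f = f ∧
      polyEval (heatTuple (sig p y L) S t) f = cen p L - (a * cen p L - cen p L * a) + r ∧
      ‖polyEval (heatTuple (sig p y L) S t) f - cen p L‖ ≤ 2200 * Real.sqrt t * (1 + k * L) ∧
      n2 τ a ≤ 64 * t / n₁ ∧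
      n2 τ r ≤ (4 * Real.sqrt t / n₁ + 2016 * t * (1 + k * L)) ^ 2 ∧
      ∀ i : Fin N, i ∉ I₁ → i ∉ I₂ → polyEval (heatTuple (sig p y L) S t) f ∈
        Algebra.adjoin ℂ (Set.range p ∪ Set.range y) ⊔ Algebra.adjoin ℂ (S '' {l | l ≠ i.succ})

/-- (G2) perturbation of the spectral projections -/
def G2Stmt : Prop :=
  ∀ (A : Type) [CStarAlgebra A] (τ : A →ₗ[ℂ] ℂ) (k : ℕ) (p : Fin k → A) (L : ℝ) (c a r : A),
    IsFaithfulTracialState τ → (∀ j, IsSelfAdjoint (p j)) →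
    (∀ j l, p j * p l = if j = l then p j else 0) → ∑ j, p j = 1 → 0 < L → IsSelfAdjoint c →
    c = cen p L - (a * cen p L - cen p L * a) + r → ‖c - cen p L‖ ≤ L / 4 →
    (∀ j l : Fin k, cfc (hat L j) c * cfc (hat L l) c = if j = l then cfc (hat L j) c else 0) ∧
    ∑ j : Fin k, cfc (hat L j) c = 1 ∧
    1 - ∑ j : Fin k, (τ (cfc (hat L j) c * p j)).re ≤ 3 * n2 τ a + 8 * n2 τ r / L ^ 2

/-- (G3) off-block energy in the limit model -/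
def G3Stmt : Prop :=
  ∀ (A : Type) [CStarAlgebra A] (τ : A →ₗ[ℂ] ℂ) (N k : ℕ) (p : Fin k → A) (y : Fin N → A)
    (S : Fin (N + 1) → A) (L t η : ℝ) (c : A) (I : Finset (Fin N)), Setup τ p y S → 0 < t →
    0 ≤ η → IsSelfAdjoint c →
    (∀ j l : Fin k, cfc (hat L j) c * cfc (hat L l) c = if j = l then cfc (hat L j) c else 0) →
    ∑ j : Fin k, cfc (hat L j) c = 1 →
    1 - ∑ j : Fin k, (τ (cfc (hat L j) c * p j)).re ≤ η ^ 2 →
    (∀ i : Fin N, i ∉ I → c ∈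
      Algebra.adjoin ℂ (Set.range p ∪ Set.range y) ⊔ Algebra.adjoin ℂ (S '' {l | l ≠ i.succ})) →
    (∀ j : Fin k, 1 - ∑ l ∈ Finset.univ.erase j, (τ (cfc (hat L l) c)).re ≤ 1 / k + η ^ 2) ∧
    ∑ i : Fin N, offE τ (fun j : Fin k => cfc (hat L j) c) (heatTuple (sig p y L) S t i.succ) ≤
      N * t + 32 * N * η ^ 2 + 12 * I.card * Real.sqrt t * η

/-- (T) transfer to microstates -/
def TStmt : Prop :=
  ∀ (A : Type) [CStarAlgebra A] (τ : A →ₗ[ℂ] ℂ) (N k : ℕ) (Z : Fin (N + 1) → A)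
    (f : NCPoly (N + 1)) (L E T : ℝ), (∀ a : A, ‖τ a‖ ≤ ‖a‖) → 0 < k → 0 < L →
    (∀ i, IsSelfAdjoint (Z i)) → polyStar f = f →
    (∀ j : Fin k, 1 - ∑ l ∈ Finset.univ.erase j, (τ (cfc (hat L l) (polyEval Z f))).re < 2 / k) →
    ∑ i : Fin N, offE τ (fun j : Fin k => cfc (hat L j) (polyEval Z f)) (Z i.succ) < E →
    ∑ l, (τ (Z l * Z l)).re < T →
    ∀ R : ℝ, ∃ (m : ℕ) (ε : ℝ), 0 < ε ∧ ∀ d : ℕ, 0 < d →
      microstates τ Z R m d ε ⊆ Blocky N k d E T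

/-- (Net) nets of the unitary group in operator norm -/
def NetStmt : Prop :=
  ∀ d m : ℕ, ∃ s : Finset (Matrix (Fin d) (Fin d) ℂ), s.card ≤ 5 ^ (2 * d ^ 2 * m) ∧
    (∀ V ∈ s, V ∈ Matrix.unitaryGroup (Fin d) ℂ) ∧
    ∀ U ∈ Matrix.unitaryGroup (Fin d) ℂ, ∃ V ∈ s, opn (U - V) ≤ 2 / 2 ^ m

/-- (V) volume of the blocky set -/
def VStmt : Prop :=
  ∀ (N k d m : ℕ) (E T t : ℝ), 0 < k → 0 < d → 0 ≤ E → 0 ≤ T → 0 < t → t ≤ T + 1 →
    volume (Blocky N k d E T) ≤ ENNReal.ofReal (Real.exp ((d : ℝ) ^ 2 *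
      ((N + 1 : ℝ) / 2 * Real.log (2 * Real.pi * t / d) +
        (Real.sqrt E + 4 / 2 ^ m * Real.sqrt T) ^ 2 / (2 * t) + 1 / 2 +
        (N / k + 1 / 2) * Real.log ((T + 1) / t) + 2 * m * Real.log 5) + d * Real.log k))

/-- (UP) from volumes to the microstates entropy -/
def UPStmt : Prop :=
  ∀ (A : Type) [Ring A] [Algebra ℂ A] (τ : A →ₗ[ℂ] ℂ) (n : ℕ) (Z : Fin n → A) (t b c : ℝ), 0 < t →
    (∀ R : ℝ, ∃ (m : ℕ) (ε : ℝ), 0 < ε ∧ ∀ d : ℕ, 0 < d →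
      volume (microstates τ Z R m d ε) ≤ ENNReal.ofReal (Real.exp ((d : ℝ) ^ 2 *
        ((n : ℝ) / 2 * Real.log (2 * Real.pi * t / d) + b) + d * c))) →
    chi τ Z ≤ (((n : ℝ) / 2 * Real.log (2 * Real.pi * t) + b : ℝ) : EReal)

end Crest.Agent.FE
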