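import Crest.Agent.FE.Poly

/-! (FI) bounds on the free Fisher information along the heat flow. -/

set_option autoImplicit false
open Crest.OpAlg Finset

namespace Crest.Agent.FE.Fi
open Po Hd

lemma sum_spl {Λ M : Type*} [AddCommMonoid M] [DecidableEq Λ] (i : Λ) (w : List Λ) :
    ∀ F : List Λ → List Λ → M, (∑ k ∈ range w.length,
      if w[k]? = some i then F (w.take k) (w.drop (k + 1)) else 0) =
      spl w fun u j v => if j = i then F u v else 0 := by
  induction w with
  | nil => simp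
  | cons a w ih =>
    intro F
    rw [List.length_cons, sum_range_succ', spl_cons, add_comm, ← ih fun u v => F (a :: u) v]
    simp

section gen
variable {A : Type*} [Ring A] [Algebra ℂ A] {τ : A →ₗ[ℂ] ℂ} {n : ℕ} {B : Subalgebra ℂ A}

lemma split_eq {X S : Fin n → A} (hS : SDL τ B S) (hX : ∀ l, X l ∈ B) (σ : ℝ) (i : Fin n)
    (P : NCPoly n) : τ (S i * pe (heatTuple X S σ) P) =
      (√σ : ℝ) * splitPairing τ (heatTuple X S σ) i P := by
  induction P using MonoidAlgebra.induction_linear with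
  | zero => simp [splitPairing]
  | add P Q hP hQ =>
    rw [map_add, mul_add, map_add, hP, hQ, ← mul_add]
    unfold splitPairing
    rw [MonoidAlgebra.coeff_add, Finsupp.sum_add_index'] <;> simp [add_mul]
  | single w c =>
    set z : Fin n → A × (Fin n → ℂ) := fun l => (X l, Pi.single l ((√σ : ℝ) : ℂ)) with hz
    have hev : ∀ b : List (Fin n), ev (aff S) (b.map z) = ev (heatTuple X S σ) b := by
      intro b; rw [ev_map]; congr 1; funext l
      simp [aff, hz, heatTuple, Pi.single_apply, ite_smul]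
    have e1 := hS i ((FreeMonoid.toList w).map z) (by
      intro a ha
      obtain ⟨l, _, rfl⟩ := List.mem_map.mp ha
      exact hX l)
    simp only [spl_map, hev] at e1
    have e2 : splitPairing τ (heatTuple X S σ) i (MonoidAlgebra.single w c) =
        c * spl (FreeMonoid.toList w) fun u j v => if j = i then
          τ (ev (heatTuple X S σ) u) * τ (ev (heatTuple X S σ) v) else 0 := by
      rw [← sum_spl]
      simp only [splitPairing, MonoidAlgebra.coeff_single]
      rw [Finsupp.sum_single_index (by simp)]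
      simp only [wordEval, FreeMonoid.lift_apply, Equiv.apply_symm_apply, ev]
    rw [e2, pe_single, mul_smul_comm, map_smul, e1, smul_eq_mul, mul_left_comm, mul_spl ((√σ : ℝ) : ℂ)]
    congr 1
    refine spl_congr fun u j v _ => ?_
    by_cases hj : j = i
    · simp [hz, hj]
    · simp [hz, hj, Ne.symm hj]

lemma sq_one {κ : Type*} [Fintype κ] [DecidableEq κ] {S : κ → A} (h1 : τ 1 = 1) (hS : SDL τ B S)
    (i : κ) : τ (S i * S i) = 1 := by
  simpa [spl_cons, ev_cons, aff, Pi.single_apply, h1] using hS i [(0, Pi.single i 1)] (by simp)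

lemma orth {κ : Type*} [Fintype κ] {S : κ → A} (hS : SDL τ B S) (i : κ) {b : A} (hb : b ∈ B) :
    τ (S i * b) = 0 := by
  simpa [spl_cons, ev_cons, aff] using hS i [(b, 0)] (by simpa using hb)

end gen

variable {A : Type} [CStarAlgebra A] {τ : A →ₗ[ℂ] ℂ} {N k : ℕ} {p : Fin k → A} {y : Fin N → A}
  {S : Fin (N + 1) → A}

lemma sig_mem (L : ℝ) (l : Fin (N + 1)) :
    sig p y L l ∈ Algebra.adjoin ℂ (Set.range p ∪ Set.range y) := by
  refine Fin.cases ?_ (fun i => Algebra.subset_adjoin (Or.inr ⟨i, rfl⟩)) l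
  rw [sig, Fin.cons_zero, cen]
  refine Subalgebra.sum_mem _ fun j _ => Subalgebra.smul_mem _ ?_ _
  exact Algebra.subset_adjoin (Or.inl ⟨j, rfl⟩)

lemma sig_sa (h : Setup τ p y S) (L : ℝ) (l : Fin (N + 1)) : star (sig p y L l) = sig p y L l := by
  refine Fin.cases ?_ (fun i => h.y_sa i) l
  simp only [sig, Fin.cons_zero, cen, star_sum, star_smul, (h.p_sa _).star_eq, Complex.star_def,
    Complex.conj_ofReal]

lemma heat_sa (h : Setup τ p y S) (L σ : ℝ) (l : Fin (N + 1)) :
    star (heatTuple (sig p y L) S σ l) = heatTuple (sig p y L) S σ l := by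
  simp only [heatTuple, star_add, sig_sa h, star_smul, (h.S_sa _).star_eq, Complex.star_def,
    Complex.conj_ofReal]

lemma sig_sq (h : Setup τ p y S) {L : ℝ} (hL : 0 < L) (l : Fin (N + 1)) :
    (τ (sig p y L l * sig p y L l)).re ≤ (k * L) ^ 2 + 1 := by
  refine Fin.cases ?_ (fun i => ?_) l
  · have hk : (0 : ℝ) < k := by exact_mod_cast h.kpos
    have e : ∀ j, τ (p j) = ((1 / k : ℝ) : ℂ) := fun j => by
      simpa [h.tr.1] using h.p_ind j 1 (one_mem _)
    simp only [sig, Fin.cons_zero, cen, sum_mul, mul_sum, smul_mul_assoc, mul_smul_comm, h.p_mul,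
      smul_ite, smul_zero, sum_ite_eq', mem_univ, if_true, map_sum, map_smul, e, smul_eq_mul,
      ← Complex.ofReal_mul, Complex.re_sum, Complex.ofReal_re]
    calc _ ≤ ∑ _j : Fin k, k * L * (k * L * (1 / k)) := sum_le_sum fun j _ => by
          have : ((j : ℕ) : ℝ) ≤ k := by exact_mod_cast j.2.le
          gcongr
      _ = (k * L) ^ 2 := by simp; field_simp
      _ ≤ _ := by linarith
  · simp only [sig, Fin.cons_succ, sq_one h.tr.1 h.y_sd, Complex.one_re]
    nlinarith [sq_nonneg (k * L)]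

lemma heat_sq (h : Setup τ p y S) (L : ℝ) {σ : ℝ} (hσ : 0 ≤ σ) (l : Fin (N + 1)) :
    τ (heatTuple (sig p y L) S σ l * heatTuple (sig p y L) S σ l) =
      τ (sig p y L l * sig p y L l) + σ := by
  have e := orth h.S_sd l (sig_mem L l)
  simp only [heatTuple, add_mul, mul_add, map_add, smul_mul_assoc, mul_smul_comm, map_smul,
    h.tr.2.2.2 (sig p y L l) (S l), e, sq_one h.tr.1 h.S_sd, smul_eq_mul, mul_zero, add_zero,
    zero_add, mul_one, ← Complex.ofReal_mul, Real.mul_self_sqrt hσ]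

lemma term (h : Setup τ p y S) (L : ℝ) {σ : ℝ} (hσ : 0 < σ) (i : Fin (N + 1))
    {P : NCPoly (N + 1)} (hP : polyStar P = P) :
    (2 * splitPairing τ (heatTuple (sig p y L) S σ) i P -
      τ (polyEval (heatTuple (sig p y L) S σ) P * polyEval (heatTuple (sig p y L) S σ) P)).re =
      1 / σ - n2 τ (pe (heatTuple (sig p y L) S σ) P - (((√σ)⁻¹ : ℝ) : ℂ) • S i) := by
  have s0 : √σ ≠ 0 := (Real.sqrt_pos.2 hσ).ne'
  have e1 := split_eq h.S_sd (sig_mem (p := p) (y := y) L) σ i P
  have e2 := star_pe _ (heat_sa h L σ) P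
  rw [hP] at e2
  rw [polyEval_pe]
  generalize pe (heatTuple (sig p y L) S σ) P = x at e1 e2
  generalize splitPairing τ (heatTuple (sig p y L) S σ) i P = c at e1
  simp only [n2, star_sub, star_smul, e2, (h.S_sa _).star_eq, Complex.star_def, Complex.conj_ofReal,
    sub_mul, mul_sub, map_sub, smul_mul_assoc, mul_smul_comm, map_smul, h.tr.2.2.2 x (S i), e1,
    sq_one h.tr.1 h.S_sd, smul_eq_mul, ← mul_assoc, ← Complex.ofReal_mul, inv_mul_cancel₀ s0,
    mul_one, ← mul_inv, Real.mul_self_sqrt hσ.le, Complex.sub_re, Complex.ofReal_re,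
    Complex.ofReal_one, one_mul, two_mul, Complex.add_re]
  ring

end Crest.Agent.FE.Fi

namespace Crest.Agent.FE
open Fi Po

theorem fi (_h1 : W1Stmt) (h3 : W3Stmt) (hH : HStmt) : FIStmt := by
  intro A _ τ N k p y S L σ h hL hσ
  have s0 : √σ ≠ 0 := (Real.sqrt_pos.2 hσ).ne'
  refine ⟨?_, ?_, fun a1 a2 a3 => ?_⟩
  · set a : ℝ := (σ + ((k * L) ^ 2 + 1))⁻¹ with ha
    have a0 : 0 < σ + ((k * L) ^ 2 + 1) := by positivity
    refine le_iSup₂_of_le (fun i => (a : ℂ) • XX i)
      (fun i => by rw [polyStar_smul, polyStar_XX, Complex.conj_ofReal]) ?_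
    refine ENNReal.ofReal_le_ofReal ?_
    rw [Complex.re_sum]
    refine le_trans ?_ (card_nsmul_le_sum univ _ a fun i _ => ?_)
    · simp [div_eq_mul_inv, ha]
    · have e1 := split_eq h.S_sd (sig_mem (p := p) (y := y) L) σ i ((a : ℂ) • XX i)
      have e2 := orth h.S_sd i (sig_mem L i)
      rw [map_smul, pe_XX] at e1
      conv_lhs at e1 => simp only [heatTuple, mul_add, mul_smul_comm, map_smul, map_add, e2,
        sq_one h.tr.1 h.S_sd, smul_eq_mul, zero_add, mul_one]
      rw [mul_comm, mul_right_inj' (by exact_mod_cast s0)] at e1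
      simp only [← e1, polyEval_pe, map_smul, pe_XX, smul_mul_assoc, mul_smul_comm, smul_eq_mul,
        heat_sq h L hσ.le, Complex.sub_re, Complex.re_ofReal_mul, Complex.add_re, two_mul,
        Complex.ofReal_re]
      have e3 := sig_sq h hL i
      have e4 : a * (σ + ((k * L) ^ 2 + 1)) = 1 := inv_mul_cancel₀ a0.ne'
      have e5 : 0 < a := inv_pos.2 a0
      nlinarith [mul_le_mul_of_nonneg_left e3 (mul_pos e5 e5).le]
  · refine iSup₂_le fun P hP => ENNReal.ofReal_le_ofReal ?_
    rw [Complex.re_sum]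
    refine (sum_le_card_nsmul univ _ (1 / σ) fun i _ => ?_).trans (by simp [div_eq_mul_inv])
    rw [term h L hσ i (hP i)]
    exact sub_le_self _ (n2_nonneg h.tr _)
  · refine iSup₂_le fun P hP => ENNReal.ofReal_le_ofReal ?_
    rw [Complex.re_sum]
    simp only [fun i => term h L hσ i (hP i)]
    rw [sum_sub_distrib, Fin.sum_univ_succ (fun i => n2 τ _)]
    have e0 := n2_nonneg h.tr (pe (heatTuple (sig p y L) S σ) (P 0) - (((√σ)⁻¹ : ℝ) : ℂ) • S 0)
    have e1 := card_nsmul_le_sum univ (fun i : Fin N => n2 τ (pe (heatTuple (sig p y L) S σ)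
        (P i.succ) - (((√σ)⁻¹ : ℝ) : ℂ) • S i.succ)) (1 / 2 / σ ^ 2) fun i _ => by
      have e2 := hH A τ N k p y S L σ h hL hσ a1 a2 i (P i.succ - ((σ⁻¹ : ℝ) : ℂ) • XX i.succ)
      have e3 : pe (heatTuple (sig p y L) S σ) (P i.succ) - (((√σ)⁻¹ : ℝ) : ℂ) • S i.succ =
          ((σ⁻¹ : ℝ) : ℂ) • y i + polyEval (heatTuple (sig p y L) S σ)
            (P i.succ - ((σ⁻¹ : ℝ) : ℂ) • XX i.succ) := by
        have : σ⁻¹ * √σ = (√σ)⁻¹ := by
          field_simp
          exact Real.sq_sqrt hσ.le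
        rw [polyEval_pe, map_sub, map_smul, pe_XX]
        simp only [heatTuple, sig, Fin.cons_succ, smul_add, smul_smul, ← Complex.ofReal_mul, this]
        abel
      simp only [e3]
      generalize polyEval (heatTuple (sig p y L) S σ) _ = Q at e2
      have e4 : n2 τ (y i) = 1 := by
        rw [n2, (h.y_sa i).star_eq, sq_one h.tr.1 h.y_sd, Complex.one_re]
      rw [n2_add h3 h.tr, n2_smul, e4, star_smul, (h.y_sa i).star_eq, smul_mul_assoc, map_smul,
        Complex.star_def, Complex.conj_ofReal, smul_eq_mul, Complex.re_ofReal_mul, Complex.norm_real,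
        Real.norm_eq_abs, sq_abs]
      have e5 : (τ (y i * Q)).re ^ 2 ≤ 864 / σ * n2 τ Q :=
        le_trans (sq_le_sq.2 (by simpa using Complex.abs_re_le_norm _)) e2
      generalize (τ (y i * Q)).re = u at e5
      generalize n2 τ Q = q at e5
      have e6 : u ^ 2 * σ / 864 ≤ q := by
        rw [div_le_iff₀ (by norm_num)]
        have := mul_le_mul_of_nonneg_right e5 hσ.le
        field_simp at this
        linarith
      set s := σ⁻¹ with hs
      have s1 : σ * s = 1 := mul_inv_cancel₀ hσ.ne'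
      have s2 : 0 < s := inv_pos.2 hσ
      have s3 : 1728 * s ≤ 1 := by nlinarith
      have s4 : 1 / 2 / σ ^ 2 = s ^ 2 / 2 := by rw [hs]; field_simp
      have s5 : 0 ≤ σ / 864 * (u + 864 * s ^ 2) ^ 2 := by positivity
      have s6 : σ / 864 * (u + 864 * s ^ 2) ^ 2 =
          u ^ 2 * σ / 864 + 2 * (σ * s) * s * u + 864 * (σ * s) * s ^ 3 := by ring
      rw [s1] at s6
      rw [s4]
      nlinarith [mul_le_mul_of_nonneg_left s3 (sq_nonneg s)]
    simp only [card_univ, Fintype.card_fin, nsmul_eq_mul, sum_const] at e1 ⊢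
    rw [Nat.cast_add_one]
    have : (N : ℝ) * (1 / 2 / σ ^ 2) = N / 2 / σ ^ 2 := by ring
    have : ((N : ℝ) + 1) * (1 / σ) = (N + 1) / σ := by ring
    linarith

end Crest.Agent.FE
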