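import Crest.Agent.FE.HB

/-! Hardness of estimation at high noise (free cumulant bound). -/

set_option autoImplicit false
set_option linter.unusedSectionVars false
set_option linter.unusedSimpArgs false
open Finset Crest.OpAlg

namespace Crest.Agent.FE.Hd

section wick
variable {A : Type} [CStarAlgebra A] {κ : Type} [Fintype κ] [DecidableEq κ]

/-- pure letters -/
noncomputable def pl (A : Type) [CStarAlgebra A] (κ : Type) [DecidableEq κ] (j : κ) :
    A × (κ → ℂ) := (0, Pi.single j 1)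

variable {τ : A →ₗ[ℂ] ℂ} {g : κ → A} {B : Subalgebra ℂ A}

lemma star_ev (hg : ∀ j, IsSelfAdjoint (g j)) (w : List κ) :
    star (ev (aff g) (w.map (pl A κ))) = ev (aff g) (w.map (pl A κ)).reverse := by
  induction w with
  | nil => simp
  | cons i w ih =>
    rw [List.map_cons, ev_cons, star_mul, ih, List.reverse_cons, ev_append, ev_cons, pl, aff_pure,
      (hg i).star_eq]
    simp

lemma adj (hT : Tr τ) (h : SDL τ B g) (hg : ∀ j, IsSelfAdjoint (g j))
    (hst : ∀ a : A, τ (star a) = starRingEnd ℂ (τ a)) (j : κ) (x x' : List κ →₀ ℂ) :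
    τ (star (EE g (pl A κ) x') * EE g (pl A κ) (CC τ g (pl A κ) id j x)) =
      τ (star (EE g (pl A κ) (DD τ g (pl A κ) 1 j x')) * EE g (pl A κ) x) := by
  induction x' using Finsupp.induction_linear with
  | zero => simp
  | add x y hx hy => simp only [map_add, star_add, add_mul, hx, hy]
  | single w c =>
    have hp := pair (e := pl A κ) (s := id) hT h (fun _ => B.zero_mem) (fun _ => rfl) j
      (w.map (pl A κ)).reverse (by
        intro a ha
        obtain ⟨i, _, rfl⟩ := List.mem_map.mp (List.mem_reverse.mp ha)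
        exact B.zero_mem) x
    rw [spl_reverse, spl_map] at hp
    rw [EE_single, DD_single, star_smul, star_ev hg, smul_mul_assoc, map_smul, hp, map_smul,
      star_smul, smul_mul_assoc, map_smul, map_spl]
    congr 1
    rw [show ∀ z : A, star z = (starAddEquiv : A ≃+ A) z from fun z => rfl, map_spl, spl_mul,
      map_spl]
    refine spl_congr fun u i v _ => ?_
    simp only [starAddEquiv_apply, map_smul, EE_single, one_smul, star_smul, star_ev hg, one_mul,
      smul_mul_assoc, smul_eq_mul, star_mul']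
    rw [← star_ev hg u, hst]
    have : star ((pl A κ i).2 j) = (pl A κ i).2 j := by
      simp only [pl, Pi.single_apply]; split_ifs <;> simp
    rw [this]
    simp only [RCLike.star_def]; ring

noncomputable def WW (τ : A →ₗ[ℂ] ℂ) (g : κ → A) (lam : ℝ) : ℕ → (List κ → ℂ) → (List κ →₀ ℂ)
  | 0, f => Finsupp.single [] (f [])
  | r + 1, f => Finsupp.single [] (f []) +
      (lam : ℂ) • ∑ j, CC τ g (pl A κ) id j (WW τ g lam r (sh f j))

lemma WW_norm (hT : Tr τ) (h : SDL τ B g) (hg : ∀ j, IsSelfAdjoint (g j))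
    (hst : ∀ a : A, τ (star a) = starRingEnd ℂ (τ a)) (lam : ℝ) (r : ℕ) : ∀ f : List κ → ℂ,
    τ (star (EE g (pl A κ) (WW τ g lam r f)) * EE g (pl A κ) (WW τ g lam r f)) =
      ((∑ m ∈ range (r + 1), (lam ^ 2) ^ m * sq m f : ℝ) : ℂ) := by
  have h0 : ∀ c : ℂ, τ (star (EE g (pl A κ) (Finsupp.single [] c)) *
      EE g (pl A κ) (Finsupp.single [] c)) = ((‖c‖ ^ 2 : ℝ) : ℂ) := by
    intro c
    simp [EE_single, hT.1, Complex.mul_conj', mul_comm]
  induction r with
  | zero => intro f; simp only [WW, h0]; simp [sq]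
  | succ r ih =>
    intro f
    have h1 : ∀ (c : ℂ) j x, τ (star (EE g (pl A κ) (Finsupp.single [] c)) *
        EE g (pl A κ) (CC τ g (pl A κ) id j x)) = 0 := by
      intro c j x; rw [adj hT h hg hst, DD_nil]; simp
    have h2 : ∀ (c : ℂ) j x, τ (star (EE g (pl A κ) (CC τ g (pl A κ) id j x)) *
        EE g (pl A κ) (Finsupp.single [] c)) = 0 := by
      intro c j x
      have := hst (star (EE g (pl A κ) (Finsupp.single [] c)) *
        EE g (pl A κ) (CC τ g (pl A κ) id j x))
      rw [h1, star_mul, star_star] at this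
      simpa using this
    have h3 : ∀ j j' x x', τ (star (EE g (pl A κ) (CC τ g (pl A κ) id j x)) *
        EE g (pl A κ) (CC τ g (pl A κ) id j' x')) = if j' = j then
          τ (star (EE g (pl A κ) x) * EE g (pl A κ) x') else 0 := by
      intro j j' x x'
      rw [adj hT h hg hst, DD_CC (e := pl A κ) (s := id) hT h (fun _ => B.zero_mem) (fun _ => rfl)
        _ _ _ B.one_mem, hT.1]
      split_ifs <;> simp
    rw [sum_range_succ']
    simp only [WW, map_add, map_smul, map_sum, star_add, star_smul, star_sum, add_mul, mul_add,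
      smul_mul_assoc, mul_smul_comm, sum_mul, mul_sum, h0, h1, h2, h3, sum_ite_eq', mem_univ,
      if_true, ih, sq, smul_sum, smul_eq_mul]
    simp only [mul_zero, sum_const_zero, add_zero, zero_add, mul_ite, sum_ite_eq, sum_ite_eq',
      mem_univ, if_true, ih]
    push_cast
    rw [add_comm, sum_comm]
    simp only [mul_sum, pow_zero, one_mul]
    congr 1
    refine sum_congr rfl fun j _ => sum_congr rfl fun m _ => ?_
    simp only [RCLike.star_def, Complex.conj_ofReal]; ring

lemma WW_pair (hT : Tr τ) (h : SDL τ B g) (z : κ → A × (κ → ℂ)) (hz : ∀ i, (z i).1 ∈ B)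
    (lam : ℝ) (hl : ∀ i j, (lam : ℂ) * (z i).2 j = if i = j then 1 else 0) (r : ℕ) :
    ∀ (b : List κ) (f : List κ → ℂ),
    τ (ev (aff g) (b.map z) * EE g (pl A κ) (WW τ g lam r f)) =
      Bf (fun b => τ (ev (aff g) (b.map z))) r b f := by
  induction r with
  | zero => intro b f; simp [WW, Bf, EE_single]
  | succ r ih =>
    intro b f
    simp only [WW, Bf, map_add, map_smul, map_sum, mul_add, mul_smul_comm, mul_sum, EE_single,
      List.map_nil, ev_nil, mul_one, smul_eq_mul]
    congr 1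
    have hp := fun j => pair (e := pl A κ) (s := id) hT h (fun _ => B.zero_mem) (fun _ => rfl) j
      (b.map z) (by
        intro a ha
        obtain ⟨i, _, rfl⟩ := List.mem_map.mp ha
        exact hz i) (WW τ g lam r (sh f j))
    simp only [hp, spl_map, mul_spl, ih]
    rw [spl_sum]
    refine spl_congr fun u i v _ => ?_
    simp only [← mul_assoc, hl, ite_mul, one_mul, zero_mul, sum_ite_eq, mem_univ, if_true]
    ring

/-- Wick words -/
noncomputable def uw (τ : A →ₗ[ℂ] ℂ) (g : κ → A) : List κ → (List κ →₀ ℂ)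
  | [] => Finsupp.single [] 1
  | i :: v => CC τ g (pl A κ) id i (uw τ g v)

noncomputable def wk (τ : A →ₗ[ℂ] ℂ) (g : κ → A) : (List κ →₀ ℂ) →ₗ[ℂ] A :=
  EE g (pl A κ) ∘ₗ Finsupp.linearCombination ℂ (uw τ g)

noncomputable def ann (i : κ) : (List κ →₀ ℂ) →ₗ[ℂ] (List κ →₀ ℂ) :=
  Finsupp.lcomapDomain (i :: ·) (List.cons_injective)

lemma ann_apply (i : κ) (x : List κ →₀ ℂ) (v : List κ) : ann i x v = x (i :: v) := rfl

lemma wk_single (w : List κ) (c : ℂ) :
    wk τ g (Finsupp.single w c) = c • EE g (pl A κ) (uw τ g w) := by simp [wk]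

lemma mul_wk (hT : Tr τ) (h : SDL τ B g) (i : κ) (x : List κ →₀ ℂ) :
    g i * wk τ g x = wk τ g (mulL i x + ann i x) := by
  induction x using Finsupp.induction_linear with
  | zero => simp
  | add x y hx hy => simp only [map_add, mul_add, hx, hy]; abel
  | single w c =>
    rw [map_add, mulL_single, wk_single, wk_single, mul_smul_comm,
      mul_EE (τ := τ) (s := id) (fun _ => rfl), smul_add, uw]
    congr 1
    cases w with
    | nil =>
      have : ann i (Finsupp.single ([] : List κ) c) = 0 := by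
        ext v; simp [ann_apply]
      rw [this, uw, DD_nil]; simp
    | cons i' v =>
      rw [uw, DD_CC (e := pl A κ) (s := id) hT h (fun _ => B.zero_mem) (fun _ => rfl) _ _ _
        B.one_mem, hT.1]
      have : ann i (Finsupp.single (i' :: v) c) = if i = i' then Finsupp.single v c else 0 := by
        ext v'
        rw [ann_apply]
        split_ifs with hi
        · subst hi; simp [Finsupp.single_apply]
        · simp [Finsupp.single_apply, Ne.symm hi]
      rw [this]
      split_ifs <;> simp [wk_single]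

lemma tr_wk (hT : Tr τ) (h : SDL τ B g) (x : List κ →₀ ℂ) : τ (wk τ g x) = x [] := by
  induction x using Finsupp.induction_linear with
  | zero => simp
  | add x y hx hy => simp [hx, hy]
  | single w c =>
    cases w with
    | nil => simp [wk_single, uw, EE_single, hT.1]
    | cons i v =>
      have := tr_CC (e := pl A κ) (s := id) hT h (fun _ => B.zero_mem) (fun _ => rfl) i 1
        B.one_mem (uw τ g v)
      rw [one_mul] at this
      simp [wk_single, uw, this]

lemma EE_mem (x : List κ →₀ ℂ) : EE g (pl A κ) x ∈ Algebra.adjoin ℂ (Set.range g) := by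
  induction x using Finsupp.induction_linear with
  | zero => simp
  | add x y hx hy => rw [map_add]; exact add_mem hx hy
  | single w c =>
    rw [EE_single]
    refine Subalgebra.smul_mem _ ?_ _
    induction w with
    | nil => simp
    | cons i w ih =>
      rw [List.map_cons, ev_cons, pl, aff_pure]
      exact mul_mem (Algebra.subset_adjoin ⟨i, rfl⟩) ih

/-- weighted norm -/
noncomputable def qq (ρ : ℝ) (x : List κ →₀ ℂ) : ℝ := ∑ v ∈ x.support, ρ ^ v.length * ‖x v‖ ^ 2

lemma qq_eq (ρ : ℝ) (x : List κ →₀ ℂ) (s : Finset (List κ)) (hs : x.support ⊆ s) :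
    qq ρ x = ∑ v ∈ s, ρ ^ v.length * ‖x v‖ ^ 2 := by
  refine sum_subset hs fun v _ hv => ?_
  simp [Finsupp.notMem_support_iff.mp hv]

lemma qq_nonneg {ρ : ℝ} (hρ : 0 ≤ ρ) (x : List κ →₀ ℂ) : 0 ≤ qq ρ x :=
  sum_nonneg fun v _ => by positivity

lemma qq_add {ρ : ℝ} (hρ : 0 ≤ ρ) (x y : List κ →₀ ℂ) :
    qq ρ (x + y) ≤ 2 * qq ρ x + 2 * qq ρ y := by
  rw [qq_eq ρ _ _ Finsupp.support_add, qq_eq ρ x (x.support ∪ y.support) subset_union_left,
    qq_eq ρ y (x.support ∪ y.support) subset_union_right, mul_sum, mul_sum, ← sum_add_distrib]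
  refine sum_le_sum fun v _ => ?_
  have h1 : ‖(x + y) v‖ ≤ ‖x v‖ + ‖y v‖ := norm_add_le _ _
  have h2 : ‖(x + y) v‖ ^ 2 ≤ 2 * ‖x v‖ ^ 2 + 2 * ‖y v‖ ^ 2 := by
    nlinarith [norm_nonneg ((x + y) v), _root_.sq_nonneg (‖x v‖ - ‖y v‖), norm_nonneg (x v),
      norm_nonneg (y v)]
  have := mul_le_mul_of_nonneg_left h2 (pow_nonneg hρ v.length)
  linarith

lemma qq_smul (ρ : ℝ) (c : ℂ) (x : List κ →₀ ℂ) : qq ρ (c • x) = ‖c‖ ^ 2 * qq ρ x := by
  rw [qq_eq ρ _ _ Finsupp.support_smul, qq, mul_sum]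
  refine sum_congr rfl fun v _ => ?_
  simp [mul_pow]; ring

lemma qq_mulL (ρ : ℝ) (i : κ) (x : List κ →₀ ℂ) : qq ρ (mulL i x) = ρ * qq ρ x := by
  have h1 : (mulL i x).support ⊆ x.support.image (i :: ·) := Finsupp.mapDomain_support
  rw [qq_eq ρ _ _ h1, sum_image fun a _ b _ hab => List.cons_injective hab, qq, mul_sum]
  refine sum_congr rfl fun v _ => ?_
  have : mulL i x (i :: v) = x v := Finsupp.mapDomain_apply List.cons_injective x v
  rw [this, List.length_cons]; ring

lemma qq_ann {ρ : ℝ} (hρ : 0 ≤ ρ) (x : List κ →₀ ℂ) : ρ * ∑ i, qq ρ (ann i x) ≤ qq ρ x := by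
  have h1 : ρ * ∑ i, qq ρ (ann i x) =
      ∑ q ∈ (univ : Finset κ).sigma (fun i => (ann i x).support),
        ρ ^ (q.1 :: q.2).length * ‖x (q.1 :: q.2)‖ ^ 2 := by
    rw [sum_sigma, mul_sum]
    refine sum_congr rfl fun i _ => ?_
    rw [qq, mul_sum]
    refine sum_congr rfl fun v _ => ?_
    rw [ann_apply, List.length_cons]; ring
  rw [h1, ← sum_image (g := fun q : (_ : κ) × List κ => q.1 :: q.2)
    (f := fun w => ρ ^ w.length * ‖x w‖ ^ 2)]
  · refine sum_le_sum_of_subset_of_nonneg ?_ fun v _ _ => by positivity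
    intro w hw
    obtain ⟨q, hq, rfl⟩ := mem_image.mp hw
    have := (mem_sigma.mp hq).2
    rwa [Finsupp.mem_support_iff, ann_apply, ← Finsupp.mem_support_iff] at this
  · rintro ⟨a, u⟩ _ ⟨b, v⟩ _ hab
    simp only [List.cons.injEq] at hab
    obtain ⟨rfl, rfl⟩ := hab
    rfl

lemma qq_nil {ρ : ℝ} (hρ : 0 ≤ ρ) (x : List κ →₀ ℂ) : ‖x []‖ ^ 2 ≤ qq ρ x := by
  rw [qq_eq ρ x (insert [] x.support) (subset_insert _ _)]
  have := single_le_sum (f := fun v : List κ => ρ ^ v.length * ‖x v‖ ^ 2)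
    (fun v _ => by positivity) (mem_insert_self [] x.support)
  simpa using this

lemma qq_single (ρ : ℝ) (w : List κ) : qq ρ (Finsupp.single w 1) = ρ ^ w.length := by
  rw [qq_eq ρ _ _ Finsupp.support_single_subset]; simp

end wick

section model
variable {A : Type} [CStarAlgebra A] {N k : ℕ}

noncomputable def evN (τ : A →ₗ[ℂ] ℂ) (p : Fin k → A) (y : Fin N → A)
    (α : Fin k → (List (Fin N) →₀ ℂ)) : A := ∑ j, p j * wk τ y (α j)

noncomputable def XN (L : ℝ) (l : Fin (N + 1)) (α : Fin k → (List (Fin N) →₀ ℂ)) :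
    Fin k → (List (Fin N) →₀ ℂ) :=
  Fin.cases (motive := fun _ => Fin k → (List (Fin N) →₀ ℂ))
    (fun j => (((j : ℕ) * L : ℝ) : ℂ) • α j) (fun i j => mulL i (α j) + ann i (α j)) l

noncomputable def nuN (ρ : ℝ) (α : Fin k → (List (Fin N) →₀ ℂ)) : ℝ := √((∑ j, qq ρ (α j)) / k)

variable {τ : A →ₗ[ℂ] ℂ} {p : Fin k → A} {y : Fin N → A} {S : Fin (N + 1) → A}

lemma tr_of (h : Setup τ p y S) : Tr τ := ⟨h.tr.1, h.tr.2.2.2⟩

lemma sig_evN (h : Setup τ p y S) (L : ℝ) (l : Fin (N + 1)) (α : Fin k → (List (Fin N) →₀ ℂ)) :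
    sig p y L l * evN τ p y α = evN τ p y (XN L l α) := by
  refine Fin.cases ?_ (fun i => ?_) l
  · simp only [sig, Fin.cons_zero, evN, XN, Fin.cases_zero, mul_sum, map_smul]
    refine sum_congr rfl fun j _ => ?_
    rw [← mul_assoc, cen, sum_mul]
    simp [h.p_mul]
  · simp only [sig, Fin.cons_succ, evN, XN, Fin.cases_succ, mul_sum]
    refine sum_congr rfl fun j _ => ?_
    rw [← mul_assoc, ← h.y_comm, mul_assoc, mul_wk (tr_of h) h.y_sd]

lemma tr_evN (h : Setup τ p y S) (α : Fin k → (List (Fin N) →₀ ℂ)) :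
    τ (evN τ p y α) = (∑ j, α j []) / k := by
  rw [evN, map_sum, sum_div]
  refine sum_congr rfl fun j _ => ?_
  rw [h.p_ind j (wk τ y (α j)) (EE_mem _), ← tr_wk (tr_of h) h.y_sd]

lemma evN_mem (α : Fin k → (List (Fin N) →₀ ℂ)) :
    evN τ p y α ∈ Algebra.adjoin ℂ (Set.range p ∪ Set.range y) :=
  sum_mem fun j _ => mul_mem (Algebra.subset_adjoin (Or.inl ⟨j, rfl⟩))
    (Algebra.adjoin_mono Set.subset_union_right (EE_mem _))

lemma evN_one (h : Setup τ p y S) : evN τ p y (fun _ => Finsupp.single [] 1) = 1 := by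
  simp [evN, wk_single, uw, EE_single, h.p_sum]

lemma evN_y (h : Setup τ p y S) (i : Fin N) :
    evN τ p y (fun _ => Finsupp.single [i] 1) = y i := by
  have := mul_EE (τ := τ) (g := y) (e := pl A (Fin N)) (s := id) (fun _ => rfl) i
    (Finsupp.single [] 1)
  rw [DD_nil] at this
  simp only [evN, wk_single, uw, one_smul, ← sum_mul, h.p_sum, one_mul]
  simpa [EE_single] using this.symm

lemma nuN_sq {ρ : ℝ} (hρ : 0 ≤ ρ) (α : Fin k → (List (Fin N) →₀ ℂ)) :
    nuN ρ α ^ 2 = (∑ j, qq ρ (α j)) / k :=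
  Real.sq_sqrt (div_nonneg (sum_nonneg fun _ _ => qq_nonneg hρ _) (by positivity))

lemma nuN_X {ρ L : ℝ} (hρ : 0 < ρ) (hL : 0 < L) (α : Fin k → (List (Fin N) →₀ ℂ)) :
    ∑ l, nuN ρ (XN L l α) ^ 2 ≤ ((k * L) ^ 2 + 2 * N * ρ + 2 / ρ) * nuN ρ α ^ 2 := by
  simp only [nuN_sq hρ.le, ← sum_div, ← mul_div_assoc]
  refine div_le_div_of_nonneg_right ?_ (by positivity)
  rw [sum_comm, mul_sum]
  refine sum_le_sum fun j _ => ?_
  rw [Fin.sum_univ_succ]
  simp only [XN, Fin.cases_zero, Fin.cases_succ, qq_smul]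
  have h0 := qq_nonneg hρ.le (α j)
  have h1 : ‖(((j : ℕ) * L : ℝ) : ℂ)‖ ^ 2 ≤ (k * L) ^ 2 := by
    rw [Complex.norm_real, Real.norm_eq_abs, sq_abs]
    have : ((j : ℕ) : ℝ) ≤ k := by exact_mod_cast j.2.le
    gcongr
  have h2 : ∑ i, qq ρ (mulL i (α j) + ann i (α j)) ≤
      2 * N * ρ * qq ρ (α j) + 2 * ∑ i, qq ρ (ann i (α j)) := by
    refine (sum_le_sum fun i _ => qq_add hρ.le _ _).trans (le_of_eq ?_)
    simp only [qq_mulL, sum_add_distrib, ← mul_sum, sum_const, card_univ, Fintype.card_fin,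
      nsmul_eq_mul]
    ring
  have h3 : ∑ i, qq ρ (ann i (α j)) ≤ qq ρ (α j) / ρ := by
    rw [le_div_iff₀ hρ, mul_comm]; exact qq_ann hρ.le _
  have h4 := mul_le_mul_of_nonneg_right h1 h0
  have : ((k * L) ^ 2 + 2 * N * ρ + 2 / ρ) * qq ρ (α j) =
    (k * L) ^ 2 * qq ρ (α j) + 2 * N * ρ * qq ρ (α j) + 2 * (qq ρ (α j) / ρ) := by ring
  linarith

lemma nuN_tr {ρ : ℝ} (hρ : 0 ≤ ρ) (hk : 0 < k) (α : Fin k → (List (Fin N) →₀ ℂ)) :
    ‖(∑ j, α j []) / (k : ℂ)‖ ≤ nuN ρ α := by
  have hk' : (0 : ℝ) < k := by exact_mod_cast hk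
  refine Real.le_sqrt_of_sq_le ?_
  rw [norm_div, Complex.norm_natCast, div_pow, div_le_div_iff₀ (by positivity) hk']
  have h1 : ‖∑ j, α j []‖ ^ 2 ≤ (∑ j, ‖α j []‖) ^ 2 := by
    gcongr; exact norm_sum_le _ _
  have h2 := sq_sum_le_card_mul_sum_sq (s := univ) (f := fun j => ‖α j []‖)
  have h3 : ∑ j, ‖α j []‖ ^ 2 ≤ ∑ j, qq ρ (α j) := sum_le_sum fun j _ => qq_nil hρ _
  simp only [card_univ, Fintype.card_fin] at h2
  calc _ ≤ (k * ∑ j, qq ρ (α j)) * k := by
        gcongr
        exact h1.trans (h2.trans (by gcongr))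
    _ = _ := by ring

lemma nuN_const {ρ : ℝ} (hρ : 0 ≤ ρ) (hk : 0 < k) (w : List (Fin N)) :
    nuN (k := k) ρ (fun _ => Finsupp.single w 1) ^ 2 = ρ ^ w.length := by
  have hk' : (k : ℝ) ≠ 0 := by positivity
  rw [nuN_sq hρ]; simp [qq_single]; field_simp

end model

lemma polyEval_eq {A : Type*} [Ring A] [Algebra ℂ A] {n : ℕ} (Z : Fin n → A) (P : NCPoly n) :
    polyEval Z P = ∑ w ∈ P.coeff.support, P.coeff w • ev Z (FreeMonoid.toList w) := by
  rw [polyEval, MonoidAlgebra.lift_apply, Finsupp.sum]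
  refine sum_congr rfl fun w _ => ?_
  rw [FreeMonoid.lift_apply]; rfl

end Crest.Agent.FE.Hd

namespace Crest.Agent.FE
open Hd

theorem hard (h3 : W3Stmt) : HStmt := by
  intro A _ τ N k p y S L σ h hL hσ h1 h2 i P
  obtain ⟨-, hst, hcs, -, -⟩ := h3 A τ h.tr
  have hT := tr_of h
  have hs0 : 0 < √σ := Real.sqrt_pos.mpr hσ
  set z : Fin (N + 1) → A × (Fin (N + 1) → ℂ) :=
    fun l => (sig p y L l, Pi.single l ((√σ : ℝ) : ℂ)) with hz
  have hzm : ∀ l, (z l).1 ∈ Algebra.adjoin ℂ (Set.range p ∪ Set.range y) := by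
    intro l
    have := sig_evN h L l (fun _ => Finsupp.single [] 1)
    rw [evN_one h, mul_one] at this
    change sig p y L l ∈ _
    rw [this]; exact evN_mem _
  have hze : ∀ l, aff S (z l) = heatTuple (sig p y L) S σ l := by
    intro l; simp [aff, hz, heatTuple, Pi.single_apply, ite_smul]
  have hev : ∀ b : List (Fin (N + 1)), ev (aff S) (b.map z) = ev (heatTuple (sig p y L) S σ) b := by
    intro b; rw [ev_map]; congr 1; exact funext hze
  set one : Fin k → (List (Fin N) →₀ ℂ) := fun _ => Finsupp.single [] 1 with hone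
  set τN : (Fin k → (List (Fin N) →₀ ℂ)) → ℂ := fun α => (∑ j, α j []) / k with hτN
  have hex := expand (XN L) one τN (fun b α => τ (ev (aff S) (b.map z) * evN τ p y α)) (σ : ℂ)
    (by simp [hone, evN_one h, hT.1]) (fun α => by simp [tr_evN h, hτN]) (by
      intro b l α
      have e1 := h.S_sd l ((evN τ p y α, 0) :: b.map z) (by
        intro a ha
        rcases List.mem_cons.mp ha with rfl | ha
        · exact evN_mem _
        · obtain ⟨i, _, rfl⟩ := List.mem_map.mp ha
          exact hzm i)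
      simp only [spl_cons, spl_map, ev_cons, aff_const, Pi.zero_apply, zero_mul, zero_add] at e1
      simp only [List.map_append, ev_append, List.map_cons, List.map_nil, ev_cons, ev_nil, mul_one,
        hze, heatTuple, add_mul, mul_add, map_add, mul_assoc, sig_evN h, smul_mul_assoc,
        mul_smul_comm, map_smul, smul_eq_mul, hone, evN_one h]
      congr 1
      rw [hT.2 (ev (aff S) (b.map z)), mul_assoc, e1, mul_spl, mul_spl]
      refine spl_congr fun u j v _ => ?_
      simp only [hz, Pi.single_apply]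
      by_cases hj : j = l
      · subst hj
        rw [hT.2 (evN τ p y α)]
        have : ((√σ : ℝ) : ℂ) * (√σ : ℝ) = σ := by
          rw [← Complex.ofReal_mul, Real.mul_self_sqrt hσ.le]
        simp only [if_true, ← mul_assoc, this]
      · simp [hj, Ne.symm hj])
  set α : Fin k → (List (Fin N) →₀ ℂ) := fun _ => Finsupp.single [i] 1 with hα
  set r := P.coeff.support.sup fun w => (FreeMonoid.toList w).length with hr
  set Wv := EE S (pl A (Fin (N + 1))) (WW τ S (√σ)⁻¹ r fun w => kap (XN L) one τN w α) with hW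
  have key : τ (y i * polyEval (heatTuple (sig p y L) S σ) P) =
      τ (star (star Wv) * polyEval (heatTuple (sig p y L) S σ) P) := by
    rw [star_star, hT.2 (y i), hT.2 Wv, polyEval_eq, sum_mul, sum_mul, map_sum, map_sum]
    refine sum_congr rfl fun w hw => ?_
    rw [smul_mul_assoc, smul_mul_assoc, map_smul, map_smul, ← hev, hW,
      WW_pair hT h.S_sd z hzm _ _ r, Bf_eq _ _ _ _ (le_sup (f := fun w =>
        (FreeMonoid.toList w).length) hw), ← evN_y h i]
    · have := hex (FreeMonoid.toList w) α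
      simp only [hone, evN_one h, mul_one] at this
      rw [this]
    · intro a b
      have : ((√σ : ℝ) : ℂ) ≠ 0 := by exact_mod_cast hs0.ne'
      simp only [hz, Pi.single_apply]
      by_cases hab : a = b
      · subst hab; simp [this]
      · simp [hab, Ne.symm hab]
  have hρ : 0 < 216 / σ := by positivity
  have hn : n2 τ (star Wv) ≤ 864 / σ := by
    rw [n2, star_star, hT.2, hW, WW_norm hT h.S_sd h.S_sa hst, Complex.ofReal_re]
    have hN : (216 : ℝ) ^ 2 * N ≤ σ ^ 2 := by
      calc (216 : ℝ) ^ 2 * N = (216 * √N) ^ 2 := by rw [mul_pow, Real.sq_sqrt (by positivity)]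
        _ ≤ _ := by gcongr
    refine (kap_total (XN L) one τN (nuN (216 / σ)) (√σ / 6) (√σ)⁻¹ (by positivity)
      (fun _ => Real.sqrt_nonneg _) ?_ (nuN_tr hρ.le h.kpos) ?_ (by positivity)
      (by field_simp; rfl) _ α).trans ?_
    · have := nuN_const (N := N) hρ.le h.kpos []
      have h0 : 0 ≤ nuN (216 / σ) one := Real.sqrt_nonneg _
      simp only [List.length_nil, pow_zero] at this
      nlinarith
    · intro β
      refine (nuN_X hρ hL β).trans ?_
      rw [mul_pow (√σ / 6), div_pow, Real.sq_sqrt hσ.le]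
      refine mul_le_mul_of_nonneg_right ?_ (by positivity)
      have e1 : 2 * N * (216 / σ) ≤ σ / 108 := by
        rw [← mul_div_assoc, div_le_div_iff₀ hσ (by norm_num)]; nlinarith
      have e2 : 2 / (216 / σ) = σ / 108 := by field_simp; norm_num
      linarith
    · rw [hα, nuN_const hρ.le h.kpos]; simp; ring_nf; rfl
  rw [key]
  refine (hcs _ _).trans (mul_le_mul_of_nonneg_right hn (h.tr.2.1 _).2)

end Crest.Agent.FE
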