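import Crest.Agent.FE.Poly
import Crest.Agent.FE.H

/-! (G1) polynomial estimator of the hidden central element. -/

set_option autoImplicit false
open Finset Crest.OpAlg

namespace Crest.Agent.FE.G1
open Hd Po

section alg
variable {R : Type*} [Ring R] [Algebra ℂ R] {ι : Type*}

noncomputable def ad (w : R) : R →ₗ[ℂ] R := LinearMap.mulLeft ℂ w - LinearMap.mulRight ℂ w

lemma ad_apply (w T : R) : ad w T = w * T - T * w := rfl

noncomputable def phi (w : R) : R →ₗ[ℂ] R := LinearMap.id - (2 : ℂ)⁻¹ • (ad w ∘ₗ ad w)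

lemma phi_apply (w T : R) : phi w T = T - (2 : ℂ)⁻¹ • ad w (ad w T) := rfl

noncomputable def Phi (n : ℕ) (I : Finset ι) (w : ι → R) : R →ₗ[ℂ] R :=
  (n : ℂ)⁻¹ • ∑ i ∈ I, phi (w i)

lemma Phi_apply (n : ℕ) (I : Finset ι) (w : ι → R) (T : R) :
    Phi n I w T = (n : ℂ)⁻¹ • ∑ i ∈ I, phi (w i) T := by
  simp [Phi, LinearMap.sum_apply]

lemma map_Phi {R' : Type*} [Ring R'] [Algebra ℂ R'] (F : R →ₐ[ℂ] R') (n : ℕ) (I : Finset ι)
    (w : ι → R) (T : R) : F (Phi n I w T) = Phi n I (fun i => F (w i)) (F T) := by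
  simp [Phi_apply, phi_apply, ad_apply]

lemma phi_mem (M : Submodule ℂ R) (w T : R) (hl : ∀ x ∈ M, w * x ∈ M) (hr : ∀ x ∈ M, x * w ∈ M)
    (hT : T ∈ M) : phi w T ∈ M := by
  have h : ∀ x ∈ M, ad w x ∈ M := fun x hx => M.sub_mem (hl x hx) (hr x hx)
  exact M.sub_mem hT (M.smul_mem _ (h _ (h _ hT)))

lemma Phi_mem (M : Submodule ℂ R) (n : ℕ) (I : Finset ι) (w : ι → R) (T : R)
    (hl : ∀ i ∈ I, ∀ x ∈ M, w i * x ∈ M) (hr : ∀ i ∈ I, ∀ x ∈ M, x * w i ∈ M)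
    (hT : T ∈ M) : Phi n I w T ∈ M := by
  rw [Phi_apply]
  exact M.smul_mem _ (M.sum_mem fun i hi => phi_mem M _ _ (hl i hi) (hr i hi) hT)

lemma phi_star (σ : R →+ R) (hs : ∀ (c : ℂ) x, σ (c • x) = starRingEnd ℂ c • σ x)
    (hm : ∀ x y, σ (x * y) = σ y * σ x) (w T : R) (hw : σ w = w) (hT : σ T = T) :
    σ (phi w T) = phi w T := by
  simp only [phi_apply, ad_apply, map_sub, hs, hm, hw, hT, map_inv₀, map_ofNat]
  congr 2; noncomm_ring

lemma Phi_star (σ : R →+ R) (hs : ∀ (c : ℂ) x, σ (c • x) = starRingEnd ℂ c • σ x)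
    (hm : ∀ x y, σ (x * y) = σ y * σ x) (n : ℕ) (I : Finset ι) (w : ι → R) (T : R)
    (hw : ∀ i, σ (w i) = w i) (hT : σ T = T) : σ (Phi n I w T) = Phi n I w T := by
  rw [Phi_apply, hs, map_sum]
  simp only [phi_star σ hs hm _ _ (hw _) hT, map_inv₀, map_natCast]

lemma phi_diff (y S T : R) (z : ℂ) : phi (y + z • S) T - phi y T =
    -((2 : ℂ)⁻¹ • (z • ad y (ad S T) + z • ad S (ad y T) + (z * z) • ad S (ad S T))) := by
  simp only [phi_apply, ad_apply, mul_add, add_mul, mul_sub, sub_mul, smul_mul_assoc,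
    mul_smul_comm, mul_assoc]
  module

lemma phi_cen (y S c : R) (z : ℂ) (h : y * c = c * y) : phi (y + z • S) c =
    c - (((2 : ℂ)⁻¹ * z) • ad y S * c - c * ((2 : ℂ)⁻¹ * z) • ad y S) -
      ((2 : ℂ)⁻¹ * (z * z)) • ad S (ad S c) := by
  have h' : ∀ x, y * (c * x) = c * (y * x) := fun x => by rw [← mul_assoc, h, mul_assoc]
  simp only [phi_apply, ad_apply, mul_add, add_mul, mul_sub, sub_mul, smul_mul_assoc,
    mul_smul_comm, mul_assoc, h, h']
  module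

lemma phi_br (y a c : R) (h : y * c = c * y) :
    phi y (a * c - c * a) = phi y a * c - c * phi y a := by
  have h' : ∀ x, y * (c * x) = c * (y * x) := fun x => by rw [← mul_assoc, h, mul_assoc]
  simp only [phi_apply, ad_apply, mul_sub, sub_mul, smul_mul_assoc,
    mul_smul_comm, mul_assoc, h, h']
  module

lemma Phi_br (n : ℕ) (I : Finset ι) (y : ι → R) (a c : R) (h : ∀ i, y i * c = c * y i) :
    Phi n I y (a * c - c * a) = Phi n I y a * c - c * Phi n I y a := by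
  simp only [Phi_apply, phi_br _ _ _ (h _), sum_sub_distrib, smul_sub, smul_mul_assoc,
    mul_smul_comm, sum_mul, mul_sum]

end alg

section nrm
variable {A : Type} [CStarAlgebra A] {ι : Type*}

/-- bimodule seminorms -/
def Bi (ν : Seminorm ℂ A) : Prop :=
  (∀ a b, ν (a * b) ≤ ‖a‖ * ν b) ∧ ∀ a b, ν (a * b) ≤ ν a * ‖b‖

lemma bi_norm : Bi (normSeminorm ℂ A) := ⟨fun a b => norm_mul_le a b, fun a b => norm_mul_le a b⟩

lemma ad_le {ν : Seminorm ℂ A} (h : Bi ν) {w : A} (hw : ‖w‖ ≤ 2) (T : A) :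
    ν (ad w T) ≤ 4 * ν T := by
  have h1 := h.1 w T
  have h2 := h.2 T w
  have h3 := map_sub_le_add ν (w * T) (T * w)
  have h4 := apply_nonneg ν T
  rw [ad_apply]; nlinarith

lemma ad_ad_le {ν : Seminorm ℂ A} (h : Bi ν) {w v : A} (hw : ‖w‖ ≤ 2) (hv : ‖v‖ ≤ 2) (T : A) :
    ν (ad w (ad v T)) ≤ 16 * ν T := by
  linarith [ad_le h hw (ad v T), ad_le h hv T]

lemma phi_le {ν : Seminorm ℂ A} (h : Bi ν) {w : A} (hw : ‖w‖ ≤ 2) (T : A) :
    ν (phi w T) ≤ 9 * ν T := by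
  have h1 := map_sub_le_add ν T ((2 : ℂ)⁻¹ • ad w (ad w T))
  rw [map_smul_eq_mul] at h1
  have h2 := ad_ad_le h hw hw T
  have : ‖(2 : ℂ)⁻¹‖ = 1 / 2 := by simp
  rw [phi_apply]; rw [this] at h1; linarith

lemma avg_le (ν : Seminorm ℂ A) {n : ℕ} {I : Finset ι} (hn : 0 < n) (hI : I.card = n)
    (F : ι → A) {C : ℝ} (hF : ∀ i ∈ I, ν (F i) ≤ C) : ν ((n : ℂ)⁻¹ • ∑ i ∈ I, F i) ≤ C := by
  rw [map_smul_eq_mul]
  have h1 : ν (∑ i ∈ I, F i) ≤ n * C := by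
    refine (Finset.le_sum_of_subadditive ν (map_zero ν).le (map_add_le_add ν) I F).trans ?_
    simpa [hI] using sum_le_card_nsmul I _ C hF
  have hn' : (0 : ℝ) < n := by exact_mod_cast hn
  rw [norm_inv, Complex.norm_natCast, inv_mul_le_iff₀ hn']; exact h1

lemma Phi_le {ν : Seminorm ℂ A} (h : Bi ν) {n : ℕ} {I : Finset ι} (hn : 0 < n) (hI : I.card = n)
    {w : ι → A} (hw : ∀ i, ‖w i‖ ≤ 2) (T : A) : ν (Phi n I w T) ≤ 9 * ν T := by
  rw [Phi_apply]; exact avg_le ν hn hI _ fun i _ => phi_le h (hw i) T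

lemma Phi_diff {n : ℕ} {I : Finset ι} (hn : 0 < n) (hI : I.card = n) {y S : ι → A}
    (hy : ∀ i, ‖y i‖ ≤ 2) (hS : ∀ i, ‖S i‖ ≤ 2) {z : ℝ} (hz : 0 ≤ z) (hz1 : z ≤ 1) (T : A) :
    ‖Phi n I (fun i => y i + (z : ℂ) • S i) T - Phi n I y T‖ ≤ 24 * z * ‖T‖ := by
  rw [Phi_apply, Phi_apply, ← smul_sub, ← sum_sub_distrib]
  refine avg_le (normSeminorm ℂ A) hn hI _ fun i _ => ?_
  rw [phi_diff, coe_normSeminorm, norm_neg, norm_smul]
  have h1 : ‖ad (y i) (ad (S i) T)‖ ≤ 16 * ‖T‖ := ad_ad_le bi_norm (hy i) (hS i) T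
  have h2 : ‖ad (S i) (ad (y i) T)‖ ≤ 16 * ‖T‖ := ad_ad_le bi_norm (hS i) (hy i) T
  have h3 : ‖ad (S i) (ad (S i) T)‖ ≤ 16 * ‖T‖ := ad_ad_le bi_norm (hS i) (hS i) T
  have h4 := norm_add₃_le (a := (z : ℂ) • ad (y i) (ad (S i) T))
    (b := (z : ℂ) • ad (S i) (ad (y i) T)) (c := ((z : ℂ) * z) • ad (S i) (ad (S i) T))
  simp only [norm_smul, norm_mul, Complex.norm_real, Real.norm_of_nonneg hz] at h4
  have : ‖(2 : ℂ)⁻¹‖ = 1 / 2 := by simp
  rw [this]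
  have hT := norm_nonneg T
  have h5 := mul_le_mul_of_nonneg_left h1 hz
  have h6 := mul_le_mul_of_nonneg_left h2 hz
  have h7 := mul_le_mul_of_nonneg_left h3 (mul_nonneg hz hz)
  have h8 : z * z * ‖T‖ ≤ z * ‖T‖ := by nlinarith [mul_nonneg hz hT]
  nlinarith

lemma n2_avg {τ : A →ₗ[ℂ] ℂ} {n : ℕ} {I : Finset ι} (hn : 0 < n) (hI : I.card = n) (F : ι → A)
    (horth : ∀ i ∈ I, ∀ j ∈ I, i ≠ j → τ (star (F i) * F j) = 0) {C : ℝ}
    (hF : ∀ i ∈ I, n2 τ (F i) ≤ C) : n2 τ ((n : ℂ)⁻¹ • ∑ i ∈ I, F i) ≤ C / n := by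
  classical
  have hn' : (0 : ℝ) < n := by exact_mod_cast hn
  have h1 : n2 τ (∑ i ∈ I, F i) = ∑ i ∈ I, n2 τ (F i) := by
    simp only [n2, star_sum, sum_mul, mul_sum, map_sum, Complex.re_sum]
    rw [sum_comm]
    refine sum_congr rfl fun i hi => ?_
    rw [sum_eq_single_of_mem i hi fun j hj hji => by rw [horth i hi j hj (Ne.symm hji)]; rfl]
  have h2 : ∑ i ∈ I, n2 τ (F i) ≤ n * C := by simpa [hI] using sum_le_card_nsmul I _ C hF
  rw [n2_smul, h1, norm_inv, Complex.norm_natCast]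
  calc _ ≤ (n : ℝ)⁻¹ ^ 2 * (n * C) := by gcongr
    _ = _ := by field_simp

end nrm


section sd
variable {A : Type} [Ring A] [Algebra ℂ A] {τ : A →ₗ[ℂ] ℂ} {κ : Type} [Fintype κ] [DecidableEq κ]

lemma pairS (h1 : W1Stmt) {B : Subalgebra ℂ A} {g : κ → A} (h : SDL τ B g) (j l : κ) {b b' : A}
    (hb : b ∈ B) (hb' : b' ∈ B) :
    τ (g j * b * g l * b') = if j = l then τ b * τ b' else 0 := by
  obtain ⟨-, -, hc, -⟩ := h1 A τ
  have hl : ∀ x ∈ B, x ∈ B ⊔ Algebra.adjoin ℂ (g '' {l | l ≠ j}) := fun x hx =>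
    (le_sup_left : B ≤ _) hx
  split_ifs with hj
  · subst hj; exact (hc κ B g j h b (hl b hb) b' (hl b' hb')).2
  · have : g l ∈ B ⊔ Algebra.adjoin ℂ (g '' {l | l ≠ j}) :=
      (le_sup_right : Algebra.adjoin ℂ _ ≤ _) (Algebra.subset_adjoin ⟨l, Ne.symm hj, rfl⟩)
    have := (hc κ B g j h _ (mul_mem (mul_mem (hl b hb) this) (hl b' hb')) 1 (one_mem _)).1
    simpa only [mul_assoc] using this

/-- span of `a s b` with `a b` not involving `y i` -/
def MM (y : κ → A) (s : A) (i : κ) : Submodule ℂ A :=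
  Submodule.span ℂ {x | ∃ a ∈ Algebra.adjoin ℂ (y '' {l | l ≠ i}),
    ∃ b ∈ Algebra.adjoin ℂ (y '' {l | l ≠ i}), x = a * s * b}

omit [Fintype κ] [DecidableEq κ] in
lemma MM_self (y : κ → A) (s : A) (i : κ) : s ∈ MM y s i :=
  Submodule.subset_span ⟨1, one_mem _, 1, one_mem _, by simp⟩

omit [Fintype κ] [DecidableEq κ] in
lemma MM_mul (y : κ → A) (s : A) {i j : κ} (h : j ≠ i) :
    (∀ x ∈ MM y s i, y j * x ∈ MM y s i) ∧ ∀ x ∈ MM y s i, x * y j ∈ MM y s i := by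
  have hj : y j ∈ Algebra.adjoin ℂ (y '' {l | l ≠ i}) := Algebra.subset_adjoin ⟨j, h, rfl⟩
  constructor <;> intro x hx <;> induction hx using Submodule.span_induction with
  | mem x hx =>
    obtain ⟨a, ha, b, hb, rfl⟩ := hx
    first
    | exact Submodule.subset_span ⟨a, ha, _, mul_mem hb hj, mul_assoc _ _ _⟩
    | exact Submodule.subset_span ⟨_, mul_mem hj ha, b, hb, by simp only [mul_assoc]⟩
  | zero => simp
  | add x y _ _ hx hy => simpa only [mul_add, add_mul] using add_mem hx hy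
  | smul c x _ hx => simpa only [mul_smul_comm, smul_mul_assoc] using Submodule.smul_mem _ c hx

lemma orth (h1 : W1Stmt) (hT : Tr τ) {y : κ → A} (hy : SDL τ ⊥ y) {s : A}
    (hs : ∀ b ∈ Algebra.adjoin ℂ (Set.range y), ∀ b' ∈ Algebra.adjoin ℂ (Set.range y),
      τ (s * b * s * b') = τ b * τ b') (i : κ) {T W : A} (hT' : T ∈ MM y s i)
    (hW : W ∈ MM y s i) : τ (phi (y i) T * W) = 0 := by
  obtain ⟨-, -, hc, -⟩ := h1 A τ
  have hle : Algebra.adjoin ℂ (y '' {l | l ≠ i}) ≤ Algebra.adjoin ℂ (Set.range y) :=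
    Algebra.adjoin_mono (Set.image_subset_range _ _)
  have hyi : y i ∈ Algebra.adjoin ℂ (Set.range y) := Algebra.subset_adjoin ⟨i, rfl⟩
  have hc' : ∀ b ∈ Algebra.adjoin ℂ (y '' {l | l ≠ i}),
      τ (y i * b) = 0 ∧ τ (y i * (y i * b)) = τ b := fun b hb => by
    have := hc κ ⊥ y i hy
    rw [bot_sup_eq] at this
    exact ⟨(this b hb 1 (one_mem _)).1, by simpa [hT.1, mul_assoc] using (this 1 (one_mem _) b hb).2⟩
  induction hT' using Submodule.span_induction with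
  | mem x hx =>
    obtain ⟨a', ha', b', hb', rfl⟩ := hx
    induction hW using Submodule.span_induction with
    | mem x hx =>
      obtain ⟨a, ha, b, hb, rfl⟩ := hx
      have key : ∀ u ∈ Algebra.adjoin ℂ (Set.range y), ∀ v ∈ Algebra.adjoin ℂ (Set.range y),
          τ (u * (a' * s * b') * v * (a * s * b)) = τ (v * (a * b')) * τ (u * (a' * b)) := by
        intro u hu v hv
        have := hs (b' * v * a) (mul_mem (mul_mem (hle hb') hv) (hle ha)) (b * u * a')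
          (mul_mem (mul_mem (hle hb) hu) (hle ha'))
        rw [mul_assoc b', hT.2 b', mul_assoc b, hT.2 b, mul_assoc v, mul_assoc u] at this
        rw [← this, show u * (a' * s * b') * v * (a * s * b) = (u * a') * (s * b' * v * a * s * b)
          by simp only [mul_assoc], hT.2]
        simp only [mul_assoc]
      have e0 := key 1 (one_mem _) 1 (one_mem _)
      have e1 := key (y i * y i) (mul_mem hyi hyi) 1 (one_mem _)
      have e2 := key 1 (one_mem _) (y i * y i) (mul_mem hyi hyi)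
      have e3 := key (y i) hyi (y i) hyi
      have f1 := hc' _ (mul_mem ha hb')
      have f2 := hc' _ (mul_mem ha' hb)
      simp only [one_mul, mul_one, mul_assoc, f1.1, f1.2, f2.2, zero_mul] at e0 e1 e2 e3
      simp only [phi_apply, ad_apply, mul_sub, sub_mul, smul_mul_assoc, map_sub, map_smul,
        mul_assoc, e0, e1, e2, e3, smul_eq_mul]
      ring
    | zero => simp
    | add x y _ _ hx hy => simp only [mul_add, map_add, hx, hy, add_zero]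
    | smul c x _ hx => simp only [mul_smul_comm, map_smul, hx, smul_zero]
  | zero => simp
  | add x y _ _ hx hy => simp only [add_mul, map_add, hx, hy, add_zero]
  | smul c x _ hx => simp only [smul_mul_assoc, map_smul, hx, smul_zero]

end sd


section main
variable {A : Type} [CStarAlgebra A] {τ : A →ₗ[ℂ] ℂ} {N k : ℕ} {p : Fin k → A} {y : Fin N → A}
  {S : Fin (N + 1) → A}

lemma bi_nn (h3 : W3Stmt) (h : IsFaithfulTracialState τ) : Bi (nn h3 h) :=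
  ⟨nn_mul_left h3 h, nn_mul_right h3 h⟩

lemma star_phi {w T : A} (hw : IsSelfAdjoint w) (hT : IsSelfAdjoint T) :
    star (phi w T) = phi w T :=
  phi_star (AddMonoidHom.mk' star star_add) (fun c x => star_smul c x) star_mul w T hw.star_eq
    hT.star_eq

lemma contr (h1 : W1Stmt) (h3 : W3Stmt) (h : Setup τ p y S) {n : ℕ} {I : Finset (Fin N)}
    (hn : 0 < n) (hI : I.card = n) {T : A} (hT : IsSelfAdjoint T)
    (hM : ∀ i ∈ I, T ∈ MM y (S 0) i) : n2 τ (Phi n I y T) ≤ 81 * n2 τ T / n := by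
  have hle : Algebra.adjoin ℂ (Set.range y) ≤ Algebra.adjoin ℂ (Set.range p ∪ Set.range y) :=
    Algebra.adjoin_mono Set.subset_union_right
  rw [Phi_apply]
  refine n2_avg hn hI _ (fun i hi j _ hij => ?_) fun i _ => ?_
  · rw [star_phi (h.y_sa i) hT]
    exact orth h1 (tr_of h) h.y_sd
      (fun b hb b' hb' => by simpa using pairS h1 h.S_sd 0 0 (hle hb) (hle hb')) i (hM i hi)
      (phi_mem _ _ _ (MM_mul y _ (Ne.symm hij)).1 (MM_mul y _ (Ne.symm hij)).2 (hM i hi))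
  · have := phi_le (bi_nn h3 h.tr) (h.y_norm i) T
    rw [← nn_sq h3 h.tr, ← nn_sq h3 h.tr]
    nlinarith [apply_nonneg (nn h3 h.tr) (phi (y i) T)]

/-- the first-order generator -/
noncomputable def aa (y : Fin N → A) (S : Fin (N + 1) → A) (z : ℝ) (n : ℕ) (I : Finset (Fin N)) :
    A := (n : ℂ)⁻¹ • ∑ i ∈ I, ((2 : ℂ)⁻¹ * z) • ad (y i) (S i.succ)

lemma aa_term (h : Setup τ p y S) {z : ℝ} (hz : 0 ≤ z) (i : Fin N) :
    ‖((2 : ℂ)⁻¹ * z) • ad (y i) (S i.succ)‖ ≤ 4 * z := by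
  have h1 : ‖ad (y i) (S i.succ)‖ ≤ 4 * ‖S i.succ‖ := ad_le bi_norm (h.y_norm i) _
  have h2 := h.S_norm i.succ
  rw [norm_smul, norm_mul, Complex.norm_real, Real.norm_of_nonneg hz]
  have : ‖(2 : ℂ)⁻¹‖ = 1 / 2 := by simp
  rw [this]; nlinarith

lemma aa_norm (h : Setup τ p y S) {z : ℝ} (hz : 0 ≤ z) {n : ℕ} {I : Finset (Fin N)}
    (hn : 0 < n) (hI : I.card = n) : ‖aa y S z n I‖ ≤ 4 * z :=
  avg_le (normSeminorm ℂ A) hn hI _ fun i _ => aa_term h hz i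

lemma aa_n2 (h1 : W1Stmt) (h3 : W3Stmt) (h : Setup τ p y S) {z : ℝ} (hz : 0 ≤ z) {n : ℕ}
    {I : Finset (Fin N)} (hn : 0 < n) (hI : I.card = n) :
    n2 τ (aa y S z n I) ≤ 16 * z ^ 2 / n := by
  refine n2_avg hn hI _ (fun i _ j _ hij => ?_) fun i _ => ?_
  · have hy : ∀ i, y i ∈ Algebra.adjoin ℂ (Set.range p ∪ Set.range y) := fun i =>
      Algebra.subset_adjoin (Or.inr ⟨i, rfl⟩)
    have hne : i.succ ≠ j.succ := fun e => hij (Fin.succ_injective _ e)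
    have e1 := pairS h1 h.S_sd i.succ j.succ (mul_mem (hy i) (hy j)) (one_mem _)
    have e2 := pairS h1 h.S_sd i.succ j.succ (hy i) (hy j)
    have e3 := pairS h1 h.S_sd i.succ j.succ (hy j) (hy i)
    have e4 := pairS h1 h.S_sd i.succ j.succ (one_mem _) (mul_mem (hy j) (hy i))
    simp only [if_neg hne, mul_one, mul_assoc] at e1 e2 e3 e4
    have hT := (tr_of h).2 (y i)
    simp only [ad_apply, star_smul, star_sub, star_mul, (h.y_sa i).star_eq,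
      (h.S_sa i.succ).star_eq, smul_mul_assoc, mul_smul_comm, map_smul, mul_sub, sub_mul, map_sub,
      mul_assoc, hT, e1, e2, e3, e4, sub_zero, smul_zero]
  · have := (nn_le_norm h3 h.tr _).trans (aa_term h hz i)
    rw [← nn_sq h3 h.tr]
    nlinarith [apply_nonneg (nn h3 h.tr) (((2 : ℂ)⁻¹ * z) • ad (y i) (S i.succ))]

lemma Phi_cen (h : Setup τ p y S) {z : ℝ} {n : ℕ} {I : Finset (Fin N)} (hn : 0 < n)
    (hI : I.card = n) {c : A} (hc : ∀ i, y i * c = c * y i) :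
    ‖Phi n I (fun i => y i + (z : ℂ) • S i.succ) c -
      (c - (aa y S z n I * c - c * aa y S z n I))‖ ≤ 8 * z ^ 2 * ‖c‖ := by
  have hn' : (n : ℂ) ≠ 0 := by exact_mod_cast hn.ne'
  have : Phi n I (fun i => y i + (z : ℂ) • S i.succ) c -
      (c - (aa y S z n I * c - c * aa y S z n I)) = (n : ℂ)⁻¹ • ∑ i ∈ I,
        -(((2 : ℂ)⁻¹ * (z * z)) • ad (S i.succ) (ad (S i.succ) c)) := by
    simp only [Phi_apply, phi_cen _ _ _ _ (hc _), aa, sum_sub_distrib, smul_sub, sum_const, hI,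
      smul_mul_assoc, mul_smul_comm, sum_mul, mul_sum, sum_neg_distrib, smul_neg]
    rw [← Nat.cast_smul_eq_nsmul ℂ, inv_smul_smul₀ hn']; abel
  rw [this]
  refine avg_le (normSeminorm ℂ A) hn hI _ fun i _ => ?_
  have h1 : ‖ad (S i.succ) (ad (S i.succ) c)‖ ≤ 16 * ‖c‖ :=
    ad_ad_le bi_norm (h.S_norm _) (h.S_norm _) c
  rw [coe_normSeminorm, norm_neg, norm_smul, norm_mul, norm_mul, Complex.norm_real,
    Real.norm_eq_abs, abs_mul_abs_self]
  have : ‖(2 : ℂ)⁻¹‖ = 1 / 2 := by simp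
  rw [this]; nlinarith [mul_self_nonneg z]

lemma p_norm (h : Setup τ p y S) (j : Fin k) : ‖p j‖ ≤ 1 := by
  have h1 := h.p_mul j j
  rw [if_pos rfl] at h1
  have h2 := CStarRing.norm_star_mul_self (x := p j)
  rw [(h.p_sa j).star_eq, h1] at h2
  by_contra hc
  push Not at hc
  nlinarith

lemma cen_comm (h : Setup τ p y S) (L : ℝ) (i : Fin N) : y i * cen p L = cen p L * y i := by
  simp only [cen, mul_sum, sum_mul, mul_smul_comm, smul_mul_assoc, h.y_comm]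

lemma cen_sa (h : Setup τ p y S) (L : ℝ) : IsSelfAdjoint (cen p L) := by
  simp only [IsSelfAdjoint, cen, star_sum, star_smul, (h.p_sa _).star_eq, RCLike.star_def,
    Complex.conj_ofReal]

lemma comb_mul (hp : ∀ j l, p j * p l = if j = l then p j else 0) (c c' : Fin k → ℂ) :
    (∑ j, c j • p j) * (∑ j, c' j • p j) = ∑ j, (c j * c' j) • p j := by
  simp only [sum_mul, mul_sum, smul_mul_assoc, mul_smul_comm, hp, smul_ite, smul_zero]
  simp [mul_comm, smul_smul]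

lemma comb_norm (hs : ∀ j, IsSelfAdjoint (p j)) (hp : ∀ j l, p j * p l = if j = l then p j else 0)
    (h1 : ∑ j, p j = 1) (c : Fin k → ℝ) {C : ℝ} (hC : 0 ≤ C) (hc : ∀ j, |c j| ≤ C) :
    ‖∑ j, (c j : ℂ) • p j‖ ≤ C := by
  let _ := CStarAlgebra.spectralOrder A
  have _ := CStarAlgebra.spectralOrderedRing A
  have hst : ∀ c : Fin k → ℝ, star (∑ j, (c j : ℂ) • p j) = ∑ j, (c j : ℂ) • p j := fun c => by
    simp only [star_sum, star_smul, (hs _).star_eq, RCLike.star_def, Complex.conj_ofReal]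
  have h2 : star (∑ j, (c j : ℂ) • p j) * (∑ j, (c j : ℂ) • p j) ≤ algebraMap ℝ A (C ^ 2) := by
    rw [← sub_nonneg]
    convert star_mul_self_nonneg (∑ j, ((√(C ^ 2 - c j ^ 2) : ℝ) : ℂ) • p j) using 1
    rw [hst, hst, comb_mul hp, comb_mul hp, Algebra.algebraMap_eq_smul_one, ← h1, smul_sum,
      ← sum_sub_distrib]
    refine sum_congr rfl fun j _ => ?_
    rw [← Complex.ofReal_mul, ← Complex.ofReal_mul, Real.mul_self_sqrt
      (sub_nonneg.mpr (sq_le_sq' (abs_le.mp (hc j)).1 (abs_le.mp (hc j)).2)), ← Complex.coe_smul,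
      ← sub_smul]
    congr 1; push_cast; ring
  rw [← CStarAlgebra.norm_le_iff_le_algebraMap _ (by positivity) (star_mul_self_nonneg _),
    CStarRing.norm_star_mul_self] at h2
  nlinarith [norm_nonneg (∑ j, (c j : ℂ) • p j)]

lemma cen_norm (h : Setup τ p y S) {L : ℝ} (hL : 0 < L) : ‖cen p L‖ ≤ k * L := by
  refine comb_norm h.p_sa h.p_mul h.p_sum (fun j => (j : ℕ) * L) (by positivity) fun j => ?_
  rw [abs_of_nonneg (by positivity)]
  gcongr; exact_mod_cast j.2.le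

/-- (G1) with explicit constants -/
theorem g1 (h1 : W1Stmt) (h3 : W3Stmt) (h : Setup τ p y S) {L t : ℝ} {I₁ I₂ : Finset (Fin N)}
    {n₁ : ℕ} (hL : 0 < L) (ht : 0 < t) (ht1 : t ≤ 1) (hn : 0 < n₁) (hI₁ : I₁.card = n₁)
    (hI₂ : I₂.card = n₁) (hd : Disjoint I₁ I₂) :
    ∃ (f : NCPoly (N + 1)) (a r : A), polyStar f = f ∧
      polyEval (heatTuple (sig p y L) S t) f = cen p L - (a * cen p L - cen p L * a) + r ∧
      ‖polyEval (heatTuple (sig p y L) S t) f - cen p L‖ ≤ 2200 * Real.sqrt t * (1 + k * L) ∧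
      n2 τ a ≤ 1600 * t / n₁ ∧
      n2 τ r ≤ (162 * Real.sqrt t / n₁ + 2016 * t * (1 + k * L)) ^ 2 ∧
      ∀ i : Fin N, i ∉ I₁ → i ∉ I₂ → polyEval (heatTuple (sig p y L) S t) f ∈
        Algebra.adjoin ℂ (Set.range p ∪ Set.range y) ⊔
          Algebra.adjoin ℂ (S '' {l | l ≠ i.succ}) := by
  obtain ⟨z, hz, rfl⟩ : ∃ z : ℝ, 0 < z ∧ t = z ^ 2 :=
    ⟨√t, Real.sqrt_pos.mpr ht, (Real.sq_sqrt ht.le).symm⟩
  have hz1 : z ≤ 1 := by nlinarith
  have hn' : (0 : ℝ) < n₁ := by exact_mod_cast hn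
  set c := cen p L with hc
  set Z : Fin N → A := fun i => y i + (z : ℂ) • S i.succ with hZ
  have hev : polyEval (heatTuple (sig p y L) S (z ^ 2))
      (Phi n₁ I₂ (fun i => XX i.succ) (Phi n₁ I₁ (fun i => XX i.succ) (XX 0))) =
      Phi n₁ I₂ Z (Phi n₁ I₁ Z (c + (z : ℂ) • S 0)) := by
    simp only [polyEval_pe, map_Phi, pe_XX, heatTuple, sig, Fin.cons_succ, Fin.cons_zero,
      Real.sqrt_sq hz.le, hZ, hc]
  have hΓ : ‖c‖ ≤ k * L := cen_norm h hL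
  have hΓ0 := norm_nonneg c
  have hcm : ∀ i, y i * c = c * y i := cen_comm h L
  set a₁ := aa y S z n₁ I₁
  set a₂ := aa y S z n₁ I₂
  have ha₁ : ‖a₁‖ ≤ 4 * z := aa_norm h hz.le hn hI₁
  have ha₂ : ‖a₂‖ ≤ 4 * z := aa_norm h hz.le hn hI₂
  have hS0 := h.S_norm 0
  have D1 := Phi_diff hn hI₁ h.y_norm (fun i => h.S_norm i.succ) hz.le hz1
  have D2 := Phi_diff hn hI₂ h.y_norm (fun i => h.S_norm i.succ) hz.le hz1
  have P1 : ∀ T, ‖Phi n₁ I₁ y T‖ ≤ 9 * ‖T‖ := Phi_le bi_norm hn hI₁ h.y_norm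
  have P2 : ∀ T, ‖Phi n₁ I₂ y T‖ ≤ 9 * ‖T‖ := Phi_le bi_norm hn hI₂ h.y_norm
  have Q1 : ∀ T, ‖Phi n₁ I₁ Z T‖ ≤ 33 * ‖T‖ := fun T => by
    have := norm_le_norm_add_norm_sub' (Phi n₁ I₁ Z T) (Phi n₁ I₁ y T)
    nlinarith [D1 T, P1 T, norm_nonneg T]
  have Q2 : ∀ T, ‖Phi n₁ I₂ Z T‖ ≤ 33 * ‖T‖ := fun T => by
    have := norm_le_norm_add_norm_sub' (Phi n₁ I₂ Z T) (Phi n₁ I₂ y T)
    nlinarith [D2 T, P2 T, norm_nonneg T]
  have C1 := Phi_cen h (z := z) hn hI₁ hcm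
  have C2 := Phi_cen h (z := z) hn hI₂ hcm
  set a := a₂ + Phi n₁ I₂ y a₁ with ha
  set W := Phi n₁ I₂ y (Phi n₁ I₁ y (S 0)) with hW
  set r := Phi n₁ I₂ Z (Phi n₁ I₁ Z (c + (z : ℂ) • S 0)) - (c - (a * c - c * a)) with hr
  have hbr : ∀ b : A, ‖b * c - c * b‖ ≤ 2 * ‖b‖ * ‖c‖ := fun b => by
    nlinarith [norm_sub_le (b * c) (c * b), norm_mul_le b c, norm_mul_le c b]
  have hrem : ‖r - (z : ℂ) • W‖ ≤ 2016 * z ^ 2 * (1 + k * L) := by
    have e : r - (z : ℂ) • W = (Phi n₁ I₂ Z c - (c - (a₂ * c - c * a₂))) -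
        (Phi n₁ I₂ Z (a₁ * c - c * a₁) - Phi n₁ I₂ y (a₁ * c - c * a₁)) +
        Phi n₁ I₂ Z (Phi n₁ I₁ Z c - (c - (a₁ * c - c * a₁))) +
        (z : ℂ) • ((Phi n₁ I₂ Z (Phi n₁ I₁ Z (S 0)) - Phi n₁ I₂ y (Phi n₁ I₁ Z (S 0))) +
          Phi n₁ I₂ y (Phi n₁ I₁ Z (S 0) - Phi n₁ I₁ y (S 0))) := by
      rw [Phi_br _ _ _ _ _ hcm, hr, ha, hW]
      simp only [map_add, map_sub, map_smul, add_mul, mul_add]
      module
    rw [e]
    have t1 := D2 (a₁ * c - c * a₁)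
    have t2 := Q2 (Phi n₁ I₁ Z c - (c - (a₁ * c - c * a₁)))
    have t3 := D2 (Phi n₁ I₁ Z (S 0))
    have t4 := P2 (Phi n₁ I₁ Z (S 0) - Phi n₁ I₁ y (S 0))
    have t5 := D1 (S 0)
    have t6 := Q1 (S 0)
    have t7 : ‖a₁ * c - c * a₁‖ ≤ 8 * z * ‖c‖ := by nlinarith [hbr a₁]
    refine (norm_add₃_le.trans (add_le_add (add_le_add (norm_sub_le _ _) le_rfl) le_rfl)).trans ?_
    rw [norm_smul, Complex.norm_real, Real.norm_of_nonneg hz.le]
    have t8 : ‖Phi n₁ I₂ Z (Phi n₁ I₁ Z (S 0)) - Phi n₁ I₂ y (Phi n₁ I₁ Z (S 0)) +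
        Phi n₁ I₂ y (Phi n₁ I₁ Z (S 0) - Phi n₁ I₁ y (S 0))‖ ≤ 2016 * z := by
      refine (norm_add_le _ _).trans ?_
      nlinarith
    have t9 := mul_le_mul_of_nonneg_left t8 hz.le
    have t10 := mul_le_mul_of_nonneg_left t7 hz.le
    have t11 := mul_le_mul_of_nonneg_left hΓ (sq_nonneg z)
    have t12 : 0 ≤ z ^ 2 * ‖c‖ := by positivity
    nlinarith
  have hWn : ‖W‖ ≤ 162 := by linarith [P2 (Phi n₁ I₁ y (S 0)), P1 (S 0)]
  have han : ‖a‖ ≤ 40 * z := by linarith [norm_add_le a₂ (Phi n₁ I₂ y a₁), P2 a₁]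
  refine ⟨Phi n₁ I₂ (fun i => XX i.succ) (Phi n₁ I₁ (fun i => XX i.succ) (XX 0)), a, r,
    ?_, ?_, ?_, ?_, ?_, ?_⟩
  · have hs := fun I T => Phi_star (AddMonoidHom.mk' polyStar polyStar_add) polyStar_smul
      polyStar_mul n₁ I (fun i : Fin N => XX i.succ) T (fun i => polyStar_XX _)
    exact hs I₂ _ (hs I₁ _ (polyStar_XX 0))
  · rw [hev, hr]; abel
  · rw [hev, Real.sqrt_sq hz.le]
    have e : Phi n₁ I₂ Z (Phi n₁ I₁ Z (c + (z : ℂ) • S 0)) - c =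
        (r - (z : ℂ) • W) + (z : ℂ) • W - (a * c - c * a) := by rw [hr]; abel
    rw [e]
    refine ((norm_sub_le _ _).trans (add_le_add (norm_add_le _ _) le_rfl)).trans ?_
    rw [norm_smul, Complex.norm_real, Real.norm_of_nonneg hz.le]
    have t1 := mul_le_mul_of_nonneg_left hWn hz.le
    have t2 := mul_le_mul_of_nonneg_right han hΓ0
    have t3 := mul_le_mul_of_nonneg_left hΓ hz.le
    have t4 : 0 ≤ z * (k * L) := by positivity
    have t5 : z ^ 2 * (1 + k * L) ≤ z * (1 + k * L) := by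
      gcongr; nlinarith
    nlinarith [hbr a]
  · have t1 := aa_n2 h1 h3 h hz.le hn hI₁
    have t2 := aa_n2 h1 h3 h hz.le hn hI₂
    have t3 := Phi_le (bi_nn h3 h.tr) hn hI₂ h.y_norm a₁
    have t4 := map_add_le_add (nn h3 h.tr) a₂ (Phi n₁ I₂ y a₁)
    rw [← nn_sq h3 h.tr] at t1 t2 ⊢
    have u1 := apply_nonneg (nn h3 h.tr) a₁
    have u2 := apply_nonneg (nn h3 h.tr) a₂
    have u3 := apply_nonneg (nn h3 h.tr) a
    have t5 : nn h3 h.tr a ^ 2 ≤ (nn h3 h.tr a₂ + 9 * nn h3 h.tr a₁) ^ 2 := by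
      gcongr; linarith
    have : 1600 * z ^ 2 / n₁ = 100 * (16 * z ^ 2 / n₁) := by ring
    nlinarith [sq_nonneg (nn h3 h.tr a₂ - nn h3 h.tr a₁)]
  · have hsa' := Phi_star (R := A) (AddMonoidHom.mk' star star_add) (fun c x => star_smul c x)
      star_mul n₁ I₁ y _ (fun i => (h.y_sa i).star_eq) (h.S_sa 0).star_eq
    have hsa : IsSelfAdjoint (Phi n₁ I₁ y (S 0)) := hsa'
    have t1 := contr h1 h3 h hn hI₁ (h.S_sa 0) fun i _ => MM_self y _ i
    have hne : ∀ i ∈ I₂, ∀ j ∈ I₁, j ≠ i := fun i hi j hj e =>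
      disjoint_left.mp hd hj (e ▸ hi)
    have t2 := contr h1 h3 h hn hI₂ hsa fun i hi => Phi_mem _ _ _ _ _
      (fun j hj => (MM_mul y _ (hne i hi j hj)).1) (fun j hj => (MM_mul y _ (hne i hi j hj)).2)
      (MM_self y _ i)
    have t3 : n2 τ (S 0) ≤ 4 := by
      rw [← nn_sq h3 h.tr]
      nlinarith [nn_le_norm h3 h.tr (S 0), apply_nonneg (nn h3 h.tr) (S 0)]
    have t4 : nn h3 h.tr W ≤ 162 / n₁ := by
      refine (pow_le_pow_iff_left₀ (by positivity) (by positivity) two_ne_zero).mp ?_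
      rw [nn_sq]
      calc n2 τ W ≤ 81 * (81 * 4 / n₁) / n₁ := t2.trans (by gcongr; exact t1.trans (by gcongr))
        _ = _ := by ring
    rw [← nn_sq h3 h.tr, Real.sqrt_sq hz.le]
    have t5 := map_add_le_add (nn h3 h.tr) ((z : ℂ) • W) (r - (z : ℂ) • W)
    rw [add_sub_cancel, map_smul_eq_mul, Complex.norm_real, Real.norm_of_nonneg hz.le] at t5
    have t6 := (nn_le_norm h3 h.tr _).trans hrem
    have t7 := mul_le_mul_of_nonneg_left t4 hz.le
    gcongr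
    have : 162 * z / n₁ = z * (162 / n₁) := by ring
    linarith
  · intro i hi₁ hi₂
    rw [hev]
    set B := Algebra.adjoin ℂ (Set.range p ∪ Set.range y) ⊔
      Algebra.adjoin ℂ (S '' {l | l ≠ i.succ})
    have hSl : ∀ l, l ≠ i.succ → S l ∈ B := fun l hl =>
      (le_sup_right : Algebra.adjoin ℂ _ ≤ B) (Algebra.subset_adjoin ⟨l, hl, rfl⟩)
    have hZl : ∀ j, j ≠ i → Z j ∈ B := fun j hj => add_mem
      ((le_sup_left : Algebra.adjoin ℂ _ ≤ B) (Algebra.subset_adjoin (Or.inr ⟨j, rfl⟩)))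
      (B.smul_mem (hSl _ fun e => hj (Fin.succ_injective _ e)) _)
    have hP : ∀ I : Finset (Fin N), i ∉ I → ∀ T ∈ B, Phi n₁ I Z T ∈ B := fun I hI T hT =>
      Phi_mem (Subalgebra.toSubmodule B) _ _ _ _
        (fun j hj x hx => B.mul_mem (hZl j fun e => hI (e ▸ hj)) hx)
        (fun j hj x hx => B.mul_mem hx (hZl j fun e => hI (e ▸ hj))) hT
    refine hP _ hi₂ _ (hP _ hi₁ _ (add_mem ?_ (B.smul_mem (hSl _ (Fin.succ_ne_zero i).symm) _)))
    exact sum_mem fun j _ => B.smul_mem ((le_sup_left : Algebra.adjoin ℂ _ ≤ B)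
      (Algebra.subset_adjoin (Or.inl ⟨j, rfl⟩))) _

end main

end Crest.Agent.FE.G1
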