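import Crest.Agent.FE.Poly

/-! Piece G2: perturbation of the spectral projections. -/

set_option autoImplicit false
set_option linter.style.haveILetI false
open Finset Crest.OpAlg

namespace Crest.Agent.FE
namespace G2a
open Po

variable {A : Type} [CStarAlgebra A] {k : ℕ}

lemma comb_mul {p : Fin k → A} (hm : ∀ j l, p j * p l = if j = l then p j else 0)
    (μ ν : Fin k → ℝ) : (∑ j, μ j • p j) * (∑ j, ν j • p j) = ∑ j, (μ j * ν j) • p j := by
  rw [sum_mul]
  refine sum_congr rfl fun j _ => ?_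
  rw [mul_sum]
  simp only [smul_mul_smul_comm, hm, smul_ite, smul_zero]
  simp

lemma comb_norm {p : Fin k → A} (hs : ∀ j, IsSelfAdjoint (p j))
    (hm : ∀ j l, p j * p l = if j = l then p j else 0) (h1 : ∑ j, p j = 1)
    (μ : Fin k → ℝ) {M : ℝ} (hM : 0 ≤ M) (h : ∀ j, |μ j| ≤ M) : ‖∑ j, μ j • p j‖ ≤ M := by
  letI := CStarAlgebra.spectralOrder A
  haveI := CStarAlgebra.spectralOrderedRing A
  have e : star (∑ j, μ j • p j) = ∑ j, μ j • p j := by
    rw [star_sum]; exact sum_congr rfl fun j _ => by rw [star_smul, (hs j).star_eq]; rfl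
  have p0 : ∀ j, 0 ≤ p j := fun j => by
    have := star_mul_self_nonneg (p j)
    rwa [(hs j).star_eq, hm, if_pos rfl] at this
  have h2 : ‖star (∑ j, μ j • p j) * (∑ j, μ j • p j)‖ ≤ M * M := by
    rw [CStarAlgebra.norm_le_iff_le_algebraMap _ (by positivity) (star_mul_self_nonneg _), e,
      comb_mul hm, Algebra.algebraMap_eq_smul_one, ← h1, smul_sum]
    refine sum_le_sum fun j _ => smul_le_smul_of_nonneg_right ?_ (p0 j)
    rw [← abs_mul_abs_self]
    exact mul_le_mul (h j) (h j) (abs_nonneg _) hM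
  rw [CStarRing.norm_star_mul_self] at h2
  exact (mul_self_le_mul_self_iff (norm_nonneg _) hM).2 h2

lemma cen_eq (p : Fin k → A) (L : ℝ) : cen p L = ∑ j : Fin k, ((j : ℕ) * L : ℝ) • p j := by
  simp only [cen, Complex.coe_smul]

lemma spec {p : Fin k → A} (hs : ∀ j, IsSelfAdjoint (p j))
    (hm : ∀ j l, p j * p l = if j = l then p j else 0) (h1 : ∑ j, p j = 1) {L : ℝ} (hL : 0 < L)
    {c : A} (hc : ‖c - cen p L‖ ≤ L / 4) {x : ℝ} (hx : x ∈ spectrum ℝ c) :
    ∃ j : Fin k, |x - (j : ℕ) * L| ≤ L / 4 := by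
  by_contra! h
  apply hx
  have h0 : ∀ j : Fin k, x - (j : ℕ) * L ≠ 0 := fun j e => by
    have := h j; rw [e, abs_zero] at this; linarith
  set μ : Fin k → ℝ := fun j => (x - (j : ℕ) * L)⁻¹ with hμ
  have hμn : ‖μ‖ < 4 / L := (pi_norm_lt_iff (by positivity)).2 fun j => by
    rw [Real.norm_eq_abs, hμ, abs_inv, inv_lt_comm₀ (abs_pos.2 (h0 j)) (by positivity), inv_div]
    exact h j
  have hR : ‖∑ j, μ j • p j‖ ≤ ‖μ‖ := comb_norm hs hm h1 μ (norm_nonneg _) fun j =>
    norm_le_pi_norm μ j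
  have e0 : algebraMap ℝ A x - cen p L = ∑ j : Fin k, (x - (j : ℕ) * L) • p j := by
    rw [cen_eq, Algebra.algebraMap_eq_smul_one, ← h1, smul_sum, ← sum_sub_distrib]
    simp only [sub_smul]
  have e1 : (algebraMap ℝ A x - cen p L) * (∑ j, μ j • p j) = 1 := by
    rw [e0, comb_mul hm, ← h1]
    exact sum_congr rfl fun j _ => by rw [hμ, mul_inv_cancel₀ (h0 j), one_smul]
  have e2 : (∑ j, μ j • p j) * (algebraMap ℝ A x - cen p L) = 1 := by
    rw [e0, comb_mul hm, ← h1]
    exact sum_congr rfl fun j _ => by rw [hμ, inv_mul_cancel₀ (h0 j), one_smul]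
  have u1 : IsUnit (algebraMap ℝ A x - cen p L) := ⟨⟨_, _, e1, e2⟩, rfl⟩
  have u2 : IsUnit (1 - (∑ j, μ j • p j) * (c - cen p L)) := by
    refine isUnit_one_sub_of_norm_lt_one ((norm_mul_le _ _).trans_lt ?_)
    calc _ ≤ ‖μ‖ * (L / 4) := mul_le_mul hR hc (norm_nonneg _) (norm_nonneg _)
      _ < 4 / L * (L / 4) := mul_lt_mul_of_pos_right hμn (by positivity)
      _ = 1 := by field_simp
  have := u1.mul u2
  rw [mul_sub, mul_one, ← mul_assoc, e1, one_mul, sub_sub_sub_cancel_right] at this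
  exact this

lemma hat_cont (L : ℝ) (j : ℕ) : Continuous (hat L j) := by unfold hat; fun_prop

lemma far {L x : ℝ} (hL : 0 < L) {m j : ℕ} (hx : |x - m * L| ≤ L / 4) (h : j ≠ m) :
    3 * L / 4 ≤ |x - j * L| := by
  have h1 : (1 : ℝ) ≤ |(m : ℝ) - j| := by
    have : (1 : ℤ) ≤ |(m : ℤ) - j| := Int.one_le_abs (by omega)
    exact_mod_cast this
  have h2 : |(m : ℝ) * L - j * L| ≤ |x - j * L| + |x - m * L| := by
    have := abs_sub (x - j * L) (x - m * L)
    rwa [show x - j * L - (x - m * L) = m * L - j * L by ring] at this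
  rw [← sub_mul, abs_mul, abs_of_pos hL] at h2
  nlinarith

lemma hat_val {L x : ℝ} (hL : 0 < L) {m : ℕ} (hx : |x - m * L| ≤ L / 4) (j : ℕ) :
    hat L j x = if j = m then 1 else 0 := by
  unfold hat
  split_ifs with h
  · subst h
    have : 4 * |x - j * L| / L ≤ 1 := by rw [div_le_one hL]; linarith
    rw [min_eq_left (by linarith), max_eq_right zero_le_one]
  · have := far hL hx h
    have : 3 ≤ 4 * |x - j * L| / L := by rw [le_div_iff₀ hL]; linarith
    exact max_eq_left ((min_le_right _ _).trans (by linarith))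

lemma n2_pq {τ : A →ₗ[ℂ] ℂ} (h : IsFaithfulTracialState τ) {p q : A} (hp : IsSelfAdjoint p)
    (hq : IsSelfAdjoint q) (p2 : p * p = p) (q2 : q * q = q) (x : A) :
    n2 τ (q * x * p) = (τ (star x * q * x * p)).re := by
  rw [n2, star_mul, star_mul, hp.star_eq, hq.star_eq, mul_assoc, h.2.2.2]
  congr 2
  calc star x * q * (q * x * p) * p = star x * (q * q) * x * (p * p) := by simp only [mul_assoc]
    _ = _ := by rw [p2, q2]

lemma n2_sum {τ : A →ₗ[ℂ] ℂ} (h : IsFaithfulTracialState τ) {p q : Fin k → A}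
    (hp : ∀ j, IsSelfAdjoint (p j)) (hq : ∀ j, IsSelfAdjoint (q j)) (p2 : ∀ j, p j * p j = p j)
    (q2 : ∀ j, q j * q j = q j) (p1 : ∑ j, p j = 1) (q1 : ∑ j, q j = 1) (x : A) :
    ∑ j, ∑ l, n2 τ (q j * x * p l) = n2 τ x := by
  simp only [fun j l => n2_pq h (hp l) (hq j) (p2 l) (q2 j) x]
  simp only [← Complex.re_sum, ← map_sum, ← mul_sum, p1, mul_one, ← sum_mul, q1]
  rfl

end G2a

open G2a Po in
theorem g2 (h3 : W3Stmt) : G2Stmt := by
  intro A _ τ k p L c a r hτ hs hm h1 hL hc hcr hn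
  have sp := fun x (hx : x ∈ spectrum ℝ c) => spec hs hm h1 hL hn hx
  set q : Fin k → A := fun j => cfc (hat L j) c with hq
  have qm : ∀ j l : Fin k, q j * q l = if j = l then q j else 0 := by
    intro j l
    rw [hq]
    simp only
    rw [← cfc_mul _ _ _ (hat_cont L j).continuousOn (hat_cont L l).continuousOn]
    split_ifs with h
    · subst h
      refine cfc_congr fun x hx => ?_
      obtain ⟨m, hm⟩ := sp x hx
      simp only [hat_val hL hm]
      split_ifs <;> simp
    · rw [← cfc_zero ℝ c]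
      refine cfc_congr fun x hx => ?_
      obtain ⟨m, hm⟩ := sp x hx
      simp only [hat_val hL hm, Pi.zero_apply]
      split_ifs with h1 h2
      · exact (h (Fin.ext (h1.trans h2.symm))).elim
      all_goals simp
  have q1 : ∑ j, q j = 1 := by
    rw [hq]
    simp only
    rw [← cfc_sum (fun j : Fin k => hat L j) c univ fun j _ => (hat_cont L j).continuousOn,
      ← cfc_one ℝ c]
    refine cfc_congr fun x hx => ?_
    obtain ⟨m, hm⟩ := sp x hx
    simp only [Finset.sum_apply, hat_val hL hm, Fin.val_inj, Pi.one_apply]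
    simp
  refine ⟨qm, q1, ?_⟩
  change 1 - ∑ j, (τ (q j * p j)).re ≤ _
  have qs : ∀ j, IsSelfAdjoint (q j) := fun j => cfc_predicate _ c
  have p2 : ∀ j, p j * p j = p j := fun j => by rw [hm, if_pos rfl]
  have q2 : ∀ j, q j * q j = q j := fun j => by rw [qm, if_pos rfl]
  have sm := n2_sum hτ hs qs p2 q2 h1 q1
  set e := c - cen p L with he
  have cp : ∀ l, cen p L * p l = (((l : ℕ) * L : ℝ)) • p l := by
    intro l
    rw [cen_eq, sum_mul]
    simp only [smul_mul_assoc, hm, smul_ite, smul_zero]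
    simp
  have key : ∀ j l : Fin k, j ≠ l → n2 τ (q j * 1 * p l) ≤
      2 * (16 / (9 * L ^ 2)) * n2 τ (q j * (r - e * a) * p l) + 2 * n2 τ (q j * a * p l) := by
    intro j l hjl
    set cl : ℝ := (l : ℕ) * L with hcl
    have gc : Continuous fun t : ℝ => (t - cl) / max ((t - cl) ^ 2) ((3 * L / 4) ^ 2) :=
      Continuous.div (by fun_prop) (by fun_prop) fun t =>
        (lt_max_of_lt_right (by positivity)).ne'
    set b := cfc (fun t : ℝ => (t - cl) / max ((t - cl) ^ 2) ((3 * L / 4) ^ 2)) c with hb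
    have bn : ‖b‖ ≤ 4 / (3 * L) := norm_cfc_le (by positivity) fun t _ => by
      have m0 : 0 < max ((t - cl) ^ 2) ((3 * L / 4) ^ 2) := lt_max_of_lt_right (by positivity)
      rw [Real.norm_eq_abs, abs_div, abs_of_pos m0, div_le_div_iff₀ m0 (by positivity)]
      have a1 := le_max_left ((t - cl) ^ 2) ((3 * L / 4) ^ 2)
      have a2 := le_max_right ((t - cl) ^ 2) ((3 * L / 4) ^ 2)
      have a3 := sq_abs (t - cl)
      have a0 := abs_nonneg (t - cl)
      rcases le_total (3 * L / 4) |t - cl| with h | h <;> nlinarith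
    have e1 : b * q j * (c - algebraMap ℝ A cl) = q j := by
      have : c - algebraMap ℝ A cl = cfc (fun t : ℝ => t - cl) c := by
        rw [cfc_sub .., cfc_id' ℝ c, cfc_const ..]
      rw [this, hb, hq]
      simp only
      rw [← cfc_mul _ _ _ gc.continuousOn (hat_cont L j).continuousOn,
        ← cfc_mul _ _ _ (gc.fun_mul (hat_cont L j)).continuousOn (by fun_prop)]
      refine cfc_congr fun x hx => ?_
      obtain ⟨m, hm⟩ := sp x hx
      simp only [hat_val hL hm]
      split_ifs with h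
      · have h4 := far hL hm (j := l) (fun e => hjl (Fin.ext (h.trans e.symm)))
        rw [← hcl] at h4
        have h5 : (3 * L / 4) ^ 2 ≤ (x - cl) ^ 2 := by
          rw [← sq_abs (x - cl)]; exact pow_le_pow_left₀ (by positivity) h4 2
        have h6 : x - cl ≠ 0 := fun e => by rw [e, abs_zero] at h4; linarith
        rw [max_eq_left h5]; field_simp
      · simp
    have e2 : (c - algebraMap ℝ A cl) * ((1 - a) * p l) = (r - e * a) * p l := by
      have e3 : c * p l = cl • p l - cl • (a * p l) + cen p L * a * p l + r * p l := by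
        conv_lhs => rw [hcr]
        rw [add_mul, sub_mul, sub_mul, mul_assoc a, cp, mul_smul_comm]
        abel
      rw [he, Algebra.algebraMap_eq_smul_one]
      simp only [sub_mul, mul_sub, one_mul, smul_mul_assoc, e3, mul_assoc]
      abel
    have e4 : q j * 1 * p l = b * (q j * (r - e * a) * p l) + q j * a * p l := by
      rw [mul_assoc (q j) (r - e * a), ← e2, ← mul_assoc, ← mul_assoc, e1]
      noncomm_ring
    have n1 : nn h3 hτ (q j * 1 * p l) ≤
        4 / (3 * L) * nn h3 hτ (q j * (r - e * a) * p l) + nn h3 hτ (q j * a * p l) := by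
      rw [e4]
      refine (map_add_le_add _ _ _).trans (add_le_add ((nn_mul_left h3 hτ _ _).trans ?_) le_rfl)
      exact mul_le_mul_of_nonneg_right bn (apply_nonneg _ _)
    rw [← nn_sq h3 hτ, ← nn_sq h3 hτ, ← nn_sq h3 hτ]
    have n2' := pow_le_pow_left₀ (apply_nonneg _ _) n1 2
    have : (16 / (9 * L ^ 2)) = (4 / (3 * L)) ^ 2 := by field_simp; norm_num
    rw [this]
    nlinarith [sq_nonneg (4 / (3 * L) * nn h3 hτ (q j * (r - e * a) * p l) -
      nn h3 hτ (q j * a * p l))]
  have s1 : ∑ j, ∑ l, n2 τ (q j * 1 * p l) ≤ ∑ j, ∑ l, ((if j = l then (τ (q j * p j)).re else 0) +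
      (2 * (16 / (9 * L ^ 2)) * n2 τ (q j * (r - e * a) * p l) + 2 * n2 τ (q j * a * p l))) := by
    refine sum_le_sum fun j _ => sum_le_sum fun l _ => ?_
    split_ifs with h
    · subst h
      rw [n2_pq hτ (hs j) (qs j) (p2 j) (q2 j)]
      have := n2_nonneg hτ (q j * (r - e * a) * p j)
      have := n2_nonneg hτ (q j * a * p j)
      simp only [star_one, one_mul, mul_one]
      exact le_add_of_nonneg_right (by positivity)
    · rw [zero_add]; exact key j l h
  simp only [sum_add_distrib, ← mul_sum, sm, sum_ite_eq, mem_univ, if_true] at s1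
  have o1 : n2 τ (1 : A) = 1 := by simp [n2, hτ.1]
  have n3 : nn h3 hτ (r - e * a) ≤ nn h3 hτ r + L / 4 * nn h3 hτ a :=
    (map_sub_le_add _ _ _).trans (add_le_add le_rfl ((nn_mul_left h3 hτ _ _).trans
      (mul_le_mul_of_nonneg_right hn (apply_nonneg _ _))))
  have n4 : n2 τ (r - e * a) ≤ 2 * n2 τ r + L ^ 2 / 8 * n2 τ a := by
    rw [← nn_sq h3 hτ, ← nn_sq h3 hτ, ← nn_sq h3 hτ]
    have := pow_le_pow_left₀ (apply_nonneg _ _) n3 2
    nlinarith [sq_nonneg (nn h3 hτ r - L / 4 * nn h3 hτ a)]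
  have n5 : 2 * (16 / (9 * L ^ 2)) * n2 τ (r - e * a) ≤
      2 * (16 / (9 * L ^ 2)) * (2 * n2 τ r + L ^ 2 / 8 * n2 τ a) :=
    mul_le_mul_of_nonneg_left n4 (by positivity)
  have n6 : 2 * (16 / (9 * L ^ 2)) * (2 * n2 τ r + L ^ 2 / 8 * n2 τ a) =
      64 / 9 * (n2 τ r / L ^ 2) + 4 / 9 * n2 τ a := by field_simp; ring
  have n7 : 0 ≤ n2 τ r / L ^ 2 := div_nonneg (n2_nonneg hτ r) (by positivity)
  have n8 := n2_nonneg hτ a
  rw [mul_div_assoc]
  linarith

end Crest.Agent.FE
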