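import Crest.Agent.FE.G2

/-! Piece G3: off-block energy in the limit model. -/

set_option autoImplicit false
open Finset Crest.OpAlg

namespace Crest.Agent.FE
namespace G3a
open Po G2a

variable {A : Type} [CStarAlgebra A] {k : ℕ} {τ : A →ₗ[ℂ] ℂ}

lemma cfc_mem_closure (B : Subalgebra ℂ A) {c : A} (hc : IsSelfAdjoint c) (h : c ∈ B)
    (f : ℝ → ℝ) : cfc f c ∈ B.topologicalClosure := by
  let D : StarSubalgebra ℂ A :=
    { carrier := {x | x ∈ B.topologicalClosure ∧ star x ∈ B.topologicalClosure}
      mul_mem' := fun ha hb => ⟨mul_mem ha.1 hb.1, by rw [star_mul]; exact mul_mem hb.2 ha.2⟩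
      add_mem' := fun ha hb => ⟨add_mem ha.1 hb.1, by rw [star_add]; exact add_mem ha.2 hb.2⟩
      algebraMap_mem' := fun z => ⟨algebraMap_mem _ z, by
        rw [← algebraMap_star_comm]; exact algebraMap_mem _ _⟩
      star_mem' := fun ha => ⟨ha.2, by rw [star_star]; exact ha.1⟩ }
  have hD : IsClosed (D : Set A) :=
    B.isClosed_topologicalClosure.inter (B.isClosed_topologicalClosure.preimage continuous_star)
  have hcD : c ∈ D := ⟨B.le_topologicalClosure h, by rw [hc.star_eq]; exact B.le_topologicalClosure h⟩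
  exact (cfc_mem (𝕜' := ℂ) (s := D) f hcD).1

lemma n2_left {q : Fin k → A} (qs : ∀ j, IsSelfAdjoint (q j))
    (qm : ∀ j l, q j * q l = if j = l then q j else 0) (x : Fin k → A) :
    n2 τ (∑ j, q j * x j) = ∑ j, n2 τ (q j * x j) := by
  simp only [n2, ← Complex.re_sum, ← map_sum]
  congr 2
  rw [star_sum, sum_mul]
  refine sum_congr rfl fun j _ => ?_
  rw [mul_sum, sum_eq_single j]
  · intro l _ hl
    rw [star_mul, (qs j).star_eq, mul_assoc, ← mul_assoc (q j), qm, if_neg hl.symm, zero_mul,
      mul_zero]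
  · simp

/-- the off-block part -/
noncomputable def off (q : Fin k → A) (z : A) : A := z - ∑ j, q j * z * q j

lemma tr_off (q : Fin k → A) (u v : A) :
    τ (off q u * v) = τ (u * v) - ∑ j, τ (q j * u * q j * v) := by
  rw [off, sub_mul, map_sub, sum_mul, map_sum]

lemma tr_off_symm (h : IsFaithfulTracialState τ) (q : Fin k → A) (u v : A) :
    τ (off q u * v) = τ (off q v * u) := by
  rw [tr_off, tr_off, h.2.2.2 u v]
  congr 1
  refine sum_congr rfl fun j _ => ?_
  rw [mul_assoc (q j * u), h.2.2.2, ← mul_assoc, mul_assoc (q j * v), ← mul_assoc]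

lemma off_off {q : Fin k → A} (qm : ∀ j l, q j * q l = if j = l then q j else 0) (z : A) :
    off q (off q z) = off q z := by
  have : ∀ j, q j * off q z * q j = 0 := by
    intro j
    rw [off, mul_sub, sub_mul, mul_sum, sum_mul, sum_eq_single j]
    · have : q j * q j = q j := by rw [qm, if_pos rfl]
      rw [← mul_assoc, ← mul_assoc, this, mul_assoc (q j * z), this, sub_self]
    · intro l _ hl
      rw [← mul_assoc, ← mul_assoc, qm, if_neg hl.symm, zero_mul, zero_mul, zero_mul]
    · simp
  conv_lhs => rw [off]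
  simp [this]

lemma off_sa {q : Fin k → A} (qs : ∀ j, IsSelfAdjoint (q j)) {z : A} (hz : IsSelfAdjoint z) :
    star (off q z) = off q z := by
  rw [off, star_sub, star_sum, hz.star_eq]
  congr 1
  exact sum_congr rfl fun j _ => by rw [star_mul, star_mul, (qs j).star_eq, hz.star_eq, mul_assoc]

lemma n2_off (h : IsFaithfulTracialState τ) {q : Fin k → A} (qs : ∀ j, IsSelfAdjoint (q j))
    (qm : ∀ j l, q j * q l = if j = l then q j else 0) {z : A} (hz : IsSelfAdjoint z) :
    n2 τ (off q z) = (τ (off q z * z)).re := by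
  rw [n2, off_sa qs hz, tr_off_symm h, off_off qm]

end G3a

open G3a G2a Po in
theorem g3 (h1 : W1Stmt) (h3 : W3Stmt) : G3Stmt := by
  intro A _ τ N k p y S L t η c I hS ht hη hc qm q1 hq hI
  have hτ := hS.tr
  set q : Fin k → A := fun j => cfc (hat L j) c with hqd
  replace qm : ∀ j l, q j * q l = if j = l then q j else 0 := qm
  replace q1 : ∑ j, q j = 1 := q1
  replace hq : 1 - ∑ j, (τ (q j * p j)).re ≤ η ^ 2 := hq
  have qs : ∀ j, IsSelfAdjoint (q j) := fun j => cfc_predicate _ c
  have p2 : ∀ j, p j * p j = p j := fun j => by rw [hS.p_mul, if_pos rfl]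
  have q2 : ∀ j, q j * q j = q j := fun j => by rw [qm, if_pos rfl]
  have tq : ∑ j, (τ (q j)).re = 1 := by rw [← Complex.re_sum, ← map_sum, q1, hτ.1]; rfl
  have tp : ∑ j, (τ (p j)).re = 1 := by rw [← Complex.re_sum, ← map_sum, hS.p_sum, hτ.1]; rfl
  have pos : ∀ a b : A, IsSelfAdjoint a → IsSelfAdjoint b → a * a = a → b * b = b →
      (τ (a * b)).re ≤ (τ a).re := by
    intro a b ha hb a2 b2
    have := n2_nonneg hτ (a * 1 * (1 - b))
    rw [n2_pq hτ ((IsSelfAdjoint.one A).sub hb) ha (by
      rw [mul_sub, sub_mul, sub_mul, b2]; simp) a2] at this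
    simp only [star_one, one_mul, mul_one, mul_sub, map_sub, Complex.sub_re] at this
    linarith
  refine ⟨fun j => ?_, ?_⟩
  · change 1 - ∑ l ∈ univ.erase j, (τ (q l)).re ≤ _
    have e1 := add_sum_erase univ (fun l => (τ (q l)).re) (mem_univ j)
    have e2 := single_le_sum (f := fun l => (τ (q l)).re - (τ (q l * p l)).re)
      (fun l _ => sub_nonneg.2 (pos _ _ (qs l) (hS.p_sa l) (q2 l) (p2 l))) (mem_univ j)
    rw [sum_sub_distrib, tq] at e2
    have e3 := pos _ _ (hS.p_sa j) (qs j) (p2 j) (q2 j)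
    rw [hτ.2.2.2] at e3
    have e4 : (τ (p j)).re = 1 / k := by
      have := hS.p_ind j 1 (one_mem _)
      rw [mul_one, hτ.1] at this
      rw [this]; simp
    linarith
  have hd : ∑ j, n2 τ (q j - p j) ≤ 2 * η ^ 2 := by
    have : ∀ j, n2 τ (q j - p j) = (τ (q j)).re + (τ (p j)).re - 2 * (τ (q j * p j)).re := by
      intro j
      rw [n2, star_sub, (qs j).star_eq, (hS.p_sa j).star_eq, sub_mul, mul_sub, mul_sub, p2, q2]
      simp only [map_sub, Complex.sub_re, hτ.2.2.2 (p j) (q j)]
      ring
    simp only [this, sum_sub_distrib, sum_add_distrib, ← mul_sum, tp, tq]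
    linarith
  have hy : ∀ i, n2 τ (off q (y i)) ≤ 32 * η ^ 2 := by
    intro i
    have e : off q (y i) = ∑ j, q j * ((q j - p j) * y i - y i * (q j - p j)) := by
      have : ∀ j, q j * ((q j - p j) * y i - y i * (q j - p j)) =
          q j * y i - q j * y i * q j := by
        intro j
        rw [sub_mul, mul_sub (y i), hS.y_comm, sub_sub_sub_cancel_right, mul_sub, ← mul_assoc, q2,
          mul_assoc]
      simp only [this, sum_sub_distrib, ← sum_mul, q1, one_mul, off]
    rw [e, n2_left qs qm]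
    refine (sum_le_sum (g := fun j => 16 * n2 τ (q j - p j)) fun j _ => ?_).trans (by
      rw [← mul_sum]; linarith)
    have qn : ‖q j‖ ≤ 1 := by
      have := CStarRing.norm_star_mul_self (x := q j)
      rw [(qs j).star_eq, q2] at this
      nlinarith [norm_nonneg (q j)]
    have a0 := apply_nonneg (nn h3 hτ) (q j - p j)
    have a1 := (nn_mul_right h3 hτ (q j - p j) (y i)).trans
      (mul_le_mul_of_nonneg_left (hS.y_norm i) a0)
    have a2 := (nn_mul_left h3 hτ (y i) (q j - p j)).trans
      (mul_le_mul_of_nonneg_right (hS.y_norm i) a0)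
    have a3 := map_sub_le_add (nn h3 hτ) ((q j - p j) * y i) (y i * (q j - p j))
    have a4 := (nn_mul_left h3 hτ (q j) ((q j - p j) * y i - y i * (q j - p j))).trans
      (mul_le_of_le_one_left (apply_nonneg _ _) qn)
    rw [← nn_sq h3 hτ, ← nn_sq h3 hτ]
    have := pow_le_pow_left₀ (apply_nonneg _ _)
      (show nn h3 hτ (q j * ((q j - p j) * y i - y i * (q j - p j))) ≤ 4 * nn h3 hτ (q j - p j) by
        linarith) 2
    linarith
  have hw := fun j => (h1 A τ).2.2.1 (Fin (N + 1)) _ S j hS.S_sd
  have hS1 : ∀ l, τ (S l * S l) = 1 := fun l => by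
    have := (hw l 1 (one_mem _) 1 (one_mem _)).2
    simpa [hτ.1] using this
  have hSn : ∀ l, nn h3 hτ (S l) = 1 := fun l => by
    change √(n2 τ (S l)) = 1
    rw [n2, (hS.S_sa l).star_eq, hS1]; simp
  have hSo : ∀ l, (τ (off q (S l) * S l)).re ≤ 1 := by
    intro l
    rw [tr_off, hS1, Complex.sub_re, Complex.re_sum, Complex.one_re]
    refine sub_le_self _ (sum_nonneg fun j _ => ?_)
    have := n2_nonneg hτ (q j * S l * q j)
    rwa [n2_pq hτ (qs j) (qs j) (q2 j) (q2 j), (hS.S_sa l).star_eq, hτ.2.2.2, ← mul_assoc,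
      ← mul_assoc] at this
  have hc0 : ∀ i, i ∉ I → τ (off q (y i) * S i.succ) = 0 := by
    intro i hi
    set B := Algebra.adjoin ℂ (Set.range p ∪ Set.range y) ⊔
      Algebra.adjoin ℂ (S '' {l | l ≠ i.succ}) with hB
    have hyB : y i ∈ B.topologicalClosure := B.le_topologicalClosure
      (le_sup_left (a := Algebra.adjoin ℂ (Set.range p ∪ Set.range y))
        (Algebra.subset_adjoin (Or.inr ⟨i, rfl⟩)))
    have hqB : ∀ j, q j ∈ B.topologicalClosure := fun j => cfc_mem_closure B hc (hI i hi) _
    have hm : off q (y i) ∈ B.topologicalClosure :=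
      sub_mem hyB (sum_mem fun j _ => mul_mem (mul_mem (hqB j) hyB) (hqB j))
    have hcont : Continuous τ := AddMonoidHomClass.continuous_of_bound τ 1 (by
      simpa using (h3 A τ hτ).1)
    have hcl : IsClosed {b : A | τ (S i.succ * b) = 0} := isClosed_eq (by fun_prop) continuous_const
    rw [hτ.2.2.2]
    exact closure_minimal (s := (B : Set A)) (fun b hb => (hw i.succ b hb 1 (one_mem _)).1) hcl hm
  have hc1 : ∀ i, (τ (off q (y i) * S i.succ)).re ≤ 6 * η := by
    intro i
    have a1 := norm_tr_le h3 hτ (off q (y i)) (S i.succ)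
    rw [off_sa qs (hS.y_sa i), hSn, mul_one] at a1
    have a2 : nn h3 hτ (off q (y i)) ≤ 6 * η := by
      refine (abs_le_of_sq_le_sq' ?_ (by positivity)).2
      rw [nn_sq]; nlinarith [hy i, sq_nonneg η]
    exact (Complex.re_le_norm _).trans (a1.trans a2)
  have s0 := Real.sqrt_nonneg t
  have s2 := Real.mul_self_sqrt ht.le
  have main : ∀ i : Fin N, offE τ q (heatTuple (sig p y L) S t i.succ) ≤
      t + 32 * η ^ 2 + if i ∈ I then 12 * Real.sqrt t * η else 0 := by
    intro i
    have e : offE τ q (heatTuple (sig p y L) S t i.succ) = (τ (off q (y i) * y i)).re +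
        2 * Real.sqrt t * (τ (off q (y i) * S i.succ)).re +
        Real.sqrt t * Real.sqrt t * (τ (off q (S i.succ) * S i.succ)).re := by
      have e1 : heatTuple (sig p y L) S t i.succ = y i + (Real.sqrt t : ℂ) • S i.succ := rfl
      have e2 : off q (y i + (Real.sqrt t : ℂ) • S i.succ) =
          off q (y i) + (Real.sqrt t : ℂ) • off q (S i.succ) := by
        simp only [off, mul_add, add_mul, sum_add_distrib, mul_smul_comm, smul_mul_assoc,
          ← smul_sum, smul_sub]
        abel
      rw [offE, ← tr_off, e1, e2]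
      simp only [mul_add, add_mul, mul_smul_comm, smul_mul_assoc, map_add, map_smul, smul_eq_mul,
        Complex.add_re, Complex.re_ofReal_mul, tr_off_symm hτ q (S i.succ) (y i)]
      ring
    rw [e, ← n2_off hτ qs qm (hS.y_sa i), s2]
    have a1 := hy i
    have a2 := mul_le_mul_of_nonneg_left (hSo i.succ) ht.le
    split_ifs with hi
    · have a3 := mul_le_mul_of_nonneg_left (hc1 i) s0
      linarith
    · rw [hc0 i hi]; simp only [Complex.zero_re]; linarith
  refine (sum_le_sum fun i _ => main i).trans (le_of_eq ?_)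
  simp only [sum_add_distrib, sum_const, card_univ, Fintype.card_fin, nsmul_eq_mul, sum_ite_mem,
    univ_inter]
  ring

end Crest.Agent.FE
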