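import Crest.Agent.FE.Defs

/-! Combinatorics of splittings, free cumulant recursion and its bound. -/

set_option autoImplicit false
open Finset

namespace Crest.Agent.FE.Hd

section spl
variable {Λ Λ' M M' : Type*} [AddCommMonoid M] [AddCommMonoid M']

@[simp] lemma spl_nil (F : List Λ → Λ → List Λ → M) : spl [] F = 0 := rfl

lemma spl_cons (a : Λ) (b : List Λ) (F : List Λ → Λ → List Λ → M) :
    spl (a :: b) F = F [] a b + spl b fun u i v => F (a :: u) i v := rfl

lemma spl_congr {b : List Λ} {F G : List Λ → Λ → List Λ → M}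
    (h : ∀ u i v, b = u ++ i :: v → F u i v = G u i v) : spl b F = spl b G := by
  induction b generalizing F G with
  | nil => rfl
  | cons a b ih =>
    rw [spl_cons, spl_cons, h [] a b rfl, ih]
    intro u i v huv
    exact h _ _ _ (by simp [huv])

lemma spl_add (b : List Λ) (F G : List Λ → Λ → List Λ → M) :
    spl b (fun u i v => F u i v + G u i v) = spl b F + spl b G := by
  induction b generalizing F G with
  | nil => simp
  | cons a b ih => simp only [spl_cons, ih]; abel

@[simp] lemma spl_zero (b : List Λ) : spl b (fun _ _ _ => (0 : M)) = 0 := by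
  induction b with
  | nil => rfl
  | cons a b ih => simp [spl_cons, ih]

lemma map_spl {φ : Type*} [FunLike φ M M'] [AddMonoidHomClass φ M M'] (f : φ) (b : List Λ)
    (F : List Λ → Λ → List Λ → M) : f (spl b F) = spl b fun u i v => f (F u i v) := by
  induction b generalizing F with
  | nil => simp
  | cons a b ih => simp only [spl_cons, map_add, ih]

lemma spl_append (a b : List Λ) (F : List Λ → Λ → List Λ → M) :
    spl (a ++ b) F = spl a (fun u i v => F u i (v ++ b)) + spl b fun u i v => F (a ++ u) i v := by
  induction a generalizing F with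
  | nil => simp
  | cons x a ih => simp only [List.cons_append, spl_cons, ih, add_assoc]

lemma spl_map (g : Λ → Λ') (b : List Λ) (F : List Λ' → Λ' → List Λ' → M) :
    spl (b.map g) F = spl b fun u i v => F (u.map g) (g i) (v.map g) := by
  induction b generalizing F with
  | nil => simp
  | cons x a ih => simp only [List.map_cons, spl_cons, ih, List.map_nil]

lemma spl_coassoc (b : List Λ) (F : List Λ → Λ → List Λ → Λ → List Λ → M) :
    spl b (fun u i v => spl u fun u' j v' => F u' j v' i v) =
      spl b fun u' j w => spl w fun v' i v => F u' j v' i v := by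
  induction b generalizing F with
  | nil => simp
  | cons x a ih =>
    simp only [spl_cons, spl_nil, zero_add, spl_add]
    rw [ih fun u' j v' i v => F (x :: u') j v' i v]

lemma spl_reverse (b : List Λ) (F : List Λ → Λ → List Λ → M) :
    spl b.reverse F = spl b fun u i v => F v.reverse i u.reverse := by
  induction b generalizing F with
  | nil => simp
  | cons x a ih =>
    rw [List.reverse_cons, spl_append, ih, spl_cons, spl_cons]
    simp [add_comm]

lemma mul_spl {R : Type*} [NonUnitalNonAssocSemiring R] (c : R) (b : List Λ)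
    (F : List Λ → Λ → List Λ → R) : c * spl b F = spl b fun u i v => c * F u i v :=
  map_spl (AddMonoidHom.mulLeft c) b F

lemma spl_mul {R : Type*} [NonUnitalNonAssocSemiring R] (c : R) (b : List Λ)
    (F : List Λ → Λ → List Λ → R) : spl b F * c = spl b fun u i v => F u i v * c :=
  map_spl (AddMonoidHom.mulRight c) b F

lemma spl_sum {κ : Type*} (s : Finset κ) (b : List Λ) (F : κ → List Λ → Λ → List Λ → M) :
    ∑ j ∈ s, spl b (F j) = spl b fun u i v => ∑ j ∈ s, F j u i v := by
  induction b generalizing F with
  | nil => simp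
  | cons x a ih => simp only [spl_cons, sum_add_distrib, ih]

end spl

section ev
variable {Λ Λ' A : Type*} [Monoid A]
@[simp] lemma ev_nil (a : Λ → A) : ev a [] = 1 := rfl
lemma ev_cons (a : Λ → A) (i : Λ) (w : List Λ) : ev a (i :: w) = a i * ev a w := by simp [ev]
lemma ev_append (a : Λ → A) (u w : List Λ) : ev a (u ++ w) = ev a u * ev a w := by simp [ev]
lemma ev_map (a : Λ' → A) (g : Λ → Λ') (w : List Λ) : ev a (w.map g) = ev (a ∘ g) w := by
  simp [ev]
end ev

variable {ι : Type*}

/-- shift of a formal series -/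
def sh (f : List ι → ℂ) (i : ι) : List ι → ℂ := fun w => f (i :: w)

noncomputable def Bf (m : List ι → ℂ) : ℕ → List ι → (List ι → ℂ) → ℂ
  | 0, b, f => f [] * m b
  | r + 1, b, f => f [] * m b + spl b fun u i v => m v * Bf m r u (sh f i)

lemma Bf_stab (m : List ι → ℂ) (r : ℕ) : ∀ (b : List ι) (f : List ι → ℂ), b.length ≤ r →
    Bf m (r + 1) b f = Bf m r b f := by
  induction r with
  | zero =>
    intro b f hb
    obtain rfl : b = [] := List.length_eq_zero_iff.mp (by omega)
    simp [Bf]
  | succ r ih =>
    intro b f hb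
    rw [Bf, Bf]
    congr 1
    refine spl_congr fun u i v huv => ?_
    rw [ih]
    have := congrArg List.length huv
    simp at this; omega

noncomputable def B (m : List ι → ℂ) (b : List ι) (f : List ι → ℂ) : ℂ := Bf m b.length b f

lemma Bf_eq (m : List ι → ℂ) (b : List ι) (f : List ι → ℂ) (r : ℕ) (h : b.length ≤ r) :
    Bf m r b f = B m b f := by
  induction r, h using Nat.le_induction with
  | base => rfl
  | succ r hr ih => rw [Bf_stab m r b f hr, ih]

lemma B_eq (m : List ι → ℂ) (b : List ι) (f : List ι → ℂ) :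
    B m b f = f [] * m b + spl b fun u i v => m v * B m u (sh f i) := by
  rw [← Bf_eq m b f (b.length + 1) (by omega), Bf]
  congr 1
  refine spl_congr fun u i v huv => ?_
  rw [Bf_eq]
  have := congrArg List.length huv
  simp at this; omega

lemma len_ind {P : List ι → Prop}
    (h : ∀ b, (∀ u : List ι, u.length < b.length → P u) → P b) (b : List ι) : P b := by
  induction hb : b.length using Nat.strong_induction_on generalizing b with
  | _ r ih => exact h b fun u hu => ih _ (hb ▸ hu) u rfl

lemma len_left {b u v : List ι} {i : ι} (h : b = u ++ i :: v) : u.length < b.length := by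
  have := congrArg List.length h
  simp at this; omega

lemma len_right {b u v : List ι} {i : ι} (h : b = u ++ i :: v) : v.length < b.length := by
  have := congrArg List.length h
  simp at this; omega

lemma B_lin (m : List ι → ℂ) (c : ℂ) (b : List ι) : ∀ f g : List ι → ℂ,
    B m b (fun w => f w + c * g w) = B m b f + c * B m b g := by
  induction b using len_ind with
  | _ b ih =>
    intro f g
    rw [B_eq, B_eq m b f, B_eq m b g, mul_add, mul_spl]
    have : (spl b fun u i v => m v * B m u (sh (fun w => f w + c * g w) i)) =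
        spl b fun u i v => m v * B m u (sh f i) + c * (m v * B m u (sh g i)) := by
      refine spl_congr fun u i v huv => ?_
      have := ih u (len_left huv) (sh f i) (sh g i)
      rw [show sh (fun w => f w + c * g w) i = fun w => sh f i w + c * sh g i w from rfl, this]
      ring
    rw [this, spl_add]; ring

noncomputable def conv (f g : List ι → ℂ) (w : List ι) : ℂ :=
  ∑ a ∈ range (w.length + 1), f (w.take a) * g (w.drop a)

lemma conv_nil (f g : List ι → ℂ) : conv f g [] = f [] * g [] := by simp [conv]

lemma sh_conv (f g : List ι → ℂ) (i : ι) :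
    sh (conv f g) i = fun w => conv (sh f i) g w + f [] * sh g i w := by
  funext w
  simp only [sh, conv, List.length_cons]
  rw [sum_range_succ']
  simp

lemma B_conv (m : List ι → ℂ) (g : List ι → ℂ) (b : List ι) : ∀ f : List ι → ℂ,
    B m b (conv f g) = g [] * B m b f + spl b fun u j v => B m v f * B m u (sh g j) := by
  induction b using len_ind with
  | _ b ih =>
    intro f
    rw [B_eq, B_eq m b f, conv_nil]
    have h1 : (spl b fun u i v => m v * B m u (sh (conv f g) i)) =
        spl b fun u i v => (g [] * (m v * B m u (sh f i)) + f [] * m v * B m u (sh g i)) +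
          spl u fun u' j v' => m v * B m v' (sh f i) * B m u' (sh g j) := by
      refine spl_congr fun u i v huv => ?_
      rw [sh_conv, B_lin, ih u (len_left huv), mul_add, mul_add, mul_spl]
      simp only [mul_assoc]; ring
    have h2 : (spl b fun u j v => B m v f * B m u (sh g j)) =
        spl b fun u j v => f [] * m v * B m u (sh g j) +
          spl v fun v' i v'' => m v'' * B m v' (sh f i) * B m u (sh g j) := by
      refine spl_congr fun u i v _ => ?_
      rw [B_eq m v f, add_mul, spl_mul]
    rw [h1, h2, spl_add, spl_add, spl_add, spl_coassoc, mul_add, mul_spl]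
    ring

/-- free cumulants -/
noncomputable def kap {𝒩 : Type*} (X : ι → 𝒩 → 𝒩) (one : 𝒩) (τ : 𝒩 → ℂ) : List ι → 𝒩 → ℂ
  | [], α => τ α
  | i :: w, α => kap X one τ w (X i α) -
      ∑ a ∈ range (w.length + 1), kap X one τ (w.take a) (X i one) * kap X one τ (w.drop a) α
  termination_by w => w.length
  decreasing_by all_goals (simp; try omega)

lemma kap_cons {𝒩 : Type*} (X : ι → 𝒩 → 𝒩) (one : 𝒩) (τ : 𝒩 → ℂ) (i : ι) (α : 𝒩) :
    (fun w => kap X one τ w (X i α)) = fun w => sh (fun w => kap X one τ w α) i w +
      1 * conv (fun w => kap X one τ w (X i one)) (fun w => kap X one τ w α) w := by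
  funext w
  simp only [sh, conv]
  rw [kap]; ring

/-- the cumulant expansion -/
lemma expand [DecidableEq ι] {𝒩 : Type*} (X : ι → 𝒩 → 𝒩) (one : 𝒩) (τ : 𝒩 → ℂ)
    (T : List ι → 𝒩 → ℂ) (σ : ℂ) (h1 : T [] one = 1) (h0 : ∀ α, T [] α = τ α)
    (hs : ∀ b i α, T (b ++ [i]) α = T b (X i α) +
      σ * spl b fun u j v => if j = i then T u α * T v one else 0) (b : List ι) :
    ∀ α, T b α = B (fun b => T b one) b fun w => kap X one τ w α := by
  induction b using len_ind with
  | _ b ih =>
    intro α
    rcases List.eq_nil_or_concat b with rfl | ⟨b', i, rfl⟩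
    · rw [B_eq]; simp [h1, h0, kap]
    · rw [List.concat_eq_append] at ih ⊢
      have ih' : ∀ u : List ι, u.length ≤ b'.length → ∀ α,
          T u α = B (fun b => T b one) u fun w => kap X one τ w α :=
        fun u hu => ih u (by simp; omega)
      set m : List ι → ℂ := fun b => T b one with hm
      set κ : 𝒩 → List ι → ℂ := fun α w => kap X one τ w α with hκ
      have hm1 : ∀ u : List ι, u.length ≤ b'.length → m (u ++ [i]) = B m u (κ (X i one)) +
          σ * spl u fun u' j v => if j = i then m u' * m v else 0 := by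
        intro u hu
        simp only [hm]
        rw [hs, ih' u hu]
      have e1 : κ (X i α) = fun w => sh (κ α) i w + 1 * conv (κ (X i one)) (κ α) w :=
        kap_cons X one τ i α
      change T (b' ++ [i]) α = B m (b' ++ [i]) (κ α)
      rw [hs, ih' b' le_rfl, B_eq m (b' ++ [i]), spl_append]
      change B m b' (κ (X i α)) + _ = _
      rw [e1, B_lin, B_conv, hm1 b' le_rfl]
      have h2 : (spl b' fun u j v => if j = i then T u α * T v one else 0) =
          spl b' fun u j v => (if j = i then κ α [] * (m u * m v) else 0) +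
            spl u fun u' j' v' => if j = i then m v' * m v * B m u' (sh (κ α) j') else 0 := by
        refine spl_congr fun u j v huv => ?_
        split_ifs with hj
        · rw [ih' u (len_left huv).le]
          change B m u (κ α) * m v = _
          rw [B_eq m u, add_mul, spl_mul]
          congr 1
          · ring
          · exact spl_congr fun _ _ _ _ => by ring
        · simp
      have h3 : (spl b' fun u j v => m (v ++ [i]) * B m u (sh (κ α) j)) =
          spl b' fun u j v => B m v (κ (X i one)) * B m u (sh (κ α) j) +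
            σ * spl v fun v' j' v'' =>
              if j' = i then m v' * m v'' * B m u (sh (κ α) j) else 0 := by
        refine spl_congr fun u j v huv => ?_
        rw [hm1 v (len_right huv).le, add_mul, mul_assoc, spl_mul]
        congr 2
        exact spl_congr fun _ _ _ _ => by split_ifs <;> simp
      have h4 : (spl b' fun u j v => if j = i then κ α [] * (m u * m v) else 0) =
          κ α [] * spl b' fun u j v => if j = i then m u * m v else 0 := by
        rw [mul_spl]; exact spl_congr fun _ _ _ _ => by split_ifs <;> simp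
      rw [h2, h3, spl_add, spl_add, spl_coassoc, h4, ← mul_spl, spl_cons]
      have : m [] = 1 := h1
      simp only [spl_nil, List.append_nil, this]
      ring

/-! ### norms -/

variable [Fintype ι]

noncomputable def sq : ℕ → (List ι → ℂ) → ℝ
  | 0, f => ‖f []‖ ^ 2
  | m + 1, f => ∑ i, sq m (sh f i)

lemma sq_nonneg (m : ℕ) : ∀ f : List ι → ℂ, 0 ≤ sq m f := by
  induction m with
  | zero => intro f; simp [sq]
  | succ m ih => intro f; exact sum_nonneg fun i _ => ih _

lemma sq_congr (m : ℕ) : ∀ f g : List ι → ℂ, (∀ w, w.length = m → f w = g w) → sq m f = sq m g := by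
  induction m with
  | zero => intro f g h; simp [sq, h [] rfl]
  | succ m ih =>
    intro f g h
    exact sum_congr rfl fun i _ => ih _ _ fun w hw => h _ (by simp [hw])

lemma sq_add (m : ℕ) : ∀ f g : List ι → ℂ,
    √(sq m fun w => f w + g w) ≤ √(sq m f) + √(sq m g) := by
  induction m with
  | zero => intro f g; simp [sq, norm_add_le]
  | succ m ih =>
    intro f g
    rw [Real.sqrt_le_left (by positivity)]
    have h1 : sq (m + 1) (fun w => f w + g w) ≤
        ∑ i, (√(sq m (sh f i)) + √(sq m (sh g i))) ^ 2 := by
      refine sum_le_sum fun i _ => ?_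
      have := ih (sh f i) (sh g i)
      rw [Real.sqrt_le_left (by positivity)] at this
      exact this
    have h2 := Real.sum_mul_le_sqrt_mul_sqrt univ (fun i => √(sq m (sh f i)))
      (fun i => √(sq m (sh g i)))
    simp only [Real.sq_sqrt (sq_nonneg _ _)] at h2
    have h3 : ∑ i, (√(sq m (sh f i)) + √(sq m (sh g i))) ^ 2 = sq (m + 1) f + sq (m + 1) g +
        2 * ∑ i, √(sq m (sh f i)) * √(sq m (sh g i)) := by
      simp only [sq, mul_sum, ← sum_add_distrib]
      refine sum_congr rfl fun i _ => ?_
      rw [add_sq, Real.sq_sqrt (sq_nonneg _ _), Real.sq_sqrt (sq_nonneg _ _)]; ring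
    have h4 : (√(sq (m + 1) f) + √(sq (m + 1) g)) ^ 2 = sq (m + 1) f + sq (m + 1) g +
        2 * (√(sq (m + 1) f) * √(sq (m + 1) g)) := by
      rw [add_sq, Real.sq_sqrt (sq_nonneg _ _), Real.sq_sqrt (sq_nonneg _ _)]; ring
    rw [h4]
    simp only [sq] at h1 h3 ⊢
    linarith

lemma sq_zero (m : ℕ) : sq m (fun _ : List ι => (0 : ℂ)) = 0 := by
  induction m with
  | zero => simp [sq]
  | succ m ih => exact sum_eq_zero fun i _ => ih

lemma sq_neg (m : ℕ) : ∀ f : List ι → ℂ, sq m (fun w => -f w) = sq m f := by
  induction m with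
  | zero => intro f; simp [sq]
  | succ m ih => intro f; exact sum_congr rfl fun i _ => ih _

lemma sq_sum {κ : Type*} (s : Finset κ) (m : ℕ) (f : κ → List ι → ℂ) :
    √(sq m fun w => ∑ a ∈ s, f a w) ≤ ∑ a ∈ s, √(sq m (f a)) := by
  classical
  induction s using Finset.induction_on with
  | empty => simp [sq_zero]
  | insert a s ha ih =>
    simp only [sum_insert ha]
    exact (sq_add m _ _).trans (by linarith)

lemma sq_smul (m : ℕ) (c : ℂ) : ∀ g : List ι → ℂ, sq m (fun w => c * g w) = ‖c‖ ^ 2 * sq m g := by
  induction m with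
  | zero => intro f; simp [sq, mul_pow]
  | succ m ih => intro f; simp only [sq, mul_sum]; exact sum_congr rfl fun i _ => ih _

lemma sq_tensor (a b : ℕ) (g : List ι → ℂ) : ∀ f : List ι → ℂ,
    sq (b + a) (fun w => f (w.take a) * g (w.drop a)) = sq a f * sq b g := by
  induction a with
  | zero => intro f; simpa [sq] using sq_smul b (f []) g
  | succ a ih =>
    intro f
    rw [← add_assoc, sq, sq, sum_mul]
    exact sum_congr rfl fun i _ => ih (sh f i)

noncomputable def maj (θ : ℝ) : ℕ → ℝ
  | 0 => 1
  | m + 1 => θ * (maj θ m + ∑ a ∈ (range (m + 1)).attach, maj θ a.1 * maj θ (m - a.1))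
  decreasing_by
    all_goals first | omega | (have := mem_range.mp a.2; omega)

lemma maj_succ (θ : ℝ) (m : ℕ) :
    maj θ (m + 1) = θ * (maj θ m + ∑ a ∈ range (m + 1), maj θ a * maj θ (m - a)) := by
  rw [maj, sum_attach (range (m + 1)) fun a => maj θ a * maj θ (m - a)]

lemma maj_nonneg {θ : ℝ} (hθ : 0 ≤ θ) (m : ℕ) : 0 ≤ maj θ m := by
  induction m using Nat.strong_induction_on with
  | _ m ih =>
    cases m with
    | zero => simp [maj]
    | succ m =>
      rw [maj_succ]
      refine mul_nonneg hθ (add_nonneg (ih _ (by omega)) (sum_nonneg fun a ha => ?_))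
      have := mem_range.mp ha
      exact mul_nonneg (ih _ (by omega)) (ih _ (by omega))

lemma maj_sum {θ lam : ℝ} (hθ : 0 ≤ θ) (hl : 0 ≤ lam) (h : lam * θ ≤ 1 / 6) (r : ℕ) :
    ∑ m ∈ range r, lam ^ m * maj θ m ≤ 2 := by
  induction r with
  | zero => simp
  | succ r ih =>
    rw [sum_range_succ']
    have hn : ∀ m, 0 ≤ lam ^ m * maj θ m := fun m => mul_nonneg (by positivity) (maj_nonneg hθ m)
    have h0 : 0 ≤ ∑ m ∈ range r, lam ^ m * maj θ m := sum_nonneg fun m _ => hn m
    have h1 : ∑ m ∈ range r, lam ^ (m + 1) * maj θ (m + 1) = lam * θ *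
        (∑ m ∈ range r, lam ^ m * maj θ m + ∑ m ∈ range r, ∑ a ∈ range (m + 1),
          (lam ^ a * maj θ a) * (lam ^ (m - a) * maj θ (m - a))) := by
      rw [← sum_add_distrib, mul_sum]
      refine sum_congr rfl fun m _ => ?_
      have : ∑ a ∈ range (m + 1), (lam ^ a * maj θ a) * (lam ^ (m - a) * maj θ (m - a)) =
          lam ^ m * ∑ a ∈ range (m + 1), maj θ a * maj θ (m - a) := by
        rw [mul_sum]
        refine sum_congr rfl fun a ha => ?_
        have := mem_range.mp ha
        rw [show lam ^ m = lam ^ a * lam ^ (m - a) by rw [← pow_add]; congr 1; omega]; ring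
      rw [this, maj_succ]; ring
    have h2 : ∑ m ∈ range r, ∑ a ∈ range (m + 1),
        (lam ^ a * maj θ a) * (lam ^ (m - a) * maj θ (m - a)) ≤
          (∑ m ∈ range r, lam ^ m * maj θ m) * ∑ m ∈ range r, lam ^ m * maj θ m := by
      rw [sum_range_diag_flip r fun a b => (lam ^ a * maj θ a) * (lam ^ b * maj θ b), sum_mul]
      refine sum_le_sum fun a _ => ?_
      rw [← mul_sum]
      refine mul_le_mul_of_nonneg_left ?_ (hn a)
      exact sum_le_sum_of_subset_of_nonneg (range_subset_range.mpr (by omega)) fun m _ _ => hn m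
    rw [h1]
    have h3 : 0 ≤ lam * θ := by positivity
    have h4 := mul_le_mul h (add_le_add ih (h2.trans (mul_le_mul ih ih h0 (by norm_num))))
      (add_nonneg h0 (sum_nonneg fun m _ => sum_nonneg fun a _ => mul_nonneg (hn _) (hn _)))
      (by norm_num)
    simp only [maj, pow_zero]
    linarith

lemma kap_bound {𝒩 : Type*} (X : ι → 𝒩 → 𝒩) (one : 𝒩) (τ : 𝒩 → ℂ) (ν : 𝒩 → ℝ) (θ : ℝ)
    (hθ : 0 ≤ θ) (hν : ∀ α, 0 ≤ ν α) (h1 : ν one ≤ 1) (hτ : ∀ α, ‖τ α‖ ≤ ν α)
    (hX : ∀ α, ∑ i, ν (X i α) ^ 2 ≤ (θ * ν α) ^ 2) (m : ℕ) :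
    ∀ α, √(sq m fun w => kap X one τ w α) ≤ maj θ m * ν α := by
  induction m using Nat.strong_induction_on with
  | _ m ih =>
    intro α
    cases m with
    | zero => simpa [sq, kap, maj] using hτ α
    | succ m =>
      have ih2 : ∀ a ≤ m, ∀ β, (sq a fun w => kap X one τ w β) ≤ (maj θ a * ν β) ^ 2 := by
        intro a ha β
        have := ih a (by omega) β
        rwa [Real.sqrt_le_left (mul_nonneg (maj_nonneg hθ a) (hν β))] at this
      have ih3 : ∀ a ≤ m, ∀ β, ∑ i, (sq a fun w => kap X one τ w (X i β)) ≤
          (maj θ a * (θ * ν β)) ^ 2 := by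
        intro a ha β
        refine (sum_le_sum fun i _ => ih2 a ha (X i β)).trans ?_
        simp only [mul_pow, ← mul_sum]
        refine mul_le_mul_of_nonneg_left ?_ (by positivity)
        simpa [mul_pow] using hX β
      let F : List ι → ℂ := fun w => match w with
        | [] => 0
        | i :: w => kap X one τ w (X i α)
      let G : ℕ → List ι → ℂ := fun a w => match w with
        | [] => 0
        | i :: w => -(kap X one τ (w.take a) (X i one) * kap X one τ (w.drop a) α)
      have e : (sq (m + 1) fun w => kap X one τ w α) =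
          sq (m + 1) fun w => F w + ∑ a ∈ range (m + 1), G a w := by
        refine sq_congr _ _ _ fun w hw => ?_
        cases w with
        | nil => simp at hw
        | cons i w =>
          have : w.length = m := by simpa using hw
          rw [kap, this]
          simp only [F, G, sum_neg_distrib]; ring
      have hF : √(sq (m + 1) F) ≤ maj θ m * (θ * ν α) := by
        rw [Real.sqrt_le_left (mul_nonneg (maj_nonneg hθ m) (mul_nonneg hθ (hν α)))]
        exact ih3 m le_rfl α
      have hG : ∀ a ∈ range (m + 1), √(sq (m + 1) (G a)) ≤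
          θ * (maj θ a * maj θ (m - a)) * ν α := by
        intro a ha
        have ha' : a ≤ m := by have := mem_range.mp ha; omega
        have hp : 0 ≤ θ * (maj θ a * maj θ (m - a)) * ν α :=
          mul_nonneg (mul_nonneg hθ (mul_nonneg (maj_nonneg hθ _) (maj_nonneg hθ _))) (hν α)
        rw [Real.sqrt_le_left hp]
        have e2 : sq (m + 1) (G a) = (∑ i, sq a fun w => kap X one τ w (X i one)) *
            sq (m - a) fun w => kap X one τ w α := by
          rw [sq, sum_mul]
          refine sum_congr rfl fun i _ => ?_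
          rw [← sq_tensor, show m - a + a = m by omega]
          exact sq_neg m _
        rw [e2]
        have h5 := mul_le_mul (ih3 a ha' one) (ih2 (m - a) (by omega) α) (sq_nonneg _ _)
          (by positivity)
        refine h5.trans ?_
        have h6 : ν one ^ 2 ≤ 1 := by have := hν one; nlinarith
        calc _ = (θ * (maj θ a * maj θ (m - a)) * ν α) ^ 2 * ν one ^ 2 := by ring
          _ ≤ _ := mul_le_of_le_one_right (by positivity) h6
      rw [e]
      refine (sq_add _ _ _).trans ?_
      have := (sq_sum (range (m + 1)) (m + 1) G).trans (sum_le_sum hG)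
      rw [maj_succ, mul_add, add_mul, mul_sum, sum_mul]
      linarith

lemma kap_total {𝒩 : Type*} (X : ι → 𝒩 → 𝒩) (one : 𝒩) (τ : 𝒩 → ℂ) (ν : 𝒩 → ℝ) (θ lam : ℝ)
    (hθ : 0 ≤ θ) (hν : ∀ α, 0 ≤ ν α) (h1 : ν one ≤ 1) (hτ : ∀ α, ‖τ α‖ ≤ ν α)
    (hX : ∀ α, ∑ i, ν (X i α) ^ 2 ≤ (θ * ν α) ^ 2) (hl : 0 ≤ lam) (h : lam * θ ≤ 1 / 6)
    (r : ℕ) (α : 𝒩) :
    ∑ m ∈ range r, (lam ^ 2) ^ m * (sq m fun w => kap X one τ w α) ≤ 4 * ν α ^ 2 := by
  have hn : ∀ m, 0 ≤ lam ^ m * maj θ m := fun m => mul_nonneg (by positivity) (maj_nonneg hθ m)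
  have h2 := maj_sum hθ hl h r
  calc _ ≤ ∑ m ∈ range r, (lam ^ m * maj θ m) ^ 2 * ν α ^ 2 := by
        refine sum_le_sum fun m _ => ?_
        have := kap_bound X one τ ν θ hθ hν h1 hτ hX m α
        rw [Real.sqrt_le_left (mul_nonneg (maj_nonneg hθ m) (hν α))] at this
        calc _ ≤ (lam ^ 2) ^ m * (maj θ m * ν α) ^ 2 :=
              mul_le_mul_of_nonneg_left this (by positivity)
          _ = _ := by ring
    _ ≤ (∑ m ∈ range r, lam ^ m * maj θ m) ^ 2 * ν α ^ 2 := by
        rw [← sum_mul]
        exact mul_le_mul_of_nonneg_right (sum_sq_le_sq_sum_of_nonneg fun m _ => hn m)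
          (by positivity)
    _ ≤ _ := by
        refine mul_le_mul_of_nonneg_right ?_ (by positivity)
        have := sum_nonneg fun m (_ : m ∈ range r) => hn m
        nlinarith

end Crest.Agent.FE.Hd
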