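import Crest.Agent.FE.HA

/-! Formal Wick calculus for a family satisfying the Schwinger-Dyson equations. -/

set_option autoImplicit false
open Finset

namespace Crest.Agent.FE.Hd

variable {A : Type*} [Ring A] [Algebra ℂ A] {Λ κ : Type*} [Fintype κ]

/-- evaluation of formal words in affine letters `e` -/
noncomputable def EE (g : κ → A) (e : Λ → A × (κ → ℂ)) : (List Λ →₀ ℂ) →ₗ[ℂ] A :=
  Finsupp.linearCombination ℂ fun w => ev (aff g) (w.map e)

noncomputable def mulL (i : Λ) : (List Λ →₀ ℂ) →ₗ[ℂ] (List Λ →₀ ℂ) :=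
  Finsupp.lmapDomain ℂ ℂ (i :: ·)

/-- annihilation with a prefix `b` -/
noncomputable def DD (τ : A →ₗ[ℂ] ℂ) (g : κ → A) (e : Λ → A × (κ → ℂ)) (b : A) (j : κ) :
    (List Λ →₀ ℂ) →ₗ[ℂ] (List Λ →₀ ℂ) :=
  Finsupp.linearCombination ℂ fun w => spl w fun u i v =>
    ((e i).2 j * τ (b * ev (aff g) (u.map e))) • Finsupp.single v (1 : ℂ)

noncomputable def CC (τ : A →ₗ[ℂ] ℂ) (g : κ → A) (e : Λ → A × (κ → ℂ)) (s : κ → Λ) (j : κ) :
    (List Λ →₀ ℂ) →ₗ[ℂ] (List Λ →₀ ℂ) :=
  mulL (s j) - DD τ g e 1 j

variable {τ : A →ₗ[ℂ] ℂ} {g : κ → A} {e : Λ → A × (κ → ℂ)} {s : κ → Λ} {B : Subalgebra ℂ A}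

lemma EE_single (w : List Λ) (c : ℂ) :
    EE g e (Finsupp.single w c) = c • ev (aff g) (w.map e) := by simp [EE]

lemma mulL_single (i : Λ) (w : List Λ) (c : ℂ) :
    mulL i (Finsupp.single w c) = Finsupp.single (i :: w) c := by
  simp [mulL, Finsupp.mapDomain_single]

lemma DD_single (b : A) (j : κ) (w : List Λ) (c : ℂ) :
    DD τ g e b j (Finsupp.single w c) = c • spl w fun u i v =>
      ((e i).2 j * τ (b * ev (aff g) (u.map e))) • Finsupp.single v (1 : ℂ) := by simp [DD]

lemma EE_mulL (i : Λ) (x : List Λ →₀ ℂ) : EE g e (mulL i x) = aff g (e i) * EE g e x := by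
  induction x using Finsupp.induction_linear with
  | zero => simp
  | add x y hx hy => simp [hx, hy, mul_add]
  | single w c => simp [mulL_single, EE_single, ev_cons]

variable [DecidableEq κ]

lemma aff_pure (g : κ → A) (j : κ) : aff g ((0 : A), Pi.single j (1 : ℂ)) = g j := by
  simp [aff, Pi.single_apply, ite_smul]

omit [DecidableEq κ] in
lemma aff_const (g : κ → A) (b : A) : aff g (b, 0) = b := by simp [aff]

/-- pairing of a creation vector with a word on the left -/
lemma pair (hT : Tr τ) (h : SDL τ B g) (he : ∀ i, (e i).1 ∈ B)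
    (hs : ∀ j, e (s j) = (0, Pi.single j 1)) (j : κ) (L : List (A × (κ → ℂ)))
    (hL : ∀ a ∈ L, a.1 ∈ B) (x : List Λ →₀ ℂ) :
    τ (ev (aff g) L * EE g e (CC τ g e s j x)) =
      spl L fun u a v => a.2 j * (τ (ev (aff g) u * EE g e x) * τ (ev (aff g) v)) := by
  induction x using Finsupp.induction_linear with
  | zero => simp
  | add x y hx hy =>
    simp only [map_add, mul_add, hx, hy, ← spl_add, add_mul]
  | single w c =>
    have h1 := h j (w.map e ++ L) (by
      intro a ha
      rcases List.mem_append.mp ha with ha | ha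
      · obtain ⟨i, _, rfl⟩ := List.mem_map.mp ha
        exact he i
      · exact hL a ha)
    rw [spl_append, spl_map, ev_append] at h1
    simp only [CC, LinearMap.sub_apply, map_sub, mul_sub, EE_mulL, DD_single, EE_single, hs,
      aff_pure, map_smul, map_spl, mul_smul_comm, smul_eq_mul, one_mul, one_smul, mul_spl]
    rw [hT.2 (ev (aff g) L), mul_assoc, h1, mul_add, mul_spl, mul_spl]
    have e1 : (spl w fun u i v => c * ((e i).2 j * (τ (ev (aff g) (u.map e)) *
        τ (ev (aff g) (v.map e ++ L))))) = spl w fun u i v => c * ((e i).2 j *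
          τ (ev (aff g) (u.map e)) * τ (ev (aff g) L * ev (aff g) (v.map e))) :=
      spl_congr fun u i v _ => by rw [ev_append, hT.2 (ev (aff g) L)]; ring
    rw [e1, add_sub_cancel_left]
    exact spl_congr fun u a v _ => by rw [ev_append, hT.2 (ev (aff g) u)]; ring

lemma tr_CC (hT : Tr τ) (h : SDL τ B g) (he : ∀ i, (e i).1 ∈ B)
    (hs : ∀ j, e (s j) = (0, Pi.single j 1)) (j : κ) (b : A) (hb : b ∈ B) (x : List Λ →₀ ℂ) :
    τ (b * EE g e (CC τ g e s j x)) = 0 := by
  have := pair hT h he hs j [(b, 0)] (by simpa using hb) x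
  simpa [spl_cons, ev_cons, aff_const] using this

lemma DD_CC (hT : Tr τ) (h : SDL τ B g) (he : ∀ i, (e i).1 ∈ B)
    (hs : ∀ j, e (s j) = (0, Pi.single j 1)) (j j' : κ) (b : A) (hb : b ∈ B)
    (x : List Λ →₀ ℂ) :
    DD τ g e b j (CC τ g e s j' x) = (if j = j' then τ b else 0) • x := by
  induction x using Finsupp.induction_linear with
  | zero => simp
  | add x y hx hy => simp only [map_add, hx, hy, smul_add]
  | single w c =>
    simp only [CC, LinearMap.sub_apply, map_sub, mulL_single, DD_single, map_smul, map_spl,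
      spl_cons, hs, one_smul, one_mul]
    have e1 : (spl w fun u i v => ((e i).2 j * τ (b * ev (aff g) ((s j' :: u).map e))) •
        Finsupp.single v (1 : ℂ)) = spl w fun u i v => spl u fun u' i' v' =>
          ((e i').2 j' * τ (ev (aff g) (u'.map e))) •
            ((e i).2 j * τ (b * ev (aff g) (v'.map e))) • Finsupp.single v (1 : ℂ) := by
      refine spl_congr fun u i v _ => ?_
      have h1 := h j' (u.map e ++ [(b, 0)]) (by
        intro a ha
        rcases List.mem_append.mp ha with ha | ha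
        · obtain ⟨i, _, rfl⟩ := List.mem_map.mp ha
          exact he i
        · simp at ha; simpa [ha] using hb)
      rw [spl_append, spl_map, ev_append] at h1
      simp only [spl_cons, spl_nil, Pi.zero_apply, zero_mul, add_zero, ev_cons, ev_nil, mul_one,
        aff_const, ev_append] at h1
      rw [List.map_cons, ev_cons, hs, aff_pure, hT.2 b, mul_assoc, h1, mul_spl]
      rw [show ∀ z : ℂ, z • Finsupp.single v (1 : ℂ) =
        (LinearMap.toSpanSingleton ℂ _ (Finsupp.single v (1 : ℂ))) z from fun z => rfl, map_spl]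
      refine spl_congr fun u' i' v' _ => ?_
      rw [LinearMap.toSpanSingleton_apply, smul_smul, hT.2 b]
      congr 1; ring
    rw [e1, spl_coassoc]
    have e2 : ∀ (z : ℂ) (v : List Λ) (F : List Λ → Λ → List Λ → (List Λ →₀ ℂ)),
        z • spl v F = spl v fun a b c => z • F a b c :=
      fun z v F => map_spl (DistribSMul.toAddMonoidHom _ z) v F
    simp only [e2, smul_add, List.map_nil, ev_nil, mul_one, add_sub_cancel_right]
    by_cases hj : j = j'
    · subst hj; simp [mul_comm]
    · simp [hj, Pi.single_apply]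

lemma DD_nil (b : A) (j : κ) (c : ℂ) : DD τ g e b j (Finsupp.single [] c) = 0 := by
  simp [DD_single]

lemma mul_EE (hs : ∀ j, e (s j) = (0, Pi.single j 1)) (j : κ) (x : List Λ →₀ ℂ) :
    g j * EE g e x = EE g e (CC τ g e s j x) + EE g e (DD τ g e 1 j x) := by
  simp [CC, EE_mulL, hs, aff_pure]

end Crest.Agent.FE.Hd
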