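import Crest.Agent.FE.Defs

/-! The orthonormal basis of Hermitian matrices behind `hermitianOfCoords`. -/

set_option autoImplicit false
open Crest.OpAlg MeasureTheory Filter Topology ProbabilityTheory
open scoped ENNReal Matrix.Norms.L2Operator

namespace Crest.Agent.FE.Hm

variable {d : ℕ}

/-- basis matrices -/
noncomputable def E (p : Fin d × Fin d) : Matrix (Fin d) (Fin d) ℂ := fun i j =>
  if i = j then (if p = (i, i) then 1 else 0)
  else if i < j then ((if p = (i, j) then 1 else 0) + (if p = (j, i) then 1 else 0) * Complex.I) /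
    (Real.sqrt 2 : ℂ)
  else ((if p = (j, i) then 1 else 0) - (if p = (i, j) then 1 else 0) * Complex.I) /
    (Real.sqrt 2 : ℂ)

lemma sum_E (i j : Fin d) (f : Fin d × Fin d → ℂ) : ∑ p, f p * E p i j =
    if i = j then f (i, i) else if i < j then (f (i, j) + f (j, i) * Complex.I) / (Real.sqrt 2 : ℂ)
    else (f (j, i) - f (i, j) * Complex.I) / (Real.sqrt 2 : ℂ) := by
  unfold E
  split_ifs
  · simp
  · simp only [mul_div_assoc', ← Finset.sum_div, mul_add, Finset.sum_add_distrib, ← mul_assoc,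
      ← Finset.sum_mul]
    simp
  · simp only [mul_div_assoc', ← Finset.sum_div, mul_sub, Finset.sum_sub_distrib, ← mul_assoc,
      ← Finset.sum_mul]
    simp

lemma herm_eq (z : Fin d × Fin d → ℝ) :
    hermitianOfCoords (WithLp.toLp 2 z) = ∑ p, (z p : ℂ) • E p := by
  ext i j
  rw [Matrix.sum_apply]
  simp only [Matrix.smul_apply, smul_eq_mul]
  rw [sum_E]; rfl

lemma E_herm (p : Fin d × Fin d) : (E p).conjTranspose = E p := by
  ext i j
  rw [Matrix.conjTranspose_apply]
  unfold E
  rcases lt_trichotomy i j with h | h | h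
  · simp [h, h.ne, h.ne', h.not_gt, apply_ite star]
    split_ifs <;> simp
  · subst h; simp [apply_ite star]
  · simp [h, h.ne, h.ne', h.not_gt, apply_ite star, sub_eq_add_neg]
    split_ifs <;> simp

lemma sq2 : (Real.sqrt 2 : ℂ) * (Real.sqrt 2 : ℂ) = 2 := by
  rw [← Complex.ofReal_mul, Real.mul_self_sqrt (by norm_num)]; norm_num

lemma compl (a b c e : Fin d) :
    ∑ p, E p a b * E p c e = if a = e ∧ b = c then 1 else 0 := by
  rw [sum_E]
  have h2 : (Real.sqrt 2 : ℂ) ≠ 0 := by simp
  have h3 := sq2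
  have hI := Complex.I_mul_I
  unfold E
  rcases lt_trichotomy c e with h | h | h <;> rcases lt_trichotomy a b with g | g | g <;>
    by_cases h1 : c = a <;> by_cases h4 : e = b <;> by_cases h5 : c = b <;> by_cases h6 : e = a <;>
    first
    | omega
    | (subst_vars
       simp [*, ne_of_lt, ne_of_gt, not_lt_of_gt, eq_comm]
       try field_simp
       try grind)

lemma compl1 {R : Type*} [CommRing R] (φ : ℂ →+* R) (A B : Matrix (Fin d) (Fin d) R) :
    ∑ p, ((E p).map φ * A).trace * ((E p).map φ * B).trace = (A * B).trace := by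
  simp only [Matrix.trace, Matrix.diag, Matrix.mul_apply, Matrix.map_apply, Finset.sum_mul,
    Finset.mul_sum]
  have : ∀ a b c e : Fin d, ∑ p, φ (E p a b) * A b a * (φ (E p c e) * B e c) =
      if a = e ∧ b = c then A b a * B e c else 0 := fun a b c e => by
    have : ∀ p, φ (E p a b) * A b a * (φ (E p c e) * B e c) =
        φ (E p a b * E p c e) * (A b a * B e c) := fun p => by rw [map_mul]; ring
    simp only [this, ← Finset.sum_mul, ← map_sum, compl]
    split_ifs <;> simp
  rw [Finset.sum_comm]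
  simp_rw [Finset.sum_comm (s := (Finset.univ : Finset (Fin d × Fin d))), this]
  simp [ite_and]

lemma compl2 {R : Type*} [CommRing R] (φ : ℂ →+* R) (A B : Matrix (Fin d) (Fin d) R) :
    ∑ p, ((E p).map φ * A * (E p).map φ * B).trace = A.trace * B.trace := by
  simp only [Matrix.trace, Matrix.diag, Matrix.mul_apply, Matrix.map_apply, Finset.sum_mul,
    Finset.mul_sum]
  have : ∀ a b c e : Fin d, ∑ p, φ (E p a b) * A b c * φ (E p c e) * B e a =
      if a = e ∧ b = c then A b c * B e a else 0 := fun a b c e => by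
    have : ∀ p, φ (E p a b) * A b c * φ (E p c e) * B e a =
        φ (E p a b * E p c e) * (A b c * B e a) := fun p => by rw [map_mul]; ring
    simp only [this, ← Finset.sum_mul, ← map_sum, compl]
    split_ifs <;> simp
  rw [Finset.sum_comm]
  simp_rw [Finset.sum_comm (s := (Finset.univ : Finset (Fin d × Fin d))), this]
  simp [ite_and]

lemma opn_eq (M : Matrix (Fin d) (Fin d) ℂ) : opn M = ‖M‖ := rfl

lemma entry_le (M : Matrix (Fin d) (Fin d) ℂ) (i j : Fin d) : ‖M i j‖ ≤ ‖M‖ := by
  have h := Matrix.l2_opNorm_mulVec M (EuclideanSpace.single j 1)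
  have h2 := PiLp.norm_apply_le ((EuclideanSpace.equiv (Fin d) ℂ).symm
    (M.mulVec (EuclideanSpace.single j (1 : ℂ)))) i
  simp at h h2
  simpa using h2.trans h

lemma trace_le (M : Matrix (Fin d) (Fin d) ℂ) : ‖M.trace‖ ≤ d * ‖M‖ := by
  refine (norm_sum_le _ _).trans ?_
  refine (Finset.sum_le_card_nsmul _ _ ‖M‖ fun i _ => entry_le M i i).trans ?_
  simp

lemma ntr_apply (M : Matrix (Fin d) (Fin d) ℂ) : ntr d M = (d : ℂ)⁻¹ * M.trace := rfl

lemma ntr_le (M : Matrix (Fin d) (Fin d) ℂ) : ‖ntr d M‖ ≤ ‖M‖ := by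
  rw [ntr_apply, norm_mul, norm_inv, Complex.norm_natCast]
  rcases Nat.eq_zero_or_pos d with rfl | h
  · simp
  · rw [inv_mul_le_iff₀ (by positivity)]; exact trace_le M

lemma pi_gauss_eq (I : Type) [Fintype I] :
    (Measure.pi fun _ : I => gaussianReal 0 1) =
      (volume : Measure (I → ℝ)).withDensity
        fun x => ENNReal.ofReal (∏ i, gaussianPDFReal 0 1 (x i)) := by
  refine Measure.pi_eq fun s hs => ?_
  rw [withDensity_apply _ (MeasurableSet.univ_pi hs), volume_pi, Measure.restrict_pi_pi]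
  have hi : ∀ i, Integrable (gaussianPDFReal 0 1) (volume.restrict (s i)) := fun i =>
    (integrable_gaussianPDFReal 0 1).mono_measure Measure.restrict_le_self
  rw [← ofReal_integral_eq_lintegral_ofReal (Integrable.fintype_prod hi)
    (Eventually.of_forall fun x => Finset.prod_nonneg fun i _ => gaussianPDFReal_nonneg _ _ _),
    integral_fintype_prod_eq_prod (fun _ t => gaussianPDFReal 0 1 t),
    ENNReal.ofReal_prod_of_nonneg fun i _ => integral_nonneg fun t => gaussianPDFReal_nonneg _ _ _]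
  refine Finset.prod_congr rfl fun i _ => ?_
  rw [gaussianReal_apply_eq_integral _ one_ne_zero]

lemma pdf_le (x : ℝ) : gaussianPDFReal 0 1 x ≤ 1 / 2 := by
  unfold gaussianPDFReal
  have h1 : Real.exp (-(x - 0) ^ 2 / (2 * (1 : NNReal))) ≤ 1 :=
    Real.exp_le_one_iff.2 (div_nonpos_of_nonpos_of_nonneg (by simpa using sq_nonneg x) (by simp))
  have h2 : 2 ≤ Real.sqrt (2 * Real.pi * (1 : NNReal)) :=
    Real.le_sqrt_of_sq_le (by have := Real.pi_gt_three; simp; linarith)
  have h3 : (Real.sqrt (2 * Real.pi * (1 : NNReal)))⁻¹ ≤ 1 / 2 := by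
    rw [one_div]; exact inv_anti₀ (by norm_num) h2
  calc _ ≤ 1 / 2 * 1 := mul_le_mul h3 h1 (Real.exp_pos _).le (by norm_num)
    _ = _ := mul_one _

lemma pi_gauss_le (I : Type) [Fintype I] [Nonempty I] {s : Set (I → ℝ)} (hs : MeasurableSet s) :
    (Measure.pi fun _ : I => gaussianReal 0 1) s ≤ 2⁻¹ * volume s := by
  classical
  rw [pi_gauss_eq, withDensity_apply _ hs, ← setLIntegral_const]
  refine lintegral_mono fun x => ?_
  obtain ⟨i⟩ := ‹Nonempty I›
  have : ∏ i, gaussianPDFReal 0 1 (x i) ≤ 1 / 2 := by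
    rw [← Finset.mul_prod_erase _ _ (Finset.mem_univ i)]
    calc _ ≤ 1 / 2 * 1 := mul_le_mul (pdf_le _) (Finset.prod_le_one
          (fun i _ => gaussianPDFReal_nonneg _ _ _) fun i _ => (pdf_le _).trans (by norm_num))
          (Finset.prod_nonneg fun i _ => gaussianPDFReal_nonneg _ _ _) (by norm_num)
      _ = _ := mul_one _
  refine (ENNReal.ofReal_le_ofReal this).trans (le_of_eq ?_)
  rw [one_div, ENNReal.ofReal_inv_of_pos (by norm_num)]; simp

end Crest.Agent.FE.Hm
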