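import Crest.Agent.FE.HA
import Crest.Agent.FE.Herm

/-! (LO) the microstates entropy of `X + √t S` is not `-∞`. -/

set_option autoImplicit false
open Crest.OpAlg MeasureTheory Filter Topology
open scoped ENNReal Pointwise

namespace Crest.Agent.FE

namespace LOa
open Hd

theorem tendsto_spl {Ω Λ : Type*} {F : Filter Ω} (b : List Λ) :
    ∀ (G : Ω → List Λ → Λ → List Λ → ℂ) (H : List Λ → Λ → List Λ → ℂ),
      (∀ u i v, b = u ++ i :: v → Tendsto (fun ω => G ω u i v) F (𝓝 (H u i v))) →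
      Tendsto (fun ω => spl b (G ω)) F (𝓝 (spl b H)) := by
  induction b with
  | nil => intro G H _; simpa using tendsto_const_nhds
  | cons a b ih =>
    intro G H h
    simp only [spl_cons]
    exact (h [] a b rfl).add (ih (fun ω u i v => G ω (a :: u) i v) (fun u i v => H (a :: u) i v)
      fun u i v e => h (a :: u) i v (by rw [e]; rfl))

theorem word_cases {β κ : Type*} (w : List (β ⊕ κ)) :
    (∃ w' : List β, w = w'.map Sum.inl) ∨ ∃ u j v, w = u ++ Sum.inr j :: v := by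
  induction w with
  | nil => exact Or.inl ⟨[], rfl⟩
  | cons a w ih =>
    rcases a with b | j
    · rcases ih with ⟨w', rfl⟩ | ⟨u, j, v, rfl⟩
      · exact Or.inl ⟨b :: w', rfl⟩
      · exact Or.inr ⟨Sum.inl b :: u, j, v, rfl⟩
    · exact Or.inr ⟨[], j, w, rfl⟩

theorem ntr_comm {d : ℕ} (a b : Matrix (Fin d) (Fin d) ℂ) : ntr d (a * b) = ntr d (b * a) := by
  rw [Hm.ntr_apply, Hm.ntr_apply, Matrix.trace_mul_comm]

theorem sd_of_sdl {A : Type*} [Ring A] [Algebra ℂ A] {β κ : Type*} [Fintype κ] [DecidableEq κ]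
    (τ : A →ₗ[ℂ] ℂ) (X : β → A) (S : κ → A) (h : SDL τ (Algebra.adjoin ℂ (Set.range X)) S) :
    SD τ X S := by
  intro j w
  let e : β ⊕ κ → A × (κ → ℂ) := Sum.elim (fun b => (X b, 0)) fun l => (0, Pi.single l 1)
  have he : aff S ∘ e = Sum.elim X S := by
    funext l
    rcases l with b | l
    · simp [aff, e]
    · simp [aff, e, Pi.single_apply]
  have h1 := h j (w.map e) (by
    intro y hy
    obtain ⟨l, -, rfl⟩ := List.mem_map.1 hy
    rcases l with b | l
    · exact Algebra.subset_adjoin ⟨b, rfl⟩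
    · exact zero_mem _)
  rw [spl_map] at h1
  simp only [ev_map, he] at h1
  rw [sdd, h1, sub_eq_zero]
  refine spl_congr fun u i v _ => ?_
  rcases i with b | l
  · simp [e]
  · simp [e, Pi.single_apply, eq_comm]

section lim
variable {A : Type*} [Ring A] [Algebra ℂ A] {β κ Ω : Type*} [DecidableEq κ] {F : Filter Ω}
  {τ : A →ₗ[ℂ] ℂ} {X : β → A} {S : κ → A} {D : Ω → ℕ}
  {x : ∀ ω, β → Matrix (Fin (D ω)) (Fin (D ω)) ℂ} {g : ∀ ω, κ → Matrix (Fin (D ω)) (Fin (D ω)) ℂ}

theorem tendsto_mom (hτ : Tr τ) (hS : SD τ X S)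
    (hx : ∀ w : List β, Tendsto (fun ω => ntr _ (ev (x ω) w)) F (𝓝 (τ (ev X w))))
    (hg : ∀ j w, Tendsto (fun ω => sdd (ntr _) (x ω) (g ω) j w) F (𝓝 0)) (w : List (β ⊕ κ)) :
    Tendsto (fun ω => ntr _ (ev (Sum.elim (x ω) (g ω)) w)) F (𝓝 (τ (ev (Sum.elim X S) w))) := by
  induction w using len_ind with
  | _ w ih =>
    rcases word_cases w with ⟨w', rfl⟩ | ⟨u, j, v, rfl⟩
    · simpa only [ev_map, Sum.elim_comp_inl] using hx w'
    · have e1 : ∀ ω, ntr _ (ev (Sum.elim (x ω) (g ω)) (u ++ Sum.inr j :: v)) =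
          ntr _ (g ω j * ev (Sum.elim (x ω) (g ω)) (v ++ u)) := fun ω => by
        rw [ev_append, ntr_comm, ev_cons, ev_append, mul_assoc]; rfl
      have e2 : τ (ev (Sum.elim X S) (u ++ Sum.inr j :: v)) =
          τ (S j * ev (Sum.elim X S) (v ++ u)) := by
        rw [ev_append, hτ.2, ev_cons, ev_append, mul_assoc]; rfl
      have h3 := tendsto_spl (F := F) (v ++ u) (fun ω u' i v' =>
        Sum.elim (fun _ => (0 : ℂ)) (fun j' => if j' = j then 1 else 0) i *
          (ntr _ (ev (Sum.elim (x ω) (g ω)) u') * ntr _ (ev (Sum.elim (x ω) (g ω)) v')))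
        (fun u' i v' => Sum.elim (fun _ => (0 : ℂ)) (fun j' => if j' = j then 1 else 0) i *
          (τ (ev (Sum.elim X S) u') * τ (ev (Sum.elim X S) v'))) fun u' i v' e => by
          have l1 := len_left e
          have l2 := len_right e
          simp only [List.length_append] at l1 l2
          exact ((ih u' (by simp; omega)).mul (ih v' (by simp; omega))).const_mul _
      have h4 := (hg j (v ++ u)).add h3
      have h5 := hS j (v ++ u)
      rw [sdd, sub_eq_zero] at h5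
      simp only [sdd, sub_add_cancel, zero_add] at h4
      simp only [e1, e2, h5]
      exact h4

end lim

theorem tendsto_heat {A : Type*} [Ring A] [Algebra ℂ A] {β Ω : Type*} {F : Filter Ω}
    {τ : A →ₗ[ℂ] ℂ} {X S : β → A} {D : Ω → ℕ}
    {x g : ∀ ω, β → Matrix (Fin (D ω)) (Fin (D ω)) ℂ} (c : ℂ)
    (h : ∀ w : List (β ⊕ β),
      Tendsto (fun ω => ntr _ (ev (Sum.elim (x ω) (g ω)) w)) F (𝓝 (τ (ev (Sum.elim X S) w))))
    (w : List β) : ∀ u : List (β ⊕ β),
      Tendsto (fun ω => ntr _ (ev (Sum.elim (x ω) (g ω)) u * ev (fun i => x ω i + c • g ω i) w)) F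
        (𝓝 (τ (ev (Sum.elim X S) u * ev (fun i => X i + c • S i) w))) := by
  induction w with
  | nil => intro u; simpa using h u
  | cons i w ih =>
    intro u
    have h1 := (ih (u ++ [Sum.inl i])).add ((ih (u ++ [Sum.inr i])).const_smul c)
    simp only [ev_append, ev_cons, ev_nil, mul_one, Sum.elim_inl, Sum.elim_inr] at h1
    simp only [ev_cons, add_mul, mul_add, smul_mul_assoc, mul_smul_comm, map_add, map_smul]
    simpa only [mul_assoc] using h1

theorem exists_coords {d : ℕ} (M : Matrix (Fin d) (Fin d) ℂ) (hM : M.IsHermitian) :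
    ∃ z : Fin d × Fin d → ℝ, hermitianOfCoords (WithLp.toLp 2 z) = M := by
  refine ⟨fun p => if p.1 = p.2 then (M p.1 p.1).re else if p.1 < p.2 then
    Real.sqrt 2 * (M p.1 p.2).re else Real.sqrt 2 * (M p.2 p.1).im, ?_⟩
  ext i j
  have h2 : (Real.sqrt 2 : ℂ) ≠ 0 := by simp
  have hc := hM.apply i j
  unfold hermitianOfCoords
  rcases lt_trichotomy i j with h | h | h
  · simp only [h, h.ne, h.ne', h.not_gt, if_true, if_false]
    rw [div_eq_iff h2]
    conv_rhs => rw [← Complex.re_add_im (M i j)]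
    push_cast; ring
  · subst h
    simp only [if_true]
    have := congrArg Complex.im hc
    apply Complex.ext <;> simp at this ⊢
    linarith
  · simp only [h, h.ne, h.ne', h.not_gt, if_true, if_false]
    rw [div_eq_iff h2, ← hc]
    apply Complex.ext <;> simp <;> ring

theorem herm_lin {d : ℕ} (y z : Fin d × Fin d → ℝ) (s : ℝ) :
    hermitianOfCoords (WithLp.toLp 2 fun p => y p + s * z p) =
      hermitianOfCoords (WithLp.toLp 2 y) + (s : ℂ) • hermitianOfCoords (WithLp.toLp 2 z) := by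
  simp only [Hm.herm_eq, Finset.smul_sum, ← Finset.sum_add_distrib, smul_smul, ← add_smul]
  push_cast
  rfl

theorem wordEval_eq {A : Type*} [Ring A] [Algebra ℂ A] {n : ℕ} (X : Fin n → A)
    (w : FreeMonoid (Fin n)) : wordEval X w = ev X (FreeMonoid.toList w) :=
  FreeMonoid.lift_apply X w

end LOa

open LOa Hd in
theorem lo (h : RMStmt) : LOStmt := by
  intro A _ _ τ n X S t ρ x hn hτ ht hS hxh hxρ hx
  have : Nonempty (Fin n) := ⟨⟨0, hn⟩⟩
  obtain ⟨R₀, hR⟩ := h (Fin n) (Fin n)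
  set R : ℝ := |ρ| + Real.sqrt t * |R₀| + 1 with hRdef
  have hR0 : 0 < R := by positivity
  refine lt_of_lt_of_le (EReal.bot_lt_coe ((n : ℝ) / 2 * Real.log t)) ?_
  refine le_trans ?_ (le_iSup₂_of_le (f := fun (R : ℝ) (_ : 0 < R) =>
    chiCutoff τ (heatTuple X S t) R) R hR0 le_rfl)
  refine le_iInf fun m => le_iInf fun ε => le_iInf fun hε => ?_
  -- the space of all matrix models
  let Ω := Σ d : ℕ, EuclideanSpace ℝ (Fin n × (Fin d × Fin d))
  let s : ℕ → Set Ω := fun k => {ω | (∀ w : List (Fin n), w.length ≤ k →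
      ‖ntr _ (ev (x ω.1) w) - τ (ev X w)‖ ≤ 1 / (k + 1 : ℝ)) ∧
    ∀ j (w : List (Fin n ⊕ Fin n)), w.length ≤ k →
      ‖sdd (ntr _) (x ω.1) (gue ω.2) j w‖ ≤ 1 / (k + 1 : ℝ)}
  have hanti : Antitone s := by
    intro k l hkl ω hω
    have : 1 / (l + 1 : ℝ) ≤ 1 / (k + 1 : ℝ) := Nat.one_div_le_one_div hkl
    exact ⟨fun w hw => (hω.1 w (hw.trans hkl)).trans this,
      fun j w hw => (hω.2 j w (hw.trans hkl)).trans this⟩
  have hb : (⨅ k, 𝓟 (s k)).HasBasis (fun _ => True) s :=
    hasBasis_iInf_principal (hanti.directed_ge)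
  have key : ∀ (f : Ω → ℂ) (z : ℂ) (r : ℕ), (∀ k, r ≤ k → ∀ ω ∈ s k, ‖f ω - z‖ ≤ 1 / (k + 1 : ℝ)) →
      Tendsto f (⨅ k, 𝓟 (s k)) (𝓝 z) := by
    intro f z r hf
    rw [Metric.tendsto_nhds]
    intro δ hδ
    obtain ⟨k, hk⟩ := exists_nat_one_div_lt hδ
    refine hb.eventually_iff.2 ⟨max r k, trivial, fun ω hω => ?_⟩
    rw [dist_eq_norm]
    exact (hf _ (le_max_left _ _) ω hω).trans_lt
      ((Nat.one_div_le_one_div (le_max_right _ _)).trans_lt hk)
  have hmom := tendsto_mom (F := ⨅ k, 𝓟 (s k)) (D := fun ω : Ω => ω.1) (x := fun ω => x ω.1)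
    (g := fun ω => gue ω.2) hτ (sd_of_sdl τ X S hS)
    (fun w => key _ _ w.length fun k hk ω hω => hω.1 w hk)
    (fun j w => key _ _ w.length fun k hk ω hω => by simpa using hω.2 j w hk)
  have hheat := fun w => tendsto_heat (Real.sqrt t : ℂ) hmom w []
  simp only [ev_nil, one_mul] at hheat
  have hev : ∀ᶠ ω in ⨅ k, 𝓟 (s k), ∀ w ∈ {w : List (Fin n) | w.length ≤ m},
      ‖ntr _ (ev (fun i => x ω.1 i + (Real.sqrt t : ℂ) • gue ω.2 i) w) -
        τ (ev (heatTuple X S t) w)‖ < ε := by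
    rw [eventually_all_finite (List.finite_length_le _ m)]
    intro w _
    have := Metric.tendsto_nhds.1 (hheat w) ε hε
    simp only [dist_eq_norm] at this
    exact this
  obtain ⟨k, -, hk⟩ := hb.eventually_iff.1 hev
  have hk0 : (0 : ℝ) < 1 / (k + 1 : ℝ) := by positivity
  have e1 : ∀ᶠ d : ℕ in (hyperfilter ℕ : Filter ℕ), ∀ w ∈ {w : List (Fin n) | w.length ≤ k},
      ‖ntr _ (ev (x d) w) - τ (ev X w)‖ ≤ 1 / (k + 1 : ℝ) := by
    rw [eventually_all_finite (List.finite_length_le _ k)]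
    intro w _
    filter_upwards [Metric.tendsto_nhds.1 (hx w) _ hk0] with d hd
    rw [dist_eq_norm] at hd
    exact hd.le
  have e2 := Nat.hyperfilter_le_atTop ((hR ρ _ k hk0).and (eventually_gt_atTop 0))
  refine le_limsup_of_frequently_le' ?_
  refine Frequently.filter_mono ?_ Nat.hyperfilter_le_atTop
  refine Eventually.frequently ?_
  filter_upwards [e1, e2] with d hd1 hd2
  obtain ⟨hd2, hd⟩ := hd2
  have hvol := hd2 (x d) (hxρ d)
  set G := {a : EuclideanSpace ℝ (Fin n × (Fin d × Fin d)) | (∀ j, opn (gue a j) ≤ R₀) ∧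
    ∀ j (w : List (Fin n ⊕ Fin n)), w.length ≤ k →
      ‖sdd (ntr d) (x d) (gue a) j w‖ ≤ 1 / (k + 1 : ℝ)} with hG
  choose z hz using fun l => exists_coords (x d l) (hxh d l)
  let c : EuclideanSpace ℝ (Fin n × (Fin d × Fin d)) := WithLp.toLp 2 fun q => z q.1 q.2
  have hd' : (0 : ℝ) < d := by exact_mod_cast hd
  set r : ℝ := Real.sqrt t * (Real.sqrt d)⁻¹ with hr
  have hr0 : 0 < r := by positivity
  have hmt : ∀ a : EuclideanSpace ℝ (Fin n × (Fin d × Fin d)), matrixTuple (c + r • a) =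
      fun i => x d i + (Real.sqrt t : ℂ) • gue a i := fun a => by
    funext i
    rw [← hz i, gue, smul_smul, ← Complex.ofReal_inv, ← Complex.ofReal_mul, ← hr, ← herm_lin]
    rfl
  have hsub : c +ᵥ r • G ⊆ microstates τ (heatTuple X S t) R m d ε := by
    rintro _ ⟨_, ⟨a, ha, rfl⟩, rfl⟩
    change c + r • a ∈ _
    refine ⟨fun l => ?_, fun w hw => ?_⟩
    · rw [hmt, map_add, map_smul]
      refine (norm_add_le _ _).trans ?_
      rw [norm_smul, Complex.norm_real, Real.norm_of_nonneg (Real.sqrt_nonneg t)]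
      have h1 : opn (x d l) ≤ |ρ| := (hxρ d l).trans (le_abs_self _)
      have h2 : opn (gue a l) ≤ |R₀| := (ha.1 l).trans (le_abs_self _)
      have h3 := mul_le_mul_of_nonneg_left h2 (Real.sqrt_nonneg t)
      unfold opn at h1 h3
      linarith
    · have := hk (x := ⟨d, a⟩) ⟨hd1, ha.2⟩ _ hw
      rw [matrixMoment, wordEval_eq, wordEval_eq, hmt]
      exact this
  have hv : ENNReal.ofReal (r ^ (n * (d * d))) ≤
      volume (microstates τ (heatTuple X S t) R m d ε) := by
    refine le_trans ?_ (measure_mono hsub)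
    rw [measure_vadd, Measure.addHaar_smul_of_nonneg _ hr0.le]
    simp only [finrank_euclideanSpace, Fintype.card_prod, Fintype.card_fin]
    exact le_mul_of_one_le_right' hvol
  have hlog := ENNReal.log_le_log hv
  rw [ENNReal.log_ofReal_of_pos (by positivity)] at hlog
  have hfin : (n : ℝ) / 2 * Real.log t =
      ((d : ℝ) ^ 2)⁻¹ * Real.log (r ^ (n * (d * d))) + (n : ℝ) / 2 * Real.log d := by
    rw [Real.log_pow, hr, Real.log_mul (by positivity) (by positivity), Real.log_inv,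
      Real.log_sqrt ht.le, Real.log_sqrt hd'.le]
    push_cast
    field_simp
    ring
  rw [hfin, EReal.coe_add, EReal.coe_mul]
  gcongr

end Crest.Agent.FE
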