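import Crest.Agent.FE.LO
import Crest.Agent.FE.G1

/-! Construction of the limit model. -/

set_option autoImplicit false
open Finset Crest.OpAlg Filter Topology MeasureTheory
open scoped Matrix.Norms.L2Operator

namespace Crest.Agent.FE.As
open Hd

/-- diagonal projections -/
noncomputable def Pm (k d : ℕ) (j : Fin k) : Matrix (Fin d) (Fin d) ℂ :=
  Matrix.diagonal fun a => if a.val % k = j then 1 else 0

lemma Pm_herm (k d : ℕ) (j : Fin k) : (Pm k d j).IsHermitian := by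
  refine Matrix.isHermitian_diagonal_iff.mpr fun a => ?_
  split_ifs <;> simp

lemma Pm_mul (k d : ℕ) (j l : Fin k) : Pm k d j * Pm k d l = if j = l then Pm k d j else 0 := by
  rw [Pm, Pm, Matrix.diagonal_mul_diagonal]
  split_ifs with h
  · subst h; congr 1; funext a; split_ifs <;> simp
  · rw [← Matrix.diagonal_zero]; congr 1; funext a
    split_ifs with h1 h2
    · exact absurd (Fin.ext (h1.symm.trans h2)) h
    all_goals simp

lemma Pm_sum {k : ℕ} (hk : 0 < k) (d : ℕ) : ∑ j, Pm k d j = 1 := by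
  ext a b
  simp only [Pm, Matrix.sum_apply, Matrix.diagonal_apply, Matrix.one_apply]
  split_ifs with h
  · rw [sum_eq_single ⟨a % k, Nat.mod_lt _ hk⟩ (fun j _ hj => if_neg fun e => hj (Fin.ext e.symm))
      (by simp)]
    simp
  · simp

lemma Pm_opn (k d : ℕ) (j : Fin k) : opn (Pm k d j) ≤ 1 := by
  rw [Hm.opn_eq, Pm, Matrix.l2_opNorm_diagonal]
  refine (pi_norm_le_iff_of_nonneg zero_le_one).mpr fun a => ?_
  split_ifs <;> simp

lemma Pm_tr {k : ℕ} (hk : 0 < k) (j : Fin k) :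
    Tendsto (fun d => ntr d (Pm k d j)) atTop (𝓝 (1 / k)) := by
  have h1 : ∀ d, 0 < d → ‖ntr d (Pm k d j) - 1 / k‖ ≤ 1 / d := by
    intro d hd
    have hc : (Pm k d j).trace = (Nat.count (fun a => a ≡ j [MOD k]) d : ℕ) := by
      rw [Pm, Matrix.trace_diagonal, Nat.count_eq_card_filter_range, card_filter,
        Fin.sum_univ_eq_sum_range (fun a => if a % k = j then (1 : ℂ) else 0)]
      push_cast
      refine sum_congr rfl fun a _ => ?_
      simp [Nat.ModEq, Nat.mod_eq_of_lt j.2]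
    have hd' : (0 : ℝ) < d := by exact_mod_cast hd
    have hk' : (0 : ℝ) < k := by exact_mod_cast hk
    set n := Nat.count (fun a => a ≡ j [MOD k]) d with hn
    have h2 : |(n : ℝ) - d / k| ≤ 1 := by
      have e1 : (d : ℝ) = k * (d / k : ℕ) + (d % k : ℕ) := by exact_mod_cast (Nat.div_add_mod d k).symm
      have e2 : ((d % k : ℕ) : ℝ) < k := by exact_mod_cast Nat.mod_lt d hk
      have e3 : (0 : ℝ) ≤ (d % k : ℕ) := by positivity
      have e4 : (d : ℝ) / k = (d / k : ℕ) + (d % k : ℕ) / k := by field_simp; linarith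
      have e5 : ((d % k : ℕ) : ℝ) / k ≤ 1 := by rw [div_le_one hk']; exact e2.le
      have e6 : 0 ≤ ((d % k : ℕ) : ℝ) / k := by positivity
      rw [hn, Nat.count_modEq_card _ hk, e4, abs_le]
      split_ifs <;> push_cast <;> constructor <;> linarith
    rw [Hm.ntr_apply, hc]
    have : (d : ℂ)⁻¹ * (n : ℂ) - 1 / k = ((((n : ℝ) - d / k) / d : ℝ) : ℂ) := by
      have : (d : ℂ) ≠ 0 := by exact_mod_cast hd.ne'
      push_cast; field_simp
    rw [this, Complex.norm_real, Real.norm_eq_abs, abs_div, abs_of_pos hd']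
    gcongr
  rw [tendsto_iff_norm_sub_tendsto_zero]
  refine squeeze_zero' (Eventually.of_forall fun _ => norm_nonneg _)
    ((eventually_gt_atTop 0).mono h1) tendsto_one_div_atTop_nhds_zero_nat

lemma diag {Ω : ℕ → Type} (Q : (m d : ℕ) → Ω d → Prop) (o : ∀ d, Ω d) (R : ∀ d, Ω d → Prop)
    (ho : ∀ d, R d (o d)) (hQ : ∀ m, ∀ᶠ d in atTop, ∃ a, R d a ∧ Q m d a)
    (hm : ∀ m m' d a, m ≤ m' → Q m' d a → Q m d a) :
    ∃ a : ∀ d, Ω d, (∀ d, R d (a d)) ∧ ∀ m, ∀ᶠ d in atTop, Q m d (a d) := by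
  classical
  have : ∀ d, ∃ a, R d a ∧ ∀ m ≤ d, (∃ a, R d a ∧ Q m d a) → Q m d a := by
    intro d
    by_cases h : ∃ a, R d a ∧ Q (Nat.findGreatest (fun m => ∃ a, R d a ∧ Q m d a) d) d a
    · obtain ⟨a, ha, hq⟩ := h
      exact ⟨a, ha, fun m hmd h' => hm _ _ _ _ (Nat.le_findGreatest hmd h') hq⟩
    · exact ⟨o d, ho d, fun m hmd h' => absurd (Nat.findGreatest_spec
        (P := fun m => ∃ a, R d a ∧ Q m d a) hmd h') h⟩
  choose a ha hq using this
  refine ⟨a, ha, fun m => ?_⟩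
  filter_upwards [hQ m, eventually_ge_atTop m] with d h1 h2 using hq d m h2 h1

lemma lift_ev {Λ Λ' A : Type*} [Ring A] [Algebra ℂ A] (a : Λ → A) (φ : Λ' → FreeAlgebra ℂ Λ)
    (w : List Λ') : FreeAlgebra.lift ℂ a (ev φ w) = ev (fun l => FreeAlgebra.lift ℂ a (φ l)) w := by
  induction w with
  | nil => simp
  | cons i w ih => simp [ev_cons, ih]

lemma lift_star {Λ A : Type*} [Ring A] [Algebra ℂ A] [StarRing A] [StarModule ℂ A] (a : Λ → A)
    (ha : ∀ l, IsSelfAdjoint (a l)) (P : FreeAlgebra ℂ Λ) :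
    ∃ P', FreeAlgebra.lift ℂ a P' = star (FreeAlgebra.lift ℂ a P) := by
  induction P using FreeAlgebra.induction with
  | grade0 r => exact ⟨algebraMap ℂ _ (star r), by simp [Algebra.algebraMap_eq_smul_one]⟩
  | grade1 l => exact ⟨FreeAlgebra.ι ℂ l, by simp [(ha l).star_eq]⟩
  | mul P Q hP hQ =>
    obtain ⟨P', hP⟩ := hP; obtain ⟨Q', hQ⟩ := hQ
    exact ⟨Q' * P', by simp [hP, hQ]⟩
  | add P Q hP hQ =>
    obtain ⟨P', hP⟩ := hP; obtain ⟨Q', hQ⟩ := hQ
    exact ⟨P' + Q', by simp [hP, hQ]⟩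

lemma lift_bdd {Λ : Type*} (M : (d : ℕ) → Λ → Matrix (Fin d) (Fin d) ℂ)
    (hM : ∀ l, ∃ ρ : ℝ, ∀ d, opn (M d l) ≤ ρ) (P : FreeAlgebra ℂ Λ) :
    ∃ ρ : ℝ, ∀ d, opn (FreeAlgebra.lift ℂ (M d) P) ≤ ρ := by
  simp only [Hm.opn_eq] at hM ⊢
  induction P using FreeAlgebra.induction with
  | grade0 r =>
    refine ⟨‖r‖, fun d => ?_⟩
    rw [AlgHom.commutes, Algebra.algebraMap_eq_smul_one, norm_smul]
    refine mul_le_of_le_one_right (norm_nonneg _) ?_
    rcases subsingleton_or_nontrivial (Matrix (Fin d) (Fin d) ℂ) with h | h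
    · simp [Subsingleton.elim (1 : Matrix (Fin d) (Fin d) ℂ) 0]
    · exact CStarRing.norm_one.le
  | grade1 l => simpa using hM l
  | mul P Q hP hQ =>
    obtain ⟨a, hP⟩ := hP; obtain ⟨b, hQ⟩ := hQ
    refine ⟨a * b, fun d => ?_⟩
    rw [map_mul]
    exact (norm_mul_le _ _).trans (mul_le_mul (hP d) (hQ d) (norm_nonneg _)
      ((norm_nonneg _).trans (hP d)))
  | add P Q hP hQ =>
    obtain ⟨a, hP⟩ := hP; obtain ⟨b, hQ⟩ := hQ
    refine ⟨a + b, fun d => ?_⟩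
    rw [map_add]
    exact (norm_add_le _ _).trans (add_le_add (hP d) (hQ d))

lemma gue_herm {κ : Type} {d : ℕ} (a : EuclideanSpace ℝ (κ × (Fin d × Fin d))) (l : κ) :
    (gue a l).IsHermitian := by
  simp only [gue, Hm.herm_eq, Matrix.IsHermitian, Matrix.conjTranspose_smul,
    Matrix.conjTranspose_sum, Hm.E_herm]
  simp

lemma sdl_mono {A : Type*} [Ring A] [Algebra ℂ A] {τ : A →ₗ[ℂ] ℂ} {κ : Type*} [Fintype κ]
    {B B' : Subalgebra ℂ A} {g : κ → A} (h : SDL τ B g) (hle : B' ≤ B) : SDL τ B' g :=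
  fun j L hL => h j L fun e he => hle (hL e he)

/-- free semicirculars over `k` equal orthogonal projections, with matrix models -/
lemma premodel (hRM : RMStmt) (hUL : ULStmt) (κ : Type) [Fintype κ] [DecidableEq κ] [Nonempty κ]
    {k : ℕ} (hk : 0 < k) :
    ∃ (A : Type) (_ : CStarAlgebra A) (τ : A →ₗ[ℂ] ℂ) (p : Fin k → A) (g : κ → A)
      (G : (d : ℕ) → κ → Matrix (Fin d) (Fin d) ℂ), IsFaithfulTracialState τ ∧
      (∀ j, IsSelfAdjoint (p j)) ∧ (∀ j, IsSelfAdjoint (g j)) ∧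
      (∀ j l, p j * p l = if j = l then p j else 0) ∧ ∑ j, p j = 1 ∧ (∀ j, τ (p j) = 1 / k) ∧
      SD τ p g ∧ (∀ d l, (G d l).IsHermitian) ∧ (∃ ρ, ∀ d l, opn (G d l) ≤ ρ) ∧
      ∀ P : FreeAlgebra ℂ (Fin k ⊕ κ),
        Tendsto (fun d => ntr d (FreeAlgebra.lift ℂ (Sum.elim (Pm k d) (G d)) P))
          (hyperfilter ℕ : Filter ℕ) (𝓝 (τ (FreeAlgebra.lift ℂ (Sum.elim p g) P))) := by
  obtain ⟨R₀, hR⟩ := hRM (Fin k) κ
  obtain ⟨a, ha, hq⟩ := diag (Ω := fun d => EuclideanSpace ℝ (κ × (Fin d × Fin d)))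
    (fun m d a => ∀ j (w : List (Fin k ⊕ κ)), w.length ≤ m →
      ‖sdd (ntr d) (Pm k d) (gue a) j w‖ ≤ 1 / (m + 1 : ℝ)) (fun _ => 0)
    (fun d a => ∀ j, opn (gue a j) ≤ |R₀|)
    (fun d j => by simp [gue, Hm.herm_eq, Hm.opn_eq])
    (fun m => by
      filter_upwards [hR 1 (1 / (m + 1 : ℝ)) m (by positivity)] with d hd
      obtain ⟨a, h1, h2⟩ := nonempty_of_measure_ne_zero
        (one_pos.trans_le (hd (Pm k d) (Pm_opn k d))).ne'
      exact ⟨a, fun j => (h1 j).trans (le_abs_self _), h2⟩)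
    (fun m m' d a hm h j w hw => (h j w (hw.trans hm)).trans (Nat.one_div_le_one_div hm))
  obtain ⟨A, inst, τ, x, hτ, hsa, hlim⟩ := hUL (Fin k ⊕ κ)
    (fun d => Sum.elim (Pm k d) (gue (a d)))
    (fun d l => by rcases l with l | l; exacts [Pm_herm k d l, gue_herm _ l])
    (fun l => by rcases l with l | l; exacts [⟨1, fun d => Pm_opn k d l⟩, ⟨_, fun d => ha d l⟩])
  have hzero : ∀ P : FreeAlgebra ℂ (Fin k ⊕ κ),
      (∀ d, FreeAlgebra.lift ℂ (Sum.elim (Pm k d) (gue (a d))) P = 0) →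
      FreeAlgebra.lift ℂ x P = 0 := by
    intro P hP
    obtain ⟨P', hP'⟩ := lift_star x hsa P
    have := hlim (P' * P)
    simp only [map_mul, hP, mul_zero, map_zero, hP'] at this
    exact hτ.2.2.1 _ (tendsto_nhds_unique this tendsto_const_nhds)
  have hx : Sum.elim (x ∘ Sum.inl) (x ∘ Sum.inr) = x := Sum.elim_comp_inl_inr x
  refine ⟨A, inst, τ, x ∘ Sum.inl, x ∘ Sum.inr, fun d => gue (a d), hτ, fun j => hsa _,
    fun j => hsa _, fun j l => ?_, ?_, fun j => ?_, fun j w => ?_, fun d l => gue_herm _ l,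
    ⟨_, ha⟩, by rw [hx]; exact hlim⟩
  · have := hzero (FreeAlgebra.ι ℂ (Sum.inl j) * FreeAlgebra.ι ℂ (Sum.inl l) -
      if j = l then FreeAlgebra.ι ℂ (Sum.inl j) else 0) fun d => by
        split_ifs with h <;> simp [Pm_mul, h]
    split_ifs at this ⊢ <;> simpa [sub_eq_zero] using this
  · have := hzero (∑ j, FreeAlgebra.ι ℂ (Sum.inl j) - 1) fun d => by simp [Pm_sum hk]
    simpa [sub_eq_zero] using this
  · have := hlim (FreeAlgebra.ι ℂ (Sum.inl j))
    simp only [FreeAlgebra.lift_ι_apply, Sum.elim_inl] at this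
    exact tendsto_nhds_unique this ((Pm_tr hk j).mono_left Nat.hyperfilter_le_atTop)
  · have hev : ∀ w, Tendsto (fun d => ntr d (ev (Sum.elim (Pm k d) (gue (a d))) w))
        (hyperfilter ℕ : Filter ℕ) (𝓝 (τ (ev x w))) := fun w => by
      simpa only [lift_ev, FreeAlgebra.lift_ι_apply] using hlim (ev (FreeAlgebra.ι ℂ) w)
    have h1 : Tendsto (fun d => sdd (ntr d) (Pm k d) (gue (a d)) j w) (hyperfilter ℕ : Filter ℕ)
        (𝓝 (sdd τ (x ∘ Sum.inl) (x ∘ Sum.inr) j w)) := by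
      simp only [sdd, hx]
      refine Tendsto.sub (by simpa only [ev_cons, Sum.elim_inr, Function.comp_apply] using hev (Sum.inr j :: w)) ?_
      exact LOa.tendsto_spl w _ _ fun u i v _ => ((hev u).mul (hev v)).const_mul _
    refine tendsto_nhds_unique h1 (Tendsto.mono_left ?_ Nat.hyperfilter_le_atTop)
    rw [Metric.tendsto_nhds]
    intro δ hδ
    obtain ⟨m, hm⟩ := exists_nat_one_div_lt hδ
    filter_upwards [hq (max w.length m)] with d hd
    rw [dist_zero_right]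
    exact (hd j w (le_max_left _ _)).trans_lt
      ((Nat.one_div_le_one_div (le_max_right _ _)).trans_lt hm)


/-- the limit model with two free noises and matrix models of the signal -/
lemma model (hRM : RMStmt) (hUL : ULStmt) (h1 : W1Stmt) (h3 : W3Stmt) (h4 : W4Stmt) (N : ℕ)
    {k : ℕ} (hk : 0 < k) (L : ℝ) :
    ∃ (A : Type) (_ : CStarAlgebra A) (τ : A →ₗ[ℂ] ℂ) (p : Fin k → A) (y : Fin N → A)
      (S' S : Fin (N + 1) → A) (ρ : ℝ) (x : (d : ℕ) → Fin (N + 1) → Matrix (Fin d) (Fin d) ℂ),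
      Setup τ p y S' ∧ SDL τ (Algebra.adjoin ℂ (Set.range p ∪ Set.range y)) (Sum.elim S' S) ∧
      (∀ i, IsSelfAdjoint (S i)) ∧ (∀ d l, (x d l).IsHermitian) ∧ (∀ d l, opn (x d l) ≤ ρ) ∧
      ∀ w : List (Fin (N + 1)), Tendsto (fun d => ntr d (ev (x d) w)) (hyperfilter ℕ : Filter ℕ)
        (𝓝 (τ (ev (sig p y L) w))) := by
  obtain ⟨A, inst, τ, p, g, G, hτ, hp, hg, hpm, hps, hpt, hsd, hGh, ⟨ρ₀, hGρ⟩, hlim⟩ :=
    premodel hRM hUL (Fin N ⊕ (Fin (N + 1) ⊕ Fin (N + 1))) hk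
  have hT : Tr τ := ⟨hτ.1, hτ.2.2.2⟩
  obtain ⟨ha, hb, -, -⟩ := h1 A τ
  have hsdl := ha _ _ p g hsd
  rw [← Sum.elim_comp_inl_inr g] at hsdl
  obtain ⟨hS, hG⟩ := hb _ _ _ _ _ hsdl
  obtain ⟨hy, hind⟩ := h4 A τ N k p _ hT hk hpm hps hpt hG
  set y : Fin N → A := fun i => ((√k : ℝ) : ℂ) • ∑ j, p j * (g ∘ Sum.inl) i * p j with hydef
  have hysa : ∀ i, IsSelfAdjoint (y i) := fun i => by
    simp only [IsSelfAdjoint, hydef, star_smul, star_sum, star_mul, (hp _).star_eq,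
      Function.comp_apply, (hg _).star_eq, RCLike.star_def, Complex.conj_ofReal, mul_assoc]
  have hle : Algebra.adjoin ℂ (Set.range p ∪ Set.range y) ≤
      Algebra.adjoin ℂ (Set.range p) ⊔ Algebra.adjoin ℂ (Set.range (g ∘ Sum.inl)) := by
    have hp' : ∀ j, p j ∈ Algebra.adjoin ℂ (Set.range p) ⊔
        Algebra.adjoin ℂ (Set.range (g ∘ Sum.inl)) := fun j =>
      (le_sup_left : Algebra.adjoin ℂ _ ≤ _) (Algebra.subset_adjoin ⟨j, rfl⟩)
    refine Algebra.adjoin_le ?_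
    rintro _ (⟨j, rfl⟩ | ⟨i, rfl⟩)
    · exact hp' j
    · exact Subalgebra.smul_mem _ (sum_mem fun j _ => mul_mem (mul_mem (hp' j)
        ((le_sup_right : Algebra.adjoin ℂ _ ≤ _) (Algebra.subset_adjoin ⟨i, rfl⟩))) (hp' j)) _
  have hS' := sdl_mono hS hle
  rw [← Sum.elim_comp_inl_inr (g ∘ Sum.inr)] at hS'
  have hS1 := (hb _ _ _ _ _ hS').2
  obtain ⟨-, -, -, -, hw⟩ := h3 A τ hτ
  let φ : Fin (N + 1) → FreeAlgebra ℂ (Fin k ⊕ (Fin N ⊕ (Fin (N + 1) ⊕ Fin (N + 1)))) :=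
    Fin.cons (∑ j : Fin k, (((j : ℕ) * L : ℝ) : ℂ) • FreeAlgebra.ι ℂ (Sum.inl j)) fun i =>
      ((√k : ℝ) : ℂ) • ∑ j, FreeAlgebra.ι ℂ (Sum.inl j) * FreeAlgebra.ι ℂ (Sum.inr (Sum.inl i)) *
        FreeAlgebra.ι ℂ (Sum.inl j)
  have hb' := fun l => lift_bdd (fun d => Sum.elim (Pm k d) (G d))
    (fun l => by rcases l with l | l; exacts [⟨1, fun d => Pm_opn k d l⟩, ⟨_, fun d => hGρ d l⟩])
    (φ l)
  choose ρ hρ using hb'
  refine ⟨A, inst, τ, p, y, _, _, ∑ l, |ρ l|,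
    fun d l => FreeAlgebra.lift ℂ (Sum.elim (Pm k d) (G d)) (φ l),
    ⟨hτ, hk, hp, hpm, hps, hysa, fun j i => ?_, hy, fun i => (hw _ _ _ hy hysa i).1, hind,
      fun i => hg _, hS1, fun i => (hw _ _ _ hS1 (fun i => hg _) i).1⟩, hS', fun i => hg _,
    fun d l => ?_, fun d l => ?_, fun w => ?_⟩
  · simp only [hydef, mul_smul_comm, smul_mul_assoc, mul_sum, sum_mul, ← mul_assoc, hpm]
    simp only [mul_assoc, hpm, ite_mul, mul_ite, zero_mul, mul_zero, sum_ite_eq, sum_ite_eq',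
      mem_univ, if_true]
  · refine Fin.cases ?_ (fun i => ?_) l
    · simp [φ, Matrix.IsHermitian, Matrix.conjTranspose_sum, (Pm_herm k d _).eq]
    · simp only [φ, Fin.cons_succ, map_smul]
      simp [Matrix.IsHermitian, Matrix.conjTranspose_sum, (Pm_herm k d _).eq, (hGh d _).eq,
        mul_assoc]
  · exact ((hρ l d).trans (le_abs_self _)).trans
      (single_le_sum (f := fun l => |ρ l|) (fun _ _ => abs_nonneg _) (mem_univ l))
  · have : sig p y L = fun l => FreeAlgebra.lift ℂ (Sum.elim p g) (φ l) := by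
      funext l
      refine Fin.cases ?_ (fun i => ?_) l <;>
        simp only [φ, Fin.cons_succ, Fin.cons_zero, map_smul, sig] <;> simp [cen, hydef]
    rw [this]
    simpa only [lift_ev] using hlim (ev φ w)

end Crest.Agent.FE.As
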