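import Crest.Agent.FE.RMn

/-! Piece Net: nets of the unitary group in operator norm. -/

set_option autoImplicit false

namespace Crest.Agent.FE

lemma net_iter (V : Type) [NormedAddCommGroup V] [NormedSpace ℝ V] [FiniteDimensional ℝ V]
    (m : ℕ) : ∃ P : Finset V, P.card ≤ 5 ^ (Module.finrank ℝ V * m) ∧
      ∀ y, ‖y‖ ≤ 1 → ∃ x ∈ P, ‖y - x‖ ≤ 1 / 2 ^ m := by
  classical
  obtain ⟨Q, hQ1, -, hQ3⟩ := Rn.exists_net V
  induction m with
  | zero => exact ⟨{0}, by simp, fun y hy => ⟨0, by simp, by simpa using hy⟩⟩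
  | succ m ih =>
    obtain ⟨P, h1, h2⟩ := ih
    refine ⟨(P ×ˢ Q).image fun q => q.1 + (1 / 2 ^ (m + 1) : ℝ) • q.2, ?_, fun y hy => ?_⟩
    · refine Finset.card_image_le.trans ?_
      rw [Finset.card_product, Nat.mul_succ, pow_add]
      exact Nat.mul_le_mul h1 hQ1
    · obtain ⟨x, hx, hxy⟩ := h2 y hy
      obtain ⟨z, hz, hz'⟩ := hQ3 ((2 ^ (m + 1) : ℝ) • (y - x)) (by
        rw [norm_smul, Real.norm_of_nonneg (by positivity)]
        calc (2 : ℝ) ^ (m + 1) * ‖y - x‖ ≤ 2 ^ (m + 1) * (1 / 2 ^ m) := by gcongr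
          _ = 2 := by field_simp; ring)
      refine ⟨_, Finset.mem_image_of_mem _ (Finset.mk_mem_product hx hz), ?_⟩
      have : y - (x + (1 / 2 ^ (m + 1) : ℝ) • z) =
          (1 / 2 ^ (m + 1) : ℝ) • ((2 ^ (m + 1) : ℝ) • (y - x) - z) := by
        rw [smul_sub, smul_smul, one_div_mul_cancel (by positivity), one_smul]; abel
      rw [this, norm_smul, Real.norm_of_nonneg (by positivity)]
      exact mul_le_of_le_one_right (by positivity) hz'.le

theorem net : NetStmt := by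
  classical
  intro d m
  obtain ⟨P, h1, h2⟩ := net_iter (EuclideanSpace ℂ (Fin d) →L[ℂ] EuclideanSpace ℂ (Fin d)) m
  have hr : Module.finrank ℝ (EuclideanSpace ℂ (Fin d) →L[ℂ] EuclideanSpace ℂ (Fin d)) =
      2 * d ^ 2 := by
    rw [← Module.finrank_mul_finrank ℝ ℂ, Complex.finrank_real_complex,
      ← (LinearMap.toContinuousLinearMap (𝕜 := ℂ) (E := EuclideanSpace ℂ (Fin d))
        (F' := EuclideanSpace ℂ (Fin d))).finrank_eq, Module.finrank_linearMap,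
      finrank_euclideanSpace_fin, sq]
  rw [hr] at h1
  have ex : ∀ x : EuclideanSpace ℂ (Fin d) →L[ℂ] EuclideanSpace ℂ (Fin d),
      ∃ V ∈ Matrix.unitaryGroup (Fin d) ℂ, ∀ U ∈ Matrix.unitaryGroup (Fin d) ℂ,
        ‖Matrix.toEuclideanCLM (n := Fin d) (𝕜 := ℂ) U - x‖ ≤ 1 / 2 ^ m →
        ‖Matrix.toEuclideanCLM (n := Fin d) (𝕜 := ℂ) V - x‖ ≤ 1 / 2 ^ m := by
    intro x
    by_cases h : ∃ U ∈ Matrix.unitaryGroup (Fin d) ℂ,
        ‖Matrix.toEuclideanCLM (n := Fin d) (𝕜 := ℂ) U - x‖ ≤ 1 / 2 ^ m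
    · obtain ⟨U, hU, hU'⟩ := h
      exact ⟨U, hU, fun _ _ _ => hU'⟩
    · exact ⟨1, one_mem _, fun U hU hU' => (h ⟨U, hU, hU'⟩).elim⟩
  choose f hf1 hf2 using ex
  refine ⟨P.image f, Finset.card_image_le.trans h1, fun V hV => ?_, fun U hU => ?_⟩
  · obtain ⟨x, -, rfl⟩ := Finset.mem_image.1 hV
    exact hf1 x
  · have hn : ‖Matrix.toEuclideanCLM (n := Fin d) (𝕜 := ℂ) U‖ ≤ 1 := by
      have h3 := CStarRing.norm_star_mul_self (x := Matrix.toEuclideanCLM (n := Fin d) (𝕜 := ℂ) U)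
      rw [← map_star, ← map_mul, hU.1, map_one] at h3
      have h4 : ‖(1 : EuclideanSpace ℂ (Fin d) →L[ℂ] EuclideanSpace ℂ (Fin d))‖ ≤ 1 :=
        ContinuousLinearMap.norm_id_le
      nlinarith [norm_nonneg (Matrix.toEuclideanCLM (n := Fin d) (𝕜 := ℂ) U)]
    obtain ⟨x, hx, hx'⟩ := h2 _ hn
    refine ⟨f x, Finset.mem_image_of_mem _ hx, ?_⟩
    have h5 := hf2 x U hU hx'
    rw [opn, map_sub]
    have := norm_sub_le_norm_sub_add_norm_sub (Matrix.toEuclideanCLM (n := Fin d) (𝕜 := ℂ) U) x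
      (Matrix.toEuclideanCLM (n := Fin d) (𝕜 := ℂ) (f x))
    rw [norm_sub_rev x] at this
    have e : (2 : ℝ) / 2 ^ m = 1 / 2 ^ m + 1 / 2 ^ m := by ring
    linarith

end Crest.Agent.FE
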