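import Crest.Agent.FE.HA

/-! Formal adjoint of non-commutative polynomials; the 2-seminorm. -/

set_option autoImplicit false
open Finset Crest.OpAlg

namespace Crest.Agent.FE.Po
open Hd

variable {n : ℕ}

lemma polyStar_single (w : FreeMonoid (Fin n)) (c : ℂ) :
    polyStar (MonoidAlgebra.single w c) =
      MonoidAlgebra.single (FreeMonoid.ofList (FreeMonoid.toList w).reverse) (starRingEnd ℂ c) := by
  simp [polyStar, Finsupp.sum_single_index]

@[simp] lemma polyStar_zero : polyStar (0 : NCPoly n) = 0 := by simp [polyStar]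

lemma polyStar_add (P Q : NCPoly n) : polyStar (P + Q) = polyStar P + polyStar Q := by
  unfold polyStar
  rw [MonoidAlgebra.coeff_add, Finsupp.sum_add_index'] <;> simp [MonoidAlgebra.single_add]

lemma polyStar_smul (c : ℂ) (P : NCPoly n) :
    polyStar (c • P) = starRingEnd ℂ c • polyStar P := by
  induction P using MonoidAlgebra.induction_linear with
  | zero => simp
  | add P Q hP hQ => simp only [smul_add, polyStar_add, hP, hQ]
  | single w a => simp [polyStar_single]

lemma polyStar_neg (P : NCPoly n) : polyStar (-P) = -polyStar P := by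
  simpa using polyStar_smul (-1) P

lemma polyStar_sub (P Q : NCPoly n) : polyStar (P - Q) = polyStar P - polyStar Q := by
  rw [sub_eq_add_neg, polyStar_add, polyStar_neg, sub_eq_add_neg]

lemma polyStar_sum {ι : Type*} (s : Finset ι) (P : ι → NCPoly n) :
    polyStar (∑ i ∈ s, P i) = ∑ i ∈ s, polyStar (P i) := by
  classical
  induction s using Finset.induction_on with
  | empty => simp
  | insert a s ha ih => rw [sum_insert ha, sum_insert ha, polyStar_add, ih]

lemma polyStar_mul (P Q : NCPoly n) : polyStar (P * Q) = polyStar Q * polyStar P := by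
  induction P using MonoidAlgebra.induction_linear with
  | zero => simp
  | add P P' hP hP' => simp only [add_mul, mul_add, polyStar_add, hP, hP']
  | single w a =>
    induction Q using MonoidAlgebra.induction_linear with
    | zero => simp
    | add Q Q' hQ hQ' => simp only [add_mul, mul_add, polyStar_add, hQ, hQ']
    | single v b =>
      simp [polyStar_single, MonoidAlgebra.single_mul_single, mul_comm]

/-- the letter `i` -/
noncomputable def XX (i : Fin n) : NCPoly n := MonoidAlgebra.single (FreeMonoid.of i) 1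

lemma polyStar_XX (i : Fin n) : polyStar (XX i) = XX i := by
  simp [XX, polyStar_single]

/-- evaluation as an algebra homomorphism -/
noncomputable def pe {A : Type*} [Ring A] [Algebra ℂ A] (Z : Fin n → A) : NCPoly n →ₐ[ℂ] A :=
  MonoidAlgebra.lift ℂ A (FreeMonoid (Fin n)) (FreeMonoid.lift Z)

lemma polyEval_pe {A : Type*} [Ring A] [Algebra ℂ A] (Z : Fin n → A) (P : NCPoly n) :
    polyEval Z P = pe Z P := rfl

lemma pe_single {A : Type*} [Ring A] [Algebra ℂ A] (Z : Fin n → A) (w : FreeMonoid (Fin n))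
    (c : ℂ) : pe Z (MonoidAlgebra.single w c) = c • ev Z (FreeMonoid.toList w) := by
  rw [pe, MonoidAlgebra.lift_single, FreeMonoid.lift_apply]; rfl

@[simp] lemma pe_XX {A : Type*} [Ring A] [Algebra ℂ A] (Z : Fin n → A) (i : Fin n) :
    pe Z (XX i) = Z i := by simp [XX, pe_single, ev]

lemma star_ev' {A Λ : Type*} [Monoid A] [StarMul A] (Z : Λ → A) (hZ : ∀ i, star (Z i) = Z i)
    (w : List Λ) : star (ev Z w) = ev Z w.reverse := by
  induction w with
  | nil => simp
  | cons i w ih => rw [ev_cons, star_mul, ih, List.reverse_cons, ev_append, ev_cons, hZ]; simp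

lemma star_pe {A : Type*} [Ring A] [Algebra ℂ A] [StarRing A] [StarModule ℂ A] (Z : Fin n → A)
    (hZ : ∀ i, star (Z i) = Z i) (P : NCPoly n) : star (pe Z P) = pe Z (polyStar P) := by
  induction P using MonoidAlgebra.induction_linear with
  | zero => simp
  | add P Q hP hQ => simp only [map_add, star_add, polyStar_add, hP, hQ]
  | single w a => rw [polyStar_single, pe_single, pe_single, star_smul, star_ev' Z hZ]; rfl

section nn
variable {A : Type} [CStarAlgebra A] {τ : A →ₗ[ℂ] ℂ}

lemma n2_nonneg (h : IsFaithfulTracialState τ) (a : A) : 0 ≤ n2 τ a := (h.2.1 a).2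

lemma n2_smul (c : ℂ) (a : A) : n2 τ (c • a) = ‖c‖ ^ 2 * n2 τ a := by
  simp only [n2, star_smul, smul_mul_assoc, mul_smul_comm, map_smul, smul_eq_mul, ← mul_assoc,
    RCLike.star_def, Complex.mul_conj']
  rw [← Complex.ofReal_pow, Complex.re_ofReal_mul]

lemma n2_star (h : IsFaithfulTracialState τ) (a : A) : n2 τ (star a) = n2 τ a := by
  rw [n2, star_star, h.2.2.2]; rfl

lemma n2_add (h3 : W3Stmt) (h : IsFaithfulTracialState τ) (a b : A) :
    n2 τ (a + b) = n2 τ a + n2 τ b + 2 * (τ (star a * b)).re := by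
  obtain ⟨-, hst, -⟩ := h3 A τ h
  have := hst (star a * b)
  rw [star_mul, star_star] at this
  simp only [n2, star_add, add_mul, mul_add, map_add, Complex.add_re, this, Complex.conj_re]
  ring

/-- the 2-seminorm -/
noncomputable def nn (h3 : W3Stmt) (h : IsFaithfulTracialState τ) : Seminorm ℂ A :=
  Seminorm.of (fun a => √(n2 τ a)) (fun a b => by
    obtain ⟨-, -, hcs, -⟩ := h3 A τ h
    rw [Real.sqrt_le_left (by positivity), n2_add h3 h, add_sq, Real.sq_sqrt (n2_nonneg h a),
      Real.sq_sqrt (n2_nonneg h b)]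
    have h1 : ‖τ (star a * b)‖ ≤ √(n2 τ a) * √(n2 τ b) := by
      rw [← Real.sqrt_mul (n2_nonneg h a)]; exact Real.le_sqrt_of_sq_le (hcs a b)
    have := Complex.re_le_norm (τ (star a * b))
    linarith) (fun c a => by
    rw [n2_smul, Real.sqrt_mul (by positivity), Real.sqrt_sq (norm_nonneg _)])

lemma nn_sq (h3 : W3Stmt) (h : IsFaithfulTracialState τ) (a : A) : nn h3 h a ^ 2 = n2 τ a :=
  Real.sq_sqrt (n2_nonneg h a)

lemma nn_mul_left (h3 : W3Stmt) (h : IsFaithfulTracialState τ) (a b : A) :
    nn h3 h (a * b) ≤ ‖a‖ * nn h3 h b := by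
  obtain ⟨-, -, -, hm, -⟩ := h3 A τ h
  refine (pow_le_pow_iff_left₀ (by positivity) (by positivity) two_ne_zero).mp ?_
  rw [mul_pow, nn_sq, nn_sq]; exact (hm a b).1

lemma nn_mul_right (h3 : W3Stmt) (h : IsFaithfulTracialState τ) (a b : A) :
    nn h3 h (a * b) ≤ nn h3 h a * ‖b‖ := by
  obtain ⟨-, -, -, hm, -⟩ := h3 A τ h
  refine (pow_le_pow_iff_left₀ (by positivity) (by positivity) two_ne_zero).mp ?_
  rw [mul_pow, nn_sq, nn_sq]; exact (hm a b).2

lemma nn_one (h3 : W3Stmt) (h : IsFaithfulTracialState τ) : nn h3 h 1 = 1 := by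
  change √(n2 τ 1) = 1
  simp [n2, h.1]

lemma nn_le_norm (h3 : W3Stmt) (h : IsFaithfulTracialState τ) (a : A) : nn h3 h a ≤ ‖a‖ := by
  simpa [nn_one] using nn_mul_left h3 h a 1

lemma norm_tr_le (h3 : W3Stmt) (h : IsFaithfulTracialState τ) (a b : A) :
    ‖τ (star a * b)‖ ≤ nn h3 h a * nn h3 h b := by
  obtain ⟨-, -, hcs, -⟩ := h3 A τ h
  refine (pow_le_pow_iff_left₀ (by positivity) (by positivity) two_ne_zero).mp ?_
  rw [mul_pow, nn_sq, nn_sq]; exact hcs a b

end nn

end Crest.Agent.FE.Po
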