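import Crest.Agent.FE.Herm
import Crest.Agent.QQ.Gauss

/-! Approximate Schwinger-Dyson equations for GUE matrices. -/

set_option autoImplicit false
set_option linter.unusedSectionVars false
open Crest.OpAlg MeasureTheory Filter Topology ProbabilityTheory MvPolynomial
open scoped ENNReal Matrix.Norms.L2Operator

namespace Crest.Agent.FE
namespace Rm
open Hm Crest.Agent.QQ

section spl
variable {Λ M N : Type*} [AddCommMonoid M] [AddCommMonoid N]

lemma map_spl {F : Type*} [FunLike F M N] [AddMonoidHomClass F M N] (φ : F) (w : List Λ)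
    (f : List Λ → Λ → List Λ → M) : φ (spl w f) = spl w fun u i v => φ (f u i v) := by
  induction w generalizing f with
  | nil => simp [spl]
  | cons a w ih => simp [spl, ih]

lemma sum_spl {ι : Type*} (s : Finset ι) (w : List Λ) (f : ι → List Λ → Λ → List Λ → M) :
    ∑ p ∈ s, spl w (f p) = spl w fun u i v => ∑ p ∈ s, f p u i v := by
  induction w generalizing f with
  | nil => simp [spl]
  | cons a w ih => simp [spl, ih, Finset.sum_add_distrib]

lemma mul_spl {R : Type*} [Semiring R] (c : R) (w : List Λ) (f : List Λ → Λ → List Λ → R) :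
    c * spl w f = spl w fun u i v => c * f u i v := map_spl (AddMonoidHom.mulLeft c) w f

lemma norm_spl {V : Type*} [SeminormedAddCommGroup V] (w : List Λ)
    (f : List Λ → Λ → List Λ → V) (c : ℝ)
    (h : ∀ u i v, u.length + v.length + 1 = w.length → ‖f u i v‖ ≤ c) :
    ‖spl w f‖ ≤ w.length * c := by
  induction w generalizing f with
  | nil => simp [spl]
  | cons a w ih =>
    have h1 := h [] a w (by simp)
    have h2 := ih (fun u i v => f (a :: u) i v) fun u i v huv => h _ _ _ (by simp; omega)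
    simp only [spl, List.length_cons]
    push_cast
    exact (norm_add_le _ _).trans (by linarith)

end spl

lemma ev_nil {Λ A : Type*} [Monoid A] (a : Λ → A) : ev a [] = 1 := rfl
lemma ev_cons {Λ A : Type*} [Monoid A] (a : Λ → A) (i : Λ) (w : List Λ) :
    ev a (i :: w) = a i * ev a w := by simp [ev]

lemma map_ev {Λ A B F : Type*} [Monoid A] [Monoid B] [FunLike F A B] [MonoidHomClass F A B] (φ : F)
    (a : Λ → A) (w : List Λ) : φ (ev a w) = ev (fun i => φ (a i)) w := by
  induction w with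
  | nil => simp [ev]
  | cons i w ih => simp [ev_cons, ih]

lemma norm_ev {Λ A : Type*} [NormedRing A] [NormOneClass A] (a : Λ → A) {K : ℝ}
    (h : ∀ i, ‖a i‖ ≤ K) (w : List Λ) : ‖ev a w‖ ≤ K ^ w.length := by
  induction w with
  | nil => simp [ev]
  | cons i w ih =>
    rw [ev_cons, List.length_cons, pow_succ']
    exact (norm_mul_le _ _).trans (mul_le_mul (h i) ih (norm_nonneg _)
      ((norm_nonneg _).trans (h i)))

section GE
variable {I : Type} [Fintype I] [DecidableEq I]

/-- evaluation at a real point -/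
noncomputable def ez (z : I → ℝ) : MvPolynomial I ℂ →+* ℂ := eval fun i => (z i : ℂ)

lemma ez_monomial (z : I → ℝ) (s : I →₀ ℕ) (c : ℂ) :
    ez z (monomial s c) = c * (eval z (monomial s (1 : ℝ)) : ℝ) := by
  simp [ez, eval_monomial, Finsupp.prod]

lemma integrable_ez (p : MvPolynomial I ℂ) : Integrable (fun z => ez z p) (gam I) := by
  induction p using MvPolynomial.induction_on' with
  | monomial s c =>
    simp only [ez_monomial]
    exact (QQ.integrable_eval _).ofReal.const_mul c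
  | add p q hp hq => simp only [map_add]; exact hp.add hq

lemma continuous_ez (p : MvPolynomial I ℂ) : Continuous fun z : I → ℝ => ez z p :=
  (continuous_eval p).comp (by fun_prop)

/-- complex Gaussian expectation -/
noncomputable def GC : MvPolynomial I ℂ →+ ℂ where
  toFun p := ∫ z, ez z p ∂gam I
  map_zero' := by simp
  map_add' p q := by simp [integral_add (integrable_ez p) (integrable_ez q)]

lemma GC_apply (p : MvPolynomial I ℂ) : GC p = ∫ z, ez z p ∂gam I := rfl

lemma GC_monomial (s : I →₀ ℕ) (c : ℂ) :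
    GC (monomial s c) = c * (GE (monomial s (1 : ℝ)) : ℝ) := by
  simp only [GC_apply, ez_monomial, integral_const_mul, GE_apply, integral_complex_ofReal]

lemma steinC (a : I) (p : MvPolynomial I ℂ) : GC (X a * p) = GC (pderiv a p) := by
  induction p using MvPolynomial.induction_on' with
  | monomial s c =>
    have h := stein a (monomial s (1 : ℝ))
    rw [X, monomial_mul, pderiv_monomial] at h ⊢
    rw [GC_monomial, GC_monomial]
    rw [one_mul, one_mul, ← mul_one (s a : ℝ), ← smul_eq_mul, ← smul_monomial, map_smul] at h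
    rw [h]; simp only [smul_eq_mul]; push_cast; ring
  | add p q hp hq => simp only [mul_add, map_add, hp, hq]

lemma ez_conj (z : I → ℝ) (p : MvPolynomial I ℂ) :
    ez z (map (starRingEnd ℂ) p) = starRingEnd ℂ (ez z p) := by
  induction p using MvPolynomial.induction_on with
  | C a => simp [ez]
  | add p q hp hq => simp [hp, hq]
  | mul_X p i hp =>
    simp only [map_mul, hp, map_X]
    simp [ez]

end GE

variable {β κ : Type} [Fintype β] [Fintype κ] [DecidableEq κ] {d : ℕ}

/-- polynomial ring in the Gaussian coordinates -/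
abbrev PR (κ : Type) (d : ℕ) := MvPolynomial (κ × (Fin d × Fin d)) ℂ

/-- `d^(-1/2)` -/
noncomputable def sd (d : ℕ) : ℂ := ((Real.sqrt d : ℝ) : ℂ)⁻¹

lemma sd_sq : sd d * sd d = (d : ℂ)⁻¹ := by
  rw [sd, ← mul_inv, ← Complex.ofReal_mul, Real.mul_self_sqrt (by positivity)]; simp

/-- constant basis matrix -/
noncomputable def EP (κ : Type) (p : Fin d × Fin d) : Matrix (Fin d) (Fin d) (PR κ d) :=
  (E p).map (C : ℂ →+* PR κ d)

/-- polynomial letters -/
noncomputable def lt (x : β → Matrix (Fin d) (Fin d) ℂ) : β ⊕ κ → Matrix (Fin d) (Fin d) (PR κ d)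
  | .inl b => (x b).map (C : ℂ →+* PR κ d)
  | .inr l => ∑ p, (C (sd d) * X (l, p) : PR κ d) • EP κ p

/-- indicator of a letter -/
noncomputable def ind (j : κ) (i : β ⊕ κ) : ℂ :=
  Sum.elim (fun _ => (0 : ℂ)) (fun j' => if j' = j then 1 else 0) i

lemma norm_ind (j : κ) (i : β ⊕ κ) : ‖ind j i‖ ≤ 1 := by
  rcases i with b | l
  · simp [ind]
  · simp only [ind, Sum.elim_inr]; split_ifs <;> simp

/-- numeric letters -/
noncomputable def nl (x : β → Matrix (Fin d) (Fin d) ℂ) (z : κ × (Fin d × Fin d) → ℝ) :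
    β ⊕ κ → Matrix (Fin d) (Fin d) ℂ := Sum.elim x (gue (WithLp.toLp 2 z))

lemma ez_EP (z : κ × (Fin d × Fin d) → ℝ) (p : Fin d × Fin d) :
    (ez z).mapMatrix (EP κ p) = E p := by
  ext a b; simp [EP, ez]

lemma ez_lt (x : β → Matrix (Fin d) (Fin d) ℂ) (z : κ × (Fin d × Fin d) → ℝ) (i : β ⊕ κ) :
    (ez z).mapMatrix (lt x i) = nl x z i := by
  rcases i with b | l
  · ext a c; simp [lt, nl, ez]
  · simp only [lt, nl, Sum.elim_inr, gue, herm_eq, Finset.smul_sum, map_sum]
    refine Finset.sum_congr rfl fun p _ => ?_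
    ext a c; simp [EP, ez, sd, mul_assoc]

lemma ez_ev (x : β → Matrix (Fin d) (Fin d) ℂ) (z : κ × (Fin d × Fin d) → ℝ) (w : List (β ⊕ κ)) :
    (ez z).mapMatrix (ev (lt x) w) = ev (nl x z) w := by
  rw [map_ev]; simp only [ez_lt]

lemma ez_trace (z : κ × (Fin d × Fin d) → ℝ) (M : Matrix (Fin d) (Fin d) (PR κ d)) :
    ez z M.trace = ((ez z).mapMatrix M).trace := by
  simp [Matrix.trace]

/-- entrywise derivative -/
noncomputable def dm (a : κ × (Fin d × Fin d)) :
    Matrix (Fin d) (Fin d) (PR κ d) →+ Matrix (Fin d) (Fin d) (PR κ d) :=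
  (pderiv (R := ℂ) a).toLinearMap.toAddMonoidHom.mapMatrix

lemma dm_apply (a : κ × (Fin d × Fin d)) (M : Matrix (Fin d) (Fin d) (PR κ d)) (i j : Fin d) :
    dm a M i j = pderiv a (M i j) := rfl

lemma dm_mul (a : κ × (Fin d × Fin d)) (M N : Matrix (Fin d) (Fin d) (PR κ d)) :
    dm a (M * N) = dm a M * N + M * dm a N := by
  ext1 i j
  simp only [dm_apply, Matrix.mul_apply, map_sum, pderiv_mul, Matrix.add_apply,
    Finset.sum_add_distrib]

lemma dm_const (a : κ × (Fin d × Fin d)) (M : Matrix (Fin d) (Fin d) ℂ) :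
    dm a (M.map (C : ℂ →+* PR κ d)) = 0 := by
  ext1 i j; simp [dm_apply]

lemma dm_trace (a : κ × (Fin d × Fin d)) (M : Matrix (Fin d) (Fin d) (PR κ d)) :
    pderiv a M.trace = (dm a M).trace := by
  simp [Matrix.trace, dm_apply]

lemma dm_lt (x : β → Matrix (Fin d) (Fin d) ℂ) (j : κ) (p : Fin d × Fin d) (i : β ⊕ κ) :
    dm (j, p) (lt x i) = (C (ind j i * sd d) : PR κ d) • EP κ p := by
  rcases i with b | l
  · simp [lt, dm_const, ind]
  · ext1 a c
    simp only [lt, dm_apply, Matrix.sum_apply, Matrix.smul_apply, smul_eq_mul, map_sum, EP,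
      Matrix.map_apply, pderiv_mul, pderiv_C, pderiv_X, ind, Sum.elim_inr]
    by_cases h : l = j
    · subst h
      rw [Finset.sum_eq_single p] <;> simp +contextual [Pi.single_apply]
    · simp [Pi.single_apply, h]

lemma dm_ev (x : β → Matrix (Fin d) (Fin d) ℂ) (a : κ × (Fin d × Fin d)) (w : List (β ⊕ κ)) :
    dm a (ev (lt x) w) = spl w fun u i v => ev (lt x) u * dm a (lt x i) * ev (lt x) v := by
  induction w with
  | nil =>
    have := dm_const a (1 : Matrix (Fin d) (Fin d) ℂ)
    rw [Matrix.map_one _ (map_zero _) (map_one _)] at this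
    simpa [ev, spl] using this
  | cons i w ih => simp only [ev_cons, dm_mul, ih, spl, ev_nil, one_mul, mul_spl, mul_assoc]

/-- polynomial normalised trace -/
noncomputable def tp (M : Matrix (Fin d) (Fin d) (PR κ d)) : PR κ d := C ((d : ℂ)⁻¹) * M.trace

lemma ez_tp (x : β → Matrix (Fin d) (Fin d) ℂ) (z : κ × (Fin d × Fin d) → ℝ) (w : List (β ⊕ κ)) :
    ez z (tp (ev (lt x) w)) = ntr d (ev (nl x z) w) := by
  rw [tp, map_mul, ez_trace, ez_ev, ntr_apply]; simp [ez]

/-- polynomial defect -/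
noncomputable def Dp (x : β → Matrix (Fin d) (Fin d) ℂ) (j : κ) (w : List (β ⊕ κ)) : PR κ d :=
  tp (ev (lt x) (.inr j :: w)) -
    spl w fun u i v => C (ind j i) * (tp (ev (lt x) u) * tp (ev (lt x) v))

lemma ez_Dp (x : β → Matrix (Fin d) (Fin d) ℂ) (z : κ × (Fin d × Fin d) → ℝ) (j : κ)
    (w : List (β ⊕ κ)) : ez z (Dp x j w) = sdd (ntr d) x (gue (WithLp.toLp 2 z)) j w := by
  rw [Dp, map_sub, map_spl, ez_tp, ev_cons]
  simp only [map_mul, ez_tp]
  simp only [ez, eval_C]
  rfl

lemma stein_D (x : β → Matrix (Fin d) (Fin d) ℂ) (j : κ) (w : List (β ⊕ κ)) (Q : PR κ d) :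
    GC (Q * Dp x j w) = GC (∑ p, C ((d : ℂ)⁻¹ * sd d) * (pderiv (j, p) Q *
      (EP κ p * ev (lt x) w).trace)) := by
  have h1 : Q * tp (ev (lt x) (.inr j :: w)) = ∑ p, X (j, p) *
      (C ((d : ℂ)⁻¹ * sd d) * (Q * (EP κ p * ev (lt x) w).trace)) := by
    simp only [tp, ev_cons, lt, Finset.sum_mul, Matrix.trace_sum, Finset.mul_sum, smul_mul_assoc,
      Matrix.trace_smul, smul_eq_mul, map_mul]
    exact Finset.sum_congr rfl fun p _ => by ring
  have h2 : ∑ p, C ((d : ℂ)⁻¹ * sd d) * (Q * pderiv (j, p) (EP κ p * ev (lt x) w).trace) =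
      Q * spl w fun u i v => C (ind j i) * (tp (ev (lt x) u) * tp (ev (lt x) v)) := by
    have h3 : ∀ p, pderiv (j, p) (EP κ p * ev (lt x) w).trace = spl w fun u i v =>
        C (ind j i * sd d) * (EP κ p * ev (lt x) u * EP κ p * ev (lt x) v).trace := fun p => by
      rw [dm_trace, dm_mul, EP, dm_const, zero_mul, zero_add, dm_ev, mul_spl,
        ← Matrix.traceAddMonoidHom_apply, map_spl]
      simp only [Matrix.traceAddMonoidHom_apply, dm_lt, mul_smul_comm, smul_mul_assoc,
        Matrix.trace_smul, smul_eq_mul, mul_assoc, EP]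
    simp only [h3]
    simp only [mul_spl, sum_spl]
    simp only [← Finset.mul_sum, EP, compl2]
    congr 1
    funext u i v
    have : (C (sd d) * C (sd d) : PR κ d) = C (d : ℂ)⁻¹ := by rw [← map_mul, sd_sq]
    simp only [tp, map_mul]
    linear_combination (C (d : ℂ)⁻¹ * Q * C (ind j i) * (ev (lt x) u).trace *
      (ev (lt x) v).trace) * this
  rw [Dp, mul_sub, map_sub, h1, ← h2, map_sum, map_sum, map_sum, ← Finset.sum_sub_distrib]
  refine Finset.sum_congr rfl fun p _ => ?_
  rw [steinC, pderiv_C_mul, pderiv_mul, mul_add, map_add, add_sub_cancel_right]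

/-- cyclic gradient of a word -/
noncomputable def cg (a : β ⊕ κ → Matrix (Fin d) (Fin d) ℂ) (j : κ) (w : List (β ⊕ κ)) :
    Matrix (Fin d) (Fin d) ℂ := spl w fun u i v => ind j i • (ev a v * ev a u)

/-- gradient of the defect -/
noncomputable def gr (a : β ⊕ κ → Matrix (Fin d) (Fin d) ℂ) (j : κ) (w : List (β ⊕ κ)) :
    Matrix (Fin d) (Fin d) ℂ := cg a j (.inr j :: w) - spl w fun u i v =>
      ind j i • (ntr d (ev a v) • cg a j u + ntr d (ev a u) • cg a j v)

/-- pairing with a basis matrix -/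
noncomputable def pr (p : Fin d × Fin d) : Matrix (Fin d) (Fin d) ℂ →ₗ[ℂ] ℂ :=
  ((d : ℂ)⁻¹ * sd d) • (Matrix.traceLinearMap (Fin d) ℂ ℂ ∘ₗ LinearMap.mulLeft ℂ (E p))

lemma pr_apply (p : Fin d × Fin d) (M : Matrix (Fin d) (Fin d) ℂ) :
    pr p M = (d : ℂ)⁻¹ * sd d * (E p * M).trace := rfl

lemma ez_d_tp (x : β → Matrix (Fin d) (Fin d) ℂ) (z : κ × (Fin d × Fin d) → ℝ) (j : κ)
    (p : Fin d × Fin d) (w : List (β ⊕ κ)) :
    ez z (pderiv (j, p) (tp (ev (lt x) w))) = pr p (cg (nl x z) j w) := by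
  rw [tp, pderiv_C_mul, dm_trace, dm_ev, map_mul, ez_trace, map_spl, cg, map_spl,
    ← Matrix.traceAddMonoidHom_apply, map_spl, mul_spl]
  congr 1
  funext u i v
  have : (ez z).mapMatrix ((C (ind j i * sd d) : PR κ d) • EP κ p) = (ind j i * sd d) • E p := by
    ext a b; simp [EP, ez]
  rw [Matrix.traceAddMonoidHom_apply, map_mul, map_mul, ez_ev, ez_ev, dm_lt, this, map_smul,
    pr_apply, mul_smul_comm, smul_mul_assoc, Matrix.trace_smul,
    mul_assoc (ev _ u), Matrix.trace_mul_comm (ev _ u), mul_assoc (E p)]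
  simp only [ez, eval_C, smul_eq_mul]; ring

lemma ez_d_Dp (x : β → Matrix (Fin d) (Fin d) ℂ) (z : κ × (Fin d × Fin d) → ℝ) (j : κ)
    (p : Fin d × Fin d) (w : List (β ⊕ κ)) :
    ez z (pderiv (j, p) (Dp x j w)) = pr p (gr (nl x z) j w) := by
  rw [Dp, map_sub, map_sub, ez_d_tp, gr, map_sub, map_spl, map_spl, map_spl]
  congr 2
  funext u i v
  rw [pderiv_C_mul, pderiv_mul]
  simp only [map_mul, map_add, ez_d_tp, ez_tp, map_smul, smul_eq_mul]
  simp only [ez, eval_C]; ring

section bounds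
variable [NeZero d] (a : β ⊕ κ → Matrix (Fin d) (Fin d) ℂ) {K : ℝ} (hK : 1 ≤ K)
  (h : ∀ i, ‖a i‖ ≤ K) (j : κ)
include hK h

lemma norm_cg (w : List (β ⊕ κ)) : ‖cg a j w‖ ≤ w.length * K ^ w.length := by
  refine norm_spl _ _ _ fun u i v huv => ?_
  rw [norm_smul]
  calc _ ≤ 1 * (K ^ v.length * K ^ u.length) := by
        gcongr
        · exact norm_ind j i
        · exact (norm_mul_le _ _).trans (by gcongr <;> exact norm_ev a h _)
    _ ≤ _ := by
        rw [one_mul, ← pow_add]; exact pow_le_pow_right₀ hK (by omega)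

lemma norm_gr (w : List (β ⊕ κ)) :
    ‖gr a j w‖ ≤ 3 * (w.length + 1) ^ 2 * K ^ (w.length + 1) := by
  have h1 := norm_cg a hK h j (.inr j :: w)
  have key : ∀ u v : List (β ⊕ κ), u.length + v.length + 1 = w.length →
      ‖ntr d (ev a v) • cg a j u‖ ≤ w.length * K ^ (w.length + 1) := fun u v huv => by
    rw [norm_smul]
    calc _ ≤ K ^ v.length * (w.length * K ^ u.length) := by
          gcongr
          · exact (ntr_le _).trans (norm_ev a h _)
          · refine (norm_cg a hK h j u).trans ?_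
            gcongr; omega
      _ = w.length * K ^ (v.length + u.length) := by ring
      _ ≤ _ := mul_le_mul_of_nonneg_left (pow_le_pow_right₀ hK (by omega)) (by positivity)
  have h2 := norm_spl w (fun u i v => ind j i • (ntr d (ev a v) • cg a j u +
      ntr d (ev a u) • cg a j v)) (1 * (w.length * K ^ (w.length + 1) +
        w.length * K ^ (w.length + 1))) fun u i v huv => by
    rw [norm_smul]
    gcongr
    · exact norm_ind j i
    · exact (norm_add_le _ _).trans (add_le_add (key u v huv) (key v u (by omega)))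
  refine (norm_sub_le _ _).trans ((add_le_add h1 h2).trans ?_)
  simp only [List.length_cons]
  push_cast
  have : 0 ≤ K ^ (w.length + 1) := by positivity
  have h3 : (0 : ℝ) ≤ w.length := by positivity
  nlinarith [mul_nonneg h3 this, mul_nonneg (mul_nonneg h3 h3) this]

end bounds

lemma pair_le [NeZero d] (B W : Matrix (Fin d) (Fin d) ℂ) :
    ‖∑ p, (d : ℂ)⁻¹ * sd d * (starRingEnd ℂ (pr p B) * (E p * W).trace)‖ ≤
      ((d : ℝ) ^ 2)⁻¹ * (‖B‖ * ‖W‖) := by
  have h3 : ∀ p, starRingEnd ℂ (pr p B) = (d : ℂ)⁻¹ * sd d * (E p * B.conjTranspose).trace :=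
    fun p => by
      rw [pr_apply, map_mul, starRingEnd_apply (Matrix.trace _), ← Matrix.trace_conjTranspose,
        Matrix.conjTranspose_mul, E_herm, Matrix.trace_mul_comm]
      simp [sd]
  have h2 := compl1 (RingHom.id ℂ) B.conjTranspose W
  simp only [RingHom.coe_id, Matrix.map_id] at h2
  have h4 : ∑ p, (d : ℂ)⁻¹ * sd d * (starRingEnd ℂ (pr p B) * (E p * W).trace) =
      ((d : ℂ) ^ 2)⁻¹ * ntr d (B.conjTranspose * W) := by
    rw [ntr_apply, ← h2, Finset.mul_sum, Finset.mul_sum]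
    refine Finset.sum_congr rfl fun p _ => ?_
    rw [h3, ← inv_pow]
    linear_combination ((d : ℂ)⁻¹ ^ 2 * (E p * B.conjTranspose).trace * (E p * W).trace) * sd_sq
  rw [h4, norm_mul, norm_inv, norm_pow, Complex.norm_natCast]
  gcongr
  exact (ntr_le _).trans ((norm_mul_le _ _).trans (by rw [Matrix.l2_opNorm_conjTranspose]))

/-- the exponential weight -/
noncomputable def wt (z : κ × (Fin d × Fin d) → ℝ) : ℝ≥0∞ :=
  ∑ l, ENNReal.ofReal (Real.exp (opn (gue (WithLp.toLp 2 z) l) / 4))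

lemma continuous_gue (l : κ) :
    Continuous fun z : κ × (Fin d × Fin d) → ℝ => opn (gue (WithLp.toLp 2 z) l) := by
  simp only [opn_eq, gue, herm_eq]
  fun_prop

lemma measurable_wt : Measurable (wt (κ := κ) (d := d)) :=
  Finset.measurable_sum _ fun l _ => by have := (continuous_gue (d := d) l).measurable; fun_prop

lemma lint_wt {C₀ : ℝ≥0∞} (h : ∫⁻ z : Fin d × Fin d → ℝ, ENNReal.ofReal (Real.exp
      (opn (((Real.sqrt d)⁻¹ : ℂ) • hermitianOfCoords (WithLp.toLp 2 z)) / 4))
      ∂(Measure.pi fun _ => ProbabilityTheory.gaussianReal 0 1) ≤ C₀) :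
    ∫⁻ z, wt z ∂gam (κ × (Fin d × Fin d)) ≤ Fintype.card κ * C₀ := by
  unfold wt
  rw [lintegral_finsetSum _ fun l _ => by have := (continuous_gue (d := d) l).measurable; fun_prop]
  refine (Finset.sum_le_card_nsmul _ _ C₀ fun l _ => ?_).trans (by simp)
  have hi := (iIndepFun_pi (μ := fun _ : κ × (Fin d × Fin d) => gaussianReal 0 1)
    (X := fun _ => id) fun _ => aemeasurable_id).precomp (g := fun p : Fin d × Fin d => (l, p))
    (fun p q h => (Prod.mk.inj h).2)
  have hm := (iIndepFun_iff_map_fun_eq_pi_map fun p =>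
    (measurable_pi_apply (l, p)).aemeasurable).1 hi
  simp only [id, (measurePreserving_eval (fun _ : κ × (Fin d × Fin d) => gaussianReal 0 1)
    _).map_eq] at hm
  refine le_trans (le_of_eq ?_) h
  rw [← hm, lintegral_map]
  · rfl
  · have : Continuous fun z : Fin d × Fin d → ℝ =>
        opn (((Real.sqrt d)⁻¹ : ℂ) • hermitianOfCoords (WithLp.toLp 2 z)) := by
      simp only [opn_eq, herm_eq]; fun_prop
    have := this.measurable
    fun_prop
  · fun_prop

/-- the constant -/
noncomputable def cst (ρ : ℝ) (m : ℕ) : ℝ :=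
  3 * (m + 1) ^ 2 * ((2 * m + 1).factorial * 4 ^ (2 * m + 1) * Real.exp ((1 + |ρ|) / 4))

lemma var_le [NeZero d] [Nonempty κ] (x : β → Matrix (Fin d) (Fin d) ℂ) {ρ : ℝ}
    (hx : ∀ b, opn (x b) ≤ ρ) (j : κ) {m : ℕ} (w : List (β ⊕ κ)) (hw : w.length ≤ m) :
    ∫⁻ z, ENNReal.ofReal (‖ez z (Dp x j w)‖ ^ 2) ∂gam (κ × (Fin d × Fin d)) ≤
      ENNReal.ofReal (((d : ℝ) ^ 2)⁻¹ * cst ρ m) * ∫⁻ z, wt z ∂gam (κ × (Fin d × Fin d)) := by
  have h := stein_D x j w (map (starRingEnd ℂ) (Dp x j w))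
  rw [GC_apply, GC_apply] at h
  have hi := integrable_ez (map (starRingEnd ℂ) (Dp x j w) * Dp x j w)
  simp only [map_mul, ez_conj, Complex.conj_mul', ← Complex.ofReal_pow] at h hi
  rw [integral_complex_ofReal] at h
  rw [← ofReal_integral_eq_lintegral_ofReal (by simpa only [RCLike.re_to_complex,
      Complex.ofReal_re] using hi.re) (Eventually.of_forall fun z => by positivity),
    ← lintegral_const_mul' _ _ ENNReal.ofReal_ne_top]
  refine le_trans (ENNReal.ofReal_le_ofReal ((le_abs_self _).trans_eq ?_)) (le_trans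
    ((ofReal_norm_eq_enorm _).trans_le (h ▸ enorm_integral_le_lintegral_enorm _))
    (lintegral_mono fun z => ?_))
  · rw [Complex.norm_real, Real.norm_eq_abs]
  obtain ⟨l, -, hl⟩ := Finset.univ.exists_max_image
    (fun l => opn (gue (WithLp.toLp 2 z) l)) (Finset.univ_nonempty (α := κ))
  set t := opn (gue (WithLp.toLp 2 z) l) with ht
  have ht0 : 0 ≤ t := norm_nonneg _
  have hρ := abs_nonneg ρ
  have hK : 1 ≤ 1 + |ρ| + t := by linarith
  have ha : ∀ i, ‖nl x z i‖ ≤ 1 + |ρ| + t := by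
    rintro (b | l')
    · have := hx b; have := le_abs_self ρ
      change opn (x b) ≤ _; linarith
    · have := hl l' (Finset.mem_univ _)
      change opn (gue (WithLp.toLp 2 z) l') ≤ _; linarith
  set K := 1 + |ρ| + t with hKd
  have h1 := pair_le (gr (nl x z) j w) (ev (nl x z) w)
  have h2 : ‖gr (nl x z) j w‖ * ‖ev (nl x z) w‖ ≤ cst ρ m * Real.exp (t / 4) := by
    have h3 := Real.pow_div_factorial_le_exp (K / 4) (by positivity) (2 * m + 1)
    rw [div_le_iff₀ (by positivity), div_pow, div_le_iff₀ (by positivity)] at h3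
    calc _ ≤ 3 * (w.length + 1) ^ 2 * K ^ (w.length + 1) * K ^ w.length := by
          gcongr
          exacts [norm_gr _ hK ha j w, norm_ev _ ha w]
      _ = 3 * (w.length + 1) ^ 2 * K ^ (2 * w.length + 1) := by ring
      _ ≤ 3 * (m + 1) ^ 2 * K ^ (2 * m + 1) := by gcongr
      _ ≤ 3 * (m + 1) ^ 2 * (Real.exp (K / 4) * (2 * m + 1).factorial * 4 ^ (2 * m + 1)) := by
          gcongr
      _ = _ := by rw [cst, hKd, add_div _ t, Real.exp_add]; ring
  have h4 : 0 ≤ cst ρ m := by unfold cst; positivity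
  rw [← ofReal_norm_eq_enorm]
  refine le_trans ?_ (mul_le_mul_right (Finset.single_le_sum
    (f := fun l => ENNReal.ofReal (Real.exp (opn (gue (WithLp.toLp 2 z) l) / 4)))
    (fun _ _ => zero_le) (Finset.mem_univ l)) _)
  rw [← ENNReal.ofReal_mul (by positivity), mul_assoc]
  refine ENNReal.ofReal_le_ofReal (le_trans (le_of_eq ?_) (h1.trans (by gcongr)))
  congr 1
  simp only [map_sum, map_mul, pderiv_map, ez_conj, ez_d_Dp, ez_trace, ez_EP, ez_ev]
  simp only [ez, eval_C]

end Rm
open Rm Hm Crest.Agent.QQ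

theorem rm (h : RMnStmt) : RMStmt := by
  intro β κ _ _ _ _
  classical
  obtain ⟨C₀, hC⟩ := h
  set C₁ : ℝ := Fintype.card κ * |C₀| + 1 with hC₁
  have hC₁0 : 0 < C₁ := by positivity
  refine ⟨4 * Real.log (4 * C₁), fun ρ ε m hε => ?_⟩
  let T : Finset (κ × List (β ⊕ κ)) :=
    Finset.univ ×ˢ (List.finite_length_le (β ⊕ κ) m).toFinset
  have h4 : 0 ≤ cst ρ m := by unfold cst; positivity
  have hev : ∀ᶠ d : ℕ in atTop, 4 * (T.card * cst ρ m * C₁) / ε ^ 2 + 1 ≤ (d : ℝ) :=
    tendsto_natCast_atTop_atTop.eventually_ge_atTop _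
  filter_upwards [hev] with d hd x hx
  have hd0 : 0 ≤ 4 * (T.card * cst ρ m * C₁) / ε ^ 2 := by positivity
  have hd1 : (1 : ℝ) ≤ d := by linarith
  have hdpos : 0 < d := by exact_mod_cast (show (0 : ℝ) < d by linarith)
  have : NeZero d := ⟨hdpos.ne'⟩
  have hw : ∫⁻ z, wt z ∂gam (κ × (Fin d × Fin d)) ≤ ENNReal.ofReal C₁ := by
    refine (lint_wt (hC d hdpos)).trans ?_
    rw [← ENNReal.ofReal_natCast]
    refine (mul_le_mul_right (ENNReal.ofReal_le_ofReal (le_abs_self C₀)) _).trans ?_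
    rw [← ENNReal.ofReal_mul (by positivity)]
    exact ENNReal.ofReal_le_ofReal (by linarith)
  let S : Set (κ × (Fin d × Fin d) → ℝ) := {z | (∀ j, opn (gue (WithLp.toLp 2 z) j) ≤
    4 * Real.log (4 * C₁)) ∧ ∀ j (w : List (β ⊕ κ)), w.length ≤ m → ‖ez z (Dp x j w)‖ ≤ ε}
  have hS : IsClosed S := by
    simp only [S, Set.setOf_and, Set.setOf_forall]
    exact (isClosed_iInter fun j => isClosed_le (continuous_gue j) continuous_const).inter
      (isClosed_iInter fun j => isClosed_iInter fun w => isClosed_iInter fun _ =>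
        isClosed_le (continuous_ez _).norm continuous_const)
  let Ψ : (κ × (Fin d × Fin d) → ℝ) → ℝ≥0∞ := fun z => ENNReal.ofReal (4 * C₁)⁻¹ * wt z +
    ENNReal.ofReal (ε ^ 2)⁻¹ * ∑ q ∈ T, ENNReal.ofReal (‖ez z (Dp x q.1 q.2)‖ ^ 2)
  have hm : ∀ q : κ × List (β ⊕ κ), Measurable fun z : κ × (Fin d × Fin d) → ℝ =>
      ENNReal.ofReal (‖ez z (Dp x q.1 q.2)‖ ^ 2) := fun q => by
    have := (continuous_ez (Dp x q.1 q.2)).measurable
    fun_prop
  have hΨ : ∫⁻ z, Ψ z ∂gam _ ≤ 2⁻¹ := by
    simp only [Ψ]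
    rw [lintegral_add_left (measurable_wt.const_mul _),
      lintegral_const_mul' _ _ ENNReal.ofReal_ne_top,
      lintegral_const_mul' _ _ ENNReal.ofReal_ne_top, lintegral_finsetSum _ fun q _ => hm q]
    have h1 := Finset.sum_le_card_nsmul T _ _ fun q hq => (var_le x hx q.1 q.2
      (by simpa [T] using hq : q.2.length ≤ m)).trans (mul_le_mul_right hw _)
    refine (add_le_add (mul_le_mul_right hw _) (mul_le_mul_right h1 _)).trans ?_
    rw [nsmul_eq_mul, ← ENNReal.ofReal_natCast, ← ENNReal.ofReal_mul (by positivity),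
      ← ENNReal.ofReal_mul (by positivity), ← ENNReal.ofReal_mul (by positivity),
      ← ENNReal.ofReal_mul (by positivity), ← ENNReal.ofReal_add (by positivity) (by positivity),
      show (2⁻¹ : ℝ≥0∞) = ENNReal.ofReal 2⁻¹ by
        rw [ENNReal.ofReal_inv_of_pos (by norm_num)]; simp]
    refine ENNReal.ofReal_le_ofReal ?_
    have h2 : (4 * C₁)⁻¹ * C₁ = 1 / 4 := by field_simp
    have h3 : (ε ^ 2)⁻¹ * (T.card * (((d : ℝ) ^ 2)⁻¹ * cst ρ m * C₁)) =
        (4 * (T.card * cst ρ m * C₁) / ε ^ 2) / (4 * (d : ℝ) ^ 2) := by field_simp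
    have h5 : (4 * (T.card * cst ρ m * C₁) / ε ^ 2) / (4 * (d : ℝ) ^ 2) ≤ 1 / 4 := by
      rw [div_le_iff₀ (by positivity)]; nlinarith
    linarith
  have hbad : gam _ Sᶜ ≤ 2⁻¹ := by
    refine le_trans ?_ hΨ
    rw [← lintegral_indicator_one hS.isOpen_compl.measurableSet]
    refine lintegral_mono fun z => Set.indicator_le' (fun z hz => ?_) (fun _ _ => zero_le) z
    simp only [S, Set.mem_compl_iff, Set.mem_setOf_eq, not_and_or, not_forall, not_le] at hz
    rcases hz with ⟨l, hl⟩ | ⟨j, w, hw, hz⟩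
    · refine le_add_right (le_trans ?_ (mul_le_mul_right (Finset.single_le_sum
        (f := fun l => ENNReal.ofReal (Real.exp (opn (gue (WithLp.toLp 2 z) l) / 4)))
        (fun _ _ => zero_le) (Finset.mem_univ l)) _))
      rw [← ENNReal.ofReal_mul (by positivity), Pi.one_apply, ENNReal.one_le_ofReal,
        le_inv_mul_iff₀ (by positivity), mul_one, ← Real.log_le_iff_le_exp (by positivity)]
      linarith
    · refine le_add_left (le_trans ?_ (mul_le_mul_right (Finset.single_le_sum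
        (f := fun q : κ × List (β ⊕ κ) => ENNReal.ofReal (‖ez z (Dp x q.1 q.2)‖ ^ 2))
        (fun _ _ => zero_le) (show (j, w) ∈ T by simpa [T] using hw)) _))
      rw [← ENNReal.ofReal_mul (by positivity), Pi.one_apply, ENNReal.one_le_ofReal,
        le_inv_mul_iff₀ (by positivity), mul_one]
      gcongr
  have hgood : 2⁻¹ ≤ gam _ S := by
    have h1 := measure_add_measure_compl (μ := gam _) hS.measurableSet
    rw [measure_univ, ← ENNReal.inv_two_add_inv_two] at h1
    exact ENNReal.le_of_add_le_add_right (a := 2⁻¹) (by simp)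
      (h1.symm.le.trans (add_le_add le_rfl hbad))
  have h1 := hgood.trans (pi_gauss_le _ hS.measurableSet)
  have h2 : 1 ≤ volume S := by
    rwa [← ENNReal.mul_le_mul_iff_right (a := 2⁻¹) (by simp) (by simp), mul_one]
  refine h2.trans (le_trans (le_of_eq ?_)
    ((PiLp.volume_preserving_toLp (κ × (Fin d × Fin d))).measure_preimage_le _))
  congr 1
  ext z
  simp only [S, ez_Dp, Set.mem_setOf_eq, Set.mem_preimage]

end Crest.Agent.FE
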