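import Crest.Agent.FE.Herm

/-! Exponential moment of the operator norm of a GUE matrix. -/

set_option autoImplicit false
open Crest.OpAlg MeasureTheory Filter Topology ProbabilityTheory
open scoped ENNReal Matrix.Norms.L2Operator

namespace Crest.Agent.FE
namespace Rn
open Hm

variable {d : ℕ}

lemma exists_net (V : Type) [NormedAddCommGroup V] [NormedSpace ℝ V] [FiniteDimensional ℝ V] :
    ∃ P : Finset V, P.card ≤ 5 ^ Module.finrank ℝ V ∧ (∀ x ∈ P, ‖x‖ ≤ 2) ∧
      ∀ y, ‖y‖ ≤ 2 → ∃ x ∈ P, ‖y - x‖ < 1 := by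
  classical
  let S : Set ℕ := {n | ∃ s : Finset V, s.card = n ∧ (∀ c ∈ s, ‖c‖ ≤ 2) ∧
    ∀ c ∈ s, ∀ e ∈ s, c ≠ e → 1 ≤ ‖c - e‖}
  have hb : BddAbove S := ⟨5 ^ Module.finrank ℝ V, by
    rintro _ ⟨s, rfl, h1, h2⟩; exact Besicovitch.card_le_of_separated s h1 h2⟩
  obtain ⟨s, h0, h1, h2⟩ := Nat.sSup_mem (s := S) ⟨0, ∅, by simp⟩ hb
  refine ⟨s, Besicovitch.card_le_of_separated s h1 h2, h1, fun y hy => ?_⟩
  by_contra hn
  push Not at hn
  have hy' : y ∉ s := fun h => by have := hn y h; simp at this; linarith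
  have : (insert y s).card ∈ S := ⟨insert y s, rfl, by
    intro c hc
    rcases Finset.mem_insert.1 hc with rfl | hc
    exacts [hy, h1 c hc], by
    intro c hc e he hce
    rcases Finset.mem_insert.1 hc with g | g <;> rcases Finset.mem_insert.1 he with g' | g'
    · exact absurd (g.trans g'.symm) hce
    · rw [g]; exact hn e g'
    · rw [norm_sub_rev, g']; exact hn c g
    · exact h2 c g e g' hce⟩
  have := le_csSup hb this
  rw [Finset.card_insert_of_notMem hy', h0] at this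
  omega

lemma norm_le_net {V : Type} [NormedAddCommGroup V] [InnerProductSpace ℂ V] [CompleteSpace V]
    (P : Finset V)
    (hP : ∀ y, ‖y‖ ≤ 2 → ∃ x ∈ P, ‖y - x‖ < 1) (T : V →L[ℂ] V) (c : ℝ)
    (h : ∀ x ∈ P, ∀ y ∈ P, (inner ℂ x (T y)).re ≤ c) : ‖T‖ ≤ c := by
  have key : ∀ (W : Type) [NormedAddCommGroup W] [NormedSpace ℂ W] (S : V →L[ℂ] W) (b : ℝ),
      0 ≤ b → (∀ x ∈ P, ‖S x‖ ≤ b) → ‖S‖ ≤ b := by
    intro W _ _ S b hb hS
    have : ‖S‖ ≤ (b + ‖S‖) / 2 := by
      refine ContinuousLinearMap.opNorm_le_of_unit_norm (by positivity) fun v hv => ?_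
      obtain ⟨x, hx, hvx⟩ := hP ((2 : ℂ) • v) (by simp [norm_smul, hv])
      have h1 := hS x hx
      have h2 := S.le_opNorm ((2 : ℂ) • v - x)
      have h3 := norm_le_insert' (S ((2 : ℂ) • v)) (S x)
      rw [← map_sub, map_smul, norm_smul] at h3
      have h4 : ‖S‖ * ‖(2 : ℂ) • v - x‖ ≤ ‖S‖ * 1 :=
        mul_le_mul_of_nonneg_left hvx.le (norm_nonneg _)
      simp only [Complex.norm_ofNat] at h3
      linarith
    linarith
  have hv : ∀ v : V, (∀ x ∈ P, (inner ℂ x v).re ≤ c) → ‖v‖ ≤ c := by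
    intro v hv
    rcases eq_or_ne v 0 with rfl | hv0
    · obtain ⟨x, hx, -⟩ := hP 0 (by simp)
      simpa using hv x hx
    · have hn : 0 < ‖v‖ := norm_pos_iff.2 hv0
      obtain ⟨x, hx, hvx⟩ := hP (((2 / ‖v‖ : ℝ) : ℂ) • v) (by
        rw [norm_smul, Complex.norm_real, Real.norm_of_nonneg (by positivity),
          div_mul_cancel₀ _ hn.ne'])
      have h1 := hv x hx
      have h2 : (inner ℂ (((2 / ‖v‖ : ℝ) : ℂ) • v - x) v).re ≤ 1 * ‖v‖ :=
        (Complex.re_le_norm _).trans ((norm_inner_le_norm _ _).trans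
          (mul_le_mul_of_nonneg_right hvx.le hn.le))
      rw [inner_sub_left, inner_smul_left, inner_self_eq_norm_sq_to_K, Complex.conj_ofReal,
        Complex.sub_re] at h2
      have h3 : (((2 / ‖v‖ : ℝ) : ℂ) * ((‖v‖ : ℝ) : ℂ) ^ 2).re = 2 * ‖v‖ := by
        rw [← Complex.ofReal_pow, ← Complex.ofReal_mul, Complex.ofReal_re]; field_simp
      erw [h3] at h2
      linarith
  obtain ⟨x, hx, -⟩ := hP 0 (by simp)
  exact key V T c ((norm_nonneg _).trans (hv _ fun x' hx' => h x' hx' x hx))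
    fun y hy => hv _ fun x hx => h x hx y hy

/-- coefficient vector -/
noncomputable def co (x y : EuclideanSpace ℂ (Fin d)) (p : Fin d × Fin d) : ℝ :=
  (inner ℂ x (Matrix.toEuclideanCLM (n := Fin d) (𝕜 := ℂ) (E p) y)).re

lemma inner_herm (x y : EuclideanSpace ℂ (Fin d)) (z : Fin d × Fin d → ℝ) :
    (inner ℂ x (Matrix.toEuclideanCLM (n := Fin d) (𝕜 := ℂ)
      (hermitianOfCoords (WithLp.toLp 2 z)) y)).re = ∑ p, co x y p * z p := by
  rw [herm_eq, map_sum, ContinuousLinearMap.sum_apply, inner_sum, Complex.re_sum]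
  refine Finset.sum_congr rfl fun p _ => ?_
  rw [map_smul, ContinuousLinearMap.smul_apply, inner_smul_right, Complex.re_ofReal_mul, mul_comm]
  rfl

lemma co_sq (x y : EuclideanSpace ℂ (Fin d)) : ∑ p, co x y p ^ 2 ≤ ‖x‖ ^ 2 * ‖y‖ ^ 2 := by
  let A : Matrix (Fin d) (Fin d) ℂ := fun b a => star (x a) * y b
  have h1 : ∀ p, inner ℂ x (Matrix.toEuclideanCLM (n := Fin d) (𝕜 := ℂ) (E p) y) =
      (E p * A).trace := fun p => by
    simp only [PiLp.inner_apply, Matrix.ofLp_toEuclideanCLM, Matrix.mulVec, dotProduct,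
      Matrix.trace, Matrix.diag, Matrix.mul_apply, A, RCLike.inner_apply, Finset.sum_mul]
    refine Finset.sum_congr rfl fun a _ => Finset.sum_congr rfl fun b _ => ?_
    simp only [starRingEnd_apply]; ring
  have h2 := compl1 (RingHom.id ℂ) A A.conjTranspose
  simp only [RingHom.coe_id, Matrix.map_id] at h2
  have h3 : ∀ p, (E p * A.conjTranspose).trace = star (E p * A).trace := fun p => by
    rw [← Matrix.trace_conjTranspose, Matrix.conjTranspose_mul, E_herm, Matrix.trace_mul_comm]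
  have h4 : (A * A.conjTranspose).trace = ((‖x‖ ^ 2 * ‖y‖ ^ 2 : ℝ) : ℂ) := by
    simp only [Matrix.trace, Matrix.diag, Matrix.mul_apply, Matrix.conjTranspose_apply, A,
      EuclideanSpace.norm_sq_eq, Finset.sum_mul, Finset.mul_sum]
    push_cast
    refine Finset.sum_congr rfl fun a _ => Finset.sum_congr rfl fun b _ => ?_
    rw [← Complex.mul_conj', ← Complex.mul_conj']
    simp only [star_mul', Complex.star_def, Complex.conj_conj]; ring
  have h5 := congrArg Complex.re (h2.trans h4)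
  rw [Complex.re_sum, Complex.ofReal_re] at h5
  rw [← h5]
  refine Finset.sum_le_sum fun p _ => ?_
  rw [h3, co, h1, Complex.star_def, Complex.mul_conj, Complex.ofReal_re, Complex.normSq_apply]
  nlinarith [mul_self_nonneg (E p * A).trace.im]

lemma lint_exp {I : Type} [Fintype I] (c : I → ℝ) :
    ∫⁻ z : I → ℝ, ENNReal.ofReal (Real.exp (∑ p, c p * z p))
      ∂(Measure.pi fun _ => gaussianReal 0 1) = ENNReal.ofReal (Real.exp ((∑ p, c p ^ 2) / 2)) := by
  simp_rw [Real.exp_sum]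
  rw [← ofReal_integral_eq_lintegral_ofReal
    (Integrable.fintype_prod fun p => integrable_exp_mul_gaussianReal (c p))
    (Eventually.of_forall fun x => Finset.prod_nonneg fun i _ => (Real.exp_pos _).le),
    integral_fintype_prod_eq_prod (fun p t => Real.exp (c p * t)), Finset.sum_div, Real.exp_sum]
  congr 1
  refine Finset.prod_congr rfl fun p _ => ?_
  have := congrFun (mgf_fun_id_gaussianReal (μ := 0) (v := 1)) (c p)
  simpa [mgf] using this

end Rn
open Rn Hm

theorem rmn : RMnStmt := by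
  refine ⟨2 * Real.exp 9, fun d hd => ?_⟩
  obtain ⟨P, hP1, hP2, hP3⟩ := exists_net (EuclideanSpace ℂ (Fin d))
  have hr : Module.finrank ℝ (EuclideanSpace ℂ (Fin d)) = 2 * d := by
    rw [← Module.finrank_mul_finrank ℝ ℂ, Complex.finrank_real_complex, finrank_euclideanSpace_fin]
  rw [hr] at hP1
  have hd' : (1 : ℝ) ≤ d := by exact_mod_cast hd
  have hs : 0 < Real.sqrt d := Real.sqrt_pos.2 (by linarith)
  have hs2 : Real.sqrt d * Real.sqrt d = d := Real.mul_self_sqrt (by linarith)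
  have hne : (P ×ˢ P).Nonempty := by
    obtain ⟨x, hx, -⟩ := hP3 0 (by simp)
    exact ⟨(x, x), Finset.mk_mem_product hx hx⟩
  have hpt : ∀ z : Fin d × Fin d → ℝ, ENNReal.ofReal (Real.exp
      (opn (((Real.sqrt d)⁻¹ : ℂ) • hermitianOfCoords (WithLp.toLp 2 z)) / 4)) ≤
      ENNReal.ofReal (Real.exp 9) + ENNReal.ofReal (Real.exp (9 - 9 * d)) *
        ∑ q ∈ P ×ˢ P, ENNReal.ofReal (Real.exp (∑ p, (Real.sqrt d / 4 * co q.1 q.2 p) * z p)) := by
    intro z
    obtain ⟨q, hq, hmax⟩ := (P ×ˢ P).exists_max_image (fun q => ∑ p, co q.1 q.2 p * z p) hne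
    have h1 := norm_le_net P hP3 (Matrix.toEuclideanCLM (n := Fin d) (𝕜 := ℂ)
      (hermitianOfCoords (WithLp.toLp 2 z))) _ fun x hx y hy =>
        (inner_herm x y z).trans_le (hmax (x, y) (Finset.mk_mem_product hx hy))
    set u := opn (((Real.sqrt d)⁻¹ : ℂ) • hermitianOfCoords (WithLp.toLp 2 z)) / 4 with hu
    have h2 : d * u ≤ ∑ p, (Real.sqrt d / 4 * co q.1 q.2 p) * z p := by
      have : opn (((Real.sqrt d)⁻¹ : ℂ) • hermitianOfCoords (WithLp.toLp 2 z)) =
          (Real.sqrt d)⁻¹ * ‖Matrix.toEuclideanCLM (n := Fin d) (𝕜 := ℂ)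
            (hermitianOfCoords (WithLp.toLp 2 z))‖ := by
        rw [opn, map_smul, norm_smul, norm_inv, Complex.norm_real, Real.norm_of_nonneg hs.le]
      simp only [mul_assoc, ← Finset.mul_sum]
      rw [hu, this]
      have h3 := mul_le_mul_of_nonneg_left h1 (show 0 ≤ Real.sqrt d / 4 by positivity)
      refine le_trans (le_of_eq ?_) h3
      field_simp
      rw [sq, hs2]
    rcases le_total u 9 with h | h
    · exact le_add_right (ENNReal.ofReal_le_ofReal (Real.exp_le_exp.2 h))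
    · refine le_add_left (le_trans ?_ (mul_le_mul_right
        (Finset.single_le_sum (f := fun q : EuclideanSpace ℂ (Fin d) × EuclideanSpace ℂ (Fin d) =>
          ENNReal.ofReal (Real.exp (∑ p, (Real.sqrt d / 4 * co q.1 q.2 p) * z p)))
          (fun _ _ => zero_le) hq) _))
      rw [← ENNReal.ofReal_mul (Real.exp_pos _).le, ← Real.exp_add]
      exact ENNReal.ofReal_le_ofReal (Real.exp_le_exp.2 (by nlinarith))
  refine (lintegral_mono hpt).trans ?_
  rw [lintegral_add_left measurable_const, lintegral_const, measure_univ, mul_one,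
    lintegral_const_mul' _ _ ENNReal.ofReal_ne_top,
    lintegral_finset_sum _ fun q _ => by fun_prop, two_mul,
    ENNReal.ofReal_add (Real.exp_pos _).le (Real.exp_pos _).le]
  refine add_le_add le_rfl ?_
  simp only [lint_exp]
  have h1 : ∑ q ∈ P ×ˢ P, ENNReal.ofReal (Real.exp
      ((∑ p, (Real.sqrt d / 4 * co q.1 q.2 p) ^ 2) / 2)) ≤
        (P ×ˢ P).card • ENNReal.ofReal (Real.exp d) := by
    refine Finset.sum_le_card_nsmul _ _ _ fun q hq => ENNReal.ofReal_le_ofReal
      (Real.exp_le_exp.2 ?_)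
    obtain ⟨h1, h2⟩ := Finset.mem_product.1 hq
    simp only [mul_pow, ← Finset.mul_sum]
    have h3 := co_sq q.1 q.2
    have h4 : ‖q.1‖ ^ 2 * ‖q.2‖ ^ 2 ≤ 2 ^ 2 * 2 ^ 2 := by gcongr; exacts [hP2 _ h1, hP2 _ h2]
    have h5 : (Real.sqrt d / 4) ^ 2 = d / 16 := by rw [div_pow, sq, hs2]; norm_num
    rw [h5]; nlinarith
  refine (mul_le_mul_right h1 _).trans ?_
  rw [nsmul_eq_mul, ← ENNReal.ofReal_natCast, ← ENNReal.ofReal_mul (by positivity),
    ← ENNReal.ofReal_mul (Real.exp_pos _).le]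
  refine ENNReal.ofReal_le_ofReal ?_
  have h2 : ((P ×ˢ P).card : ℝ) ≤ Real.exp (8 * d) := by
    have h3 : (P.card : ℝ) ≤ Real.exp (4 * d) := by
      have h4 : (5 : ℝ) ≤ Real.exp 2 := by
        have := Real.add_one_le_exp (1 : ℝ)
        have h := Real.exp_one_gt_d9
        rw [show (2 : ℝ) = 1 + 1 by norm_num, Real.exp_add]; nlinarith
      calc (P.card : ℝ) ≤ 5 ^ (2 * d) := by exact_mod_cast hP1
        _ ≤ Real.exp 2 ^ (2 * d) := by gcongr
        _ = _ := by rw [← Real.exp_nat_mul]; congr 1; push_cast; ring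
    rw [Finset.card_product, show (8 * d : ℝ) = 4 * d + 4 * d by ring, Real.exp_add]
    push_cast
    gcongr
  calc _ ≤ Real.exp (9 - 9 * d) * (Real.exp (8 * d) * Real.exp d) := by gcongr
    _ = _ := by rw [← Real.exp_add, ← Real.exp_add]; congr 1; ring

end Crest.Agent.FE
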