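import Crest.Agent.FE.Poly
import Crest.Agent.FE.Herm

/-! (T) transfer of the block structure to microstates. -/

set_option autoImplicit false
open Crest.OpAlg Filter Topology Finset
open scoped Matrix.Norms.L2Operator

namespace Crest.Agent.FE.Tt
open Po Hd

lemma one_le {B : Type*} [CStarAlgebra B] : ‖(1 : B)‖ ≤ 1 := by
  nontriviality B
  rw [norm_one]

lemma approx {B : Type*} [CStarAlgebra B] {x : B} (hx : IsSelfAdjoint x) {K ε : ℝ} (hK : ‖x‖ ≤ K)
    (hε : 0 < ε) (p : Polynomial ℝ) {g : ℝ → ℝ} (hg : Continuous g)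
    (h : ∀ t ∈ Set.Icc (-K) K, |p.eval t - g t| < ε) : ‖Polynomial.aeval x p - cfc g x‖ ≤ ε := by
  nontriviality B using hε.le
  rw [← cfc_polynomial p x, ← cfc_sub (fun t => p.eval t) g x]
  refine norm_cfc_le hε.le fun t ht => (h t (abs_le.1 ?_)).le
  exact (spectrum.norm_le_norm_of_mem ht).trans hK

section conv
variable {n : ℕ} {A : Type} [CStarAlgebra A] (Z : Fin n → A) {I : Type} (𝓕 : Filter I)
  {B : I → Type} [∀ i, CStarAlgebra (B i)] (M : ∀ i, Fin n → B i)

/-- simultaneous approximation by polynomials -/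
def Conv (b : ∀ i, B i) (a : A) : Prop :=
  ∀ ε > 0, ∃ P : NCPoly n, ‖pe Z P - a‖ ≤ ε ∧ ∀ᶠ i in 𝓕, ‖pe (M i) P - b i‖ ≤ ε

lemma Conv.poly (P : NCPoly n) : Conv Z 𝓕 M (fun i => pe (M i) P) (pe Z P) :=
  fun ε hε => ⟨P, by simp [hε.le], .of_forall fun i => by simp [hε.le]⟩

variable {Z 𝓕 M} {R : ℝ} (hR : ∀ᶠ i in 𝓕, ∀ l, ‖M i l‖ ≤ R)
include hR

lemma bdd (P : NCPoly n) : ∃ K, ∀ᶠ i in 𝓕, ‖pe (M i) P‖ ≤ K := by
  induction P using MonoidAlgebra.induction_linear with
  | zero => exact ⟨0, by simp⟩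
  | add P Q hP hQ =>
    obtain ⟨K, hK⟩ := hP
    obtain ⟨K', hK'⟩ := hQ
    refine ⟨K + K', ?_⟩
    filter_upwards [hK, hK'] with i h1 h2
    rw [map_add]
    exact norm_add_le_of_le h1 h2
  | single w c =>
    refine ⟨‖c‖ * |R| ^ (FreeMonoid.toList w).length, hR.mono fun i hi => ?_⟩
    rw [pe_single, norm_smul]
    refine mul_le_mul_of_nonneg_left ?_ (norm_nonneg _)
    induction FreeMonoid.toList w with
    | nil => simpa [ev] using one_le
    | cons l w ih =>
      rw [ev_cons, List.length_cons, pow_succ']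
      exact (norm_mul_le _ _).trans (mul_le_mul ((hi l).trans (le_abs_self R)) ih (norm_nonneg _)
        (abs_nonneg R))

lemma Conv.bdd {b : ∀ i, B i} {a : A} (h : Conv Z 𝓕 M b a) :
    ∃ K, 0 ≤ K ∧ ‖a‖ ≤ K ∧ ∀ᶠ i in 𝓕, ‖b i‖ ≤ K := by
  obtain ⟨P, -, h1⟩ := h 1 one_pos
  obtain ⟨K, hK⟩ := Tt.bdd hR P
  refine ⟨max ‖a‖ (K + 1), (norm_nonneg a).trans (le_max_left _ _), le_max_left _ _, ?_⟩
  filter_upwards [h1, hK] with i h1 h2
  have := norm_sub_le (pe (M i) P) (pe (M i) P - b i)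
  rw [sub_sub_cancel] at this
  exact le_max_of_le_right (by linarith)

omit hR in
lemma mul_est {C : Type*} [NormedRing C] {x x' y y' : C} {K δ : ℝ} (h1 : ‖x - y‖ ≤ δ)
    (h2 : ‖x' - y'‖ ≤ δ) (h3 : ‖y‖ ≤ K) (h4 : ‖y'‖ ≤ K) (h5 : δ ≤ 1) :
    ‖x * x' - y * y'‖ ≤ δ * (2 * K + 1) := by
  have e : x * x' - y * y' = (x - y) * (x' - y') + (x - y) * y' + y * (x' - y') := by
    noncomm_ring
  have δ0 : 0 ≤ δ := (norm_nonneg _).trans h1
  have K0 : 0 ≤ K := (norm_nonneg _).trans h3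
  rw [e]
  calc _ ≤ δ * 1 + δ * K + K * δ := by
        refine norm_add₃_le.trans (add_le_add (add_le_add ?_ ?_) ?_) <;>
          refine (norm_mul_le _ _).trans (mul_le_mul ‹_› ?_ (norm_nonneg _) ‹_›)
        exacts [h2.trans h5, h4, h2]
    _ = _ := by ring

lemma Conv.mul {b b' : ∀ i, B i} {a a' : A} (h : Conv Z 𝓕 M b a) (h' : Conv Z 𝓕 M b' a') :
    Conv Z 𝓕 M (fun i => b i * b' i) (a * a') := by
  intro ε hε
  obtain ⟨K, K0, hK, hb⟩ := h.bdd hR
  obtain ⟨K', K0', hK', hb'⟩ := h'.bdd hR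
  set δ := min 1 (ε / (2 * (K + K') + 1)) with hδ
  have δ0 : 0 < δ := lt_min one_pos (by positivity)
  have δ1 : δ * (2 * (K + K') + 1) ≤ ε := (le_div_iff₀ (by positivity)).1 (min_le_right _ _)
  obtain ⟨P, h1, h2⟩ := h δ δ0
  obtain ⟨P', h1', h2'⟩ := h' δ δ0
  refine ⟨P * P', ?_, ?_⟩
  · rw [map_mul]
    exact (mul_est h1 h1' (by linarith) (by linarith) (min_le_left _ _)).trans δ1
  · filter_upwards [h2, h2', hb, hb'] with i a1 a2 a3 a4
    rw [map_mul]
    exact (mul_est a1 a2 (by linarith) (by linarith) (min_le_left _ _)).trans δ1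

lemma Conv.cfc (f : NCPoly n) (h1 : IsSelfAdjoint (pe Z f)) (h2 : ∀ i, IsSelfAdjoint (pe (M i) f))
    {g : ℝ → ℝ} (hg : Continuous g) :
    Conv Z 𝓕 M (fun i => cfc g (pe (M i) f)) (cfc g (pe Z f)) := by
  intro ε hε
  obtain ⟨K, -, hK, hb⟩ := (Conv.poly Z 𝓕 M f).bdd hR
  obtain ⟨p, hp⟩ := exists_polynomial_near_of_continuousOn (-K) K g hg.continuousOn ε hε
  refine ⟨Polynomial.aeval f p, ?_, hb.mono fun i hi => ?_⟩
  · have := Polynomial.aeval_algHom_apply ((pe Z).restrictScalars ℝ) f p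
    simp only [AlgHom.restrictScalars_apply] at this
    rw [← this]
    exact approx h1 hK hε p hg hp
  · have := Polynomial.aeval_algHom_apply ((pe (M i)).restrictScalars ℝ) f p
    simp only [AlgHom.restrictScalars_apply] at this
    rw [← this]
    exact approx (h2 i) hi hε p hg hp

omit hR in
lemma Conv.tendsto {τ : A →ₗ[ℂ] ℂ} (hτ : ∀ a, ‖τ a‖ ≤ ‖a‖) {φ : ∀ i, B i →ₗ[ℂ] ℂ}
    (hφ : ∀ i b, ‖φ i b‖ ≤ ‖b‖)
    (hw : ∀ w, Tendsto (fun i => φ i (wordEval (M i) w)) 𝓕 (𝓝 (τ (wordEval Z w))))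
    {b : ∀ i, B i} {a : A} (h : Conv Z 𝓕 M b a) : Tendsto (fun i => φ i (b i)) 𝓕 (𝓝 (τ a)) := by
  have hP : ∀ P : NCPoly n, Tendsto (fun i => φ i (pe (M i) P)) 𝓕 (𝓝 (τ (pe Z P))) := by
    intro P
    induction P using MonoidAlgebra.induction_linear with
    | zero => simpa using tendsto_const_nhds
    | add P Q hP hQ => simpa only [map_add] using hP.add hQ
    | single w c =>
      simp only [pe, MonoidAlgebra.lift_single, map_smul]
      exact (hw w).const_smul c
  rw [Metric.tendsto_nhds]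
  intro ε hε
  obtain ⟨P, h1, h2⟩ := h (ε / 3) (by positivity)
  filter_upwards [h2, Metric.tendsto_nhds.1 (hP P) (ε / 3) (by positivity)] with i a1 a2
  have a3 := (hφ i _).trans a1
  have a4 := (hτ _).trans h1
  rw [map_sub, ← dist_eq_norm] at a3 a4
  linarith [dist_triangle4 (φ i (b i)) (φ i (pe (M i) P)) (τ (pe Z P)) (τ a),
    dist_comm (φ i (b i)) (φ i (pe (M i) P))]

end conv

section mat
variable {d : ℕ}

lemma herm {n : ℕ} (a : EuclideanSpace ℝ (Fin n × (Fin d × Fin d))) (l : Fin n) :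
    star (matrixTuple a l) = matrixTuple a l := by
  simp only [matrixTuple, Hm.herm_eq, star_sum, star_smul, Matrix.star_eq_conjTranspose, Hm.E_herm,
    Complex.star_def, Complex.conj_ofReal]

lemma tr_quad {N : Matrix (Fin d) (Fin d) ℂ} (hN : star N = N) (u : Fin d → ℝ) :
    (Matrix.diagonal (fun x => (u x : ℂ)) * N * Matrix.diagonal (fun x => (u x : ℂ)) * N).trace.re =
      ∑ x, ∑ y, u x * u y * ‖N x y‖ ^ 2 := by
  simp only [Matrix.trace, Matrix.diag_apply, Complex.re_sum]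
  refine sum_congr rfl fun x _ => ?_
  rw [Matrix.mul_apply, Complex.re_sum]
  refine sum_congr rfl fun y _ => ?_
  have : N y x = (starRingEnd ℂ) (N x y) := by
    conv_lhs => rw [← hN]
    rfl
  rw [Matrix.mul_diagonal, Matrix.diagonal_mul, this,
    show ∀ a b c e : ℂ, a * b * c * e = a * c * (b * e) from fun _ _ _ _ => by ring,
    Complex.mul_conj', ← Complex.ofReal_pow, ← Complex.ofReal_mul, ← Complex.ofReal_mul,
    Complex.ofReal_re]

lemma tr_sq {N : Matrix (Fin d) (Fin d) ℂ} (hN : star N = N) :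
    (N * N).trace.re = ∑ x, ∑ y, ‖N x y‖ ^ 2 := by
  simpa using tr_quad hN fun _ => 1

lemma ntr_re (X : Matrix (Fin d) (Fin d) ℂ) : (ntr d X).re = X.trace.re / d := by
  rw [Hm.ntr_apply, ← Complex.ofReal_natCast, ← Complex.ofReal_inv, Complex.re_ofReal_mul,
    inv_mul_eq_div]

lemma hat_mem (L : ℝ) (j : ℕ) (s : ℝ) : 0 ≤ hat L j s ∧ hat L j s ≤ 1 :=
  ⟨le_max_left _ _, max_le zero_le_one (min_le_left _ _)⟩

lemma hat_lt {L : ℝ} (hL : 0 < L) {j : ℕ} {s : ℝ} (h : hat L j s ≠ 0) : |s - j * L| < L / 2 := by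
  by_contra hn
  refine h (max_eq_left (min_le_of_right_le ?_))
  rw [sub_nonpos, le_div_iff₀ hL]
  linarith

lemma hat_uniq {L : ℝ} (hL : 0 < L) {j l : ℕ} {s : ℝ} (h : hat L j s ≠ 0) (h' : hat L l s ≠ 0) :
    j = l := by
  have h1 := abs_lt.1 (hat_lt hL h)
  have h2 := abs_lt.1 (hat_lt hL h')
  have a : (j : ℝ) < l + 1 := by nlinarith
  have b : (l : ℝ) < j + 1 := by nlinarith
  have a' : j < l + 1 := by exact_mod_cast a
  have b' : l < j + 1 := by exact_mod_cast b
  omega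

lemma blocky {N k : ℕ} (hk : 0 < k) (hd : 0 < d) {L E T : ℝ} (hL : 0 < L)
    (a : EuclideanSpace ℝ (Fin (N + 1) × (Fin d × Fin d))) {C : Matrix (Fin d) (Fin d) ℂ}
    (hC : C.IsHermitian)
    (h1 : ∀ j : Fin k, 1 - ∑ l ∈ univ.erase j, (ntr d (hC.cfc (hat L l))).re < 2 / k)
    (h2 : ∑ i : Fin N, (ntr d (matrixTuple a i.succ * matrixTuple a i.succ) -
      ∑ j : Fin k, ntr d (hC.cfc (hat L j) * matrixTuple a i.succ * hC.cfc (hat L j) *
        matrixTuple a i.succ)).re < E)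
    (h3 : ∑ l, (ntr d (matrixTuple a l * matrixTuple a l)).re < T) : a ∈ Blocky N k d E T := by
  classical
  have d0 : (0 : ℝ) < d := by exact_mod_cast hd
  set U : Matrix (Fin d) (Fin d) ℂ := ↑hC.eigenvectorUnitary with hU
  have U1 : star U * U = 1 := hC.eigenvectorUnitary.2.1
  have U2 : U * star U = 1 := hC.eigenvectorUnitary.2.2
  set h : Fin k → Fin d → ℝ := fun j x => hat L j (hC.eigenvalues x) with hh
  have eC : ∀ j : Fin k, hC.cfc (hat L j) = U * Matrix.diagonal (fun x => (h j x : ℂ)) * star U :=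
    fun j => rfl
  let cl : Fin d → Fin k := fun x => if e : ∃ j, h j x ≠ 0 then e.choose else ⟨0, hk⟩
  have hcl : ∀ j x, h j x ≤ if cl x = j then 1 else 0 := fun j x => by
    by_cases e : h j x = 0
    · rw [e]; split_ifs <;> norm_num
    · have e' : ∃ j, h j x ≠ 0 := ⟨j, e⟩
      rw [if_pos]
      · exact (hat_mem _ _ _).2
      · simp only [cl, dif_pos e']
        exact Fin.ext (hat_uniq hL e'.choose_spec e)
  refine ⟨?_, U, hC.eigenvectorUnitary.2, cl, fun j => ?_, ?_⟩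
  · simp only [ntr_re, tr_sq (herm a _), ← sum_div] at h3
    exact ((div_lt_iff₀ d0).1 h3).le
  · have e1 : ∀ l : Fin k, (ntr d (hC.cfc (hat L l))).re = (∑ x, h l x) / d := fun l => by
      rw [ntr_re, eC, Matrix.trace_mul_cycle, U1, one_mul, Matrix.trace_diagonal, Complex.re_sum]
      simp only [Complex.ofReal_re]
    have e2 := h1 j
    simp only [e1, ← sum_div] at e2
    have e3 : ∑ l ∈ univ.erase j, ∑ x, h l x ≤ ∑ x, if cl x = j then (0 : ℝ) else 1 := by
      rw [sum_comm]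
      refine sum_le_sum fun x _ => (sum_le_sum fun l _ => hcl l x).trans ?_
      rw [sum_ite_eq]
      by_cases e : cl x = j <;> simp [e]
    have e4 : ((univ.filter fun x => cl x = j).card : ℝ) +
        ∑ x, (if cl x = j then (0 : ℝ) else 1) = d := by
      rw [card_filter, Nat.cast_sum, ← sum_add_distrib]
      calc _ = ∑ _x : Fin d, (1 : ℝ) := sum_congr rfl fun x _ => by split_ifs <;> simp
        _ = d := by simp
    have e5 := mul_lt_mul_of_pos_right e2 d0
    rw [sub_mul, div_mul_cancel₀ _ d0.ne', div_mul_eq_mul_div] at e5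
    linarith
  · refine le_trans ?_ (mul_le_mul_of_nonneg_right h2.le d0.le)
    rw [sum_mul]
    refine sum_le_sum fun i _ => ?_
    set X := matrixTuple a i.succ with hX
    have sN : star (star U * X * U) = star U * X * U := by
      rw [star_mul, star_mul, star_star, hX, herm, mul_assoc]
    have e1 : (X * X).trace = (star U * X * U * (star U * X * U)).trace := by
      rw [mul_assoc (star U * X), ← mul_assoc U, ← mul_assoc U, U2, one_mul, ← mul_assoc,
        Matrix.trace_mul_comm _ U, ← mul_assoc, ← mul_assoc, U2, one_mul]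
    have e2 : ∀ D : Matrix (Fin d) (Fin d) ℂ, (U * D * star U * X * (U * D * star U) * X).trace =
        (D * (star U * X * U) * D * (star U * X * U)).trace := fun D => by
      simp only [mul_assoc]
      rw [Matrix.trace_mul_comm U]
      simp only [mul_assoc]
    simp only [Complex.sub_re, Complex.re_sum, ntr_re, eC, e1, e2, tr_quad sN, tr_sq sN, ← sum_div,
      ← sub_div, div_mul_cancel₀ _ d0.ne']
    rw [sum_comm (s := (univ : Finset (Fin k))), ← sum_sub_distrib]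
    refine sum_le_sum fun x _ => ?_
    rw [sum_comm (s := (univ : Finset (Fin k))), ← sum_sub_distrib]
    refine sum_le_sum fun y _ => ?_
    have e3 : ∑ j, h j x * h j y ≤ if cl x = cl y then 1 else 0 := by
      calc _ ≤ ∑ j, (if cl x = j then (1 : ℝ) else 0) * (if cl y = j then 1 else 0) :=
            sum_le_sum fun j _ => mul_le_mul (hcl j x) (hcl j y) (hat_mem _ _ _).1
              (by split_ifs <;> norm_num)
        _ = _ := by simp [eq_comm]
    have e4 := mul_le_mul_of_nonneg_right e3 (sq_nonneg ‖(star U * X * U) x y‖)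
    rw [← sum_mul]
    split_ifs at e4 ⊢ <;> linarith

end mat

end Crest.Agent.FE.Tt

namespace Crest.Agent.FE
open Tt Po

theorem tr_ : TStmt := by
  intro A _ τ N k Z f L E T hτ hk hL hZ hf h1 h2 h3 R
  let I := Σ d : ℕ, EuclideanSpace ℝ (Fin (N + 1) × (Fin d × Fin d))
  let 𝓕 : Filter I :=
    { sets := {s | ∃ (m : ℕ) (ε : ℝ), 0 < ε ∧ ∀ d : ℕ, 0 < d →
        ∀ a ∈ microstates τ Z R m d ε, (⟨d, a⟩ : I) ∈ s}
      univ_sets := ⟨0, 1, one_pos, fun _ _ _ _ => trivial⟩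
      sets_of_superset := fun ⟨m, ε, h, h'⟩ hs => ⟨m, ε, h, fun d hd a ha => hs (h' d hd a ha)⟩
      inter_sets := fun ⟨m, ε, h, h'⟩ ⟨m', ε', g, g'⟩ => ⟨max m m', min ε ε', lt_min h g,
        fun d hd a ha =>
          ⟨h' d hd a ⟨ha.1, fun w hw => (ha.2 w (hw.trans (le_max_left _ _))).trans_le
            (min_le_left _ _)⟩,
          g' d hd a ⟨ha.1, fun w hw => (ha.2 w (hw.trans (le_max_right _ _))).trans_le
            (min_le_right _ _)⟩⟩⟩ }
  let M : ∀ i : I, Fin (N + 1) → Matrix (Fin i.1) (Fin i.1) ℂ := fun i => matrixTuple i.2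
  have hR : ∀ᶠ i in 𝓕, ∀ l, ‖M i l‖ ≤ R := ⟨0, 1, one_pos, fun _ _ _ ha => ha.1⟩
  have hd : ∀ᶠ i in 𝓕, 0 < i.1 := ⟨0, 1, one_pos, fun _ hd _ _ => hd⟩
  have hw : ∀ w, Tendsto (fun i : I => ntr i.1 (wordEval (M i) w)) 𝓕 (𝓝 (τ (wordEval Z w))) :=
    fun w => Metric.tendsto_nhds.2 fun ε hε => ⟨(FreeMonoid.toList w).length, ε, hε,
      fun d _ a ha => by
        have := ha.2 w le_rfl
        rw [← dist_eq_norm] at this
        exact this⟩
  have s1 : IsSelfAdjoint (pe Z f) := (star_pe Z hZ f).trans (by rw [hf])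
  have s2 : ∀ i, IsSelfAdjoint (pe (M i) f) := fun i => (star_pe _ (herm i.2) f).trans (by rw [hf])
  have hc : ∀ j : ℕ, Continuous (hat L j) := fun j => by unfold hat; fun_prop
  have cq := fun j : ℕ => Conv.cfc hR f s1 s2 (hc j)
  have cz : ∀ l, Conv Z 𝓕 M (fun i => M i l) (Z l) := fun l => by
    simpa only [pe_XX] using Conv.poly Z 𝓕 M (XX l)
  have td := fun {b} {a} (h : Conv Z 𝓕 M b a) =>
    Conv.tendsto hτ (φ := fun i : I => ntr i.1) (fun i => Hm.ntr_le) hw h
  have re := fun {b} {a} (h : Conv Z 𝓕 M b a) => (Complex.continuous_re.tendsto _).comp (td h)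
  have e1 := eventually_all.2 fun j : Fin k => (tendsto_const_nhds.sub
    (tendsto_finset_sum (univ.erase j) fun (l : Fin k) _ => re (cq l))).eventually
      (gt_mem_nhds (h1 j))
  have e2 := (tendsto_finset_sum univ fun (i : Fin N) _ =>
    (Complex.continuous_re.tendsto _).comp ((td ((cz i.succ).mul hR (cz i.succ))).sub
      (tendsto_finset_sum univ fun (j : Fin k) _ => td
        ((((cq j).mul hR (cz i.succ)).mul hR (cq j)).mul hR (cz i.succ))))).eventually
      (gt_mem_nhds h2)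
  have e3 := (tendsto_finset_sum univ fun (l : Fin (N + 1)) _ =>
    re ((cz l).mul hR (cz l))).eventually (gt_mem_nhds h3)
  have : ∀ᶠ i in 𝓕, i.2 ∈ Blocky N k i.1 E T := by
    filter_upwards [hd, e1, e2, e3] with i hd e1 e2 e3
    have hC : (pe (M i) f).IsHermitian := s2 i
    have eq : ∀ g : ℝ → ℝ, cfc g (pe (M i) f) = hC.cfc g := hC.cfc_eq
    simp only [Function.comp_apply, eq] at e1 e2 e3
    exact blocky hk hd hL i.2 hC e1 e2 e3
  obtain ⟨m, ε, hε, h⟩ := this
  exact ⟨m, ε, hε, fun d hd a ha => h d hd a ha⟩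

end Crest.Agent.FE
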