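import Crest.Agent.FE.Defs

/-! (UL) ultralimits of bounded Hermitian matrix families. -/

set_option autoImplicit false
open Crest.OpAlg MeasureTheory Filter Topology
open scoped ENNReal InnerProductSpace ComplexOrder

namespace Crest.Agent.FE

namespace ULa

/-- every tracial state factors through a faithful one -/
theorem exists_faithful {B : Type} [CStarAlgebra B] (ω : B →ₗ[ℂ] ℂ) (h1 : ω 1 = 1)
    (hp : ∀ a : B, 0 ≤ ω (star a * a)) (ht : ∀ a b : B, ω (a * b) = ω (b * a)) :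
    ∃ (A : Type) (_ : CStarAlgebra A) (τ : A →ₗ[ℂ] ℂ) (π : B →⋆ₐ[ℂ] A),
      IsFaithfulTracialState τ ∧ ∀ b, τ (π b) = ω b := by
  let _ : PartialOrder B := CStarAlgebra.spectralOrder B
  have : StarOrderedRing B := CStarAlgebra.spectralOrderedRing B
  let f : B →ₚ[ℂ] ℂ := PositiveLinearMap.mk₀ ω fun x hx => by
    obtain ⟨y, rfl⟩ := (CStarAlgebra.nonneg_iff_eq_star_mul_self (a := x)).1 hx
    exact hp y
  have hf : ∀ b, f b = ω b := fun b => rfl
  let σ := f.gnsStarAlgHom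
  let o : f.GNS := ((f.toPreGNS 1 : f.PreGNS) : f.GNS)
  have hσ : ∀ b, σ b o = ((f.toPreGNS b : f.PreGNS) : f.GNS) := fun b => by
    change f.gnsNonUnitalStarAlgHom b _ = _
    rw [PositiveLinearMap.gnsNonUnitalStarAlgHom_apply_coe]
    congr 1
    simp
  have ho : ∀ b, ⟪o, σ b o⟫_ℂ = ω b := fun b => by
    rw [hσ, UniformSpace.Completion.inner_coe, PositiveLinearMap.preGNS_inner_def]
    simp [hf]
  let A : StarSubalgebra ℂ (f.GNS →L[ℂ] f.GNS) := σ.range.topologicalClosure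
  have hA : IsClosed (A : Set (f.GNS →L[ℂ] f.GNS)) := StarSubalgebra.isClosed_topologicalClosure _
  have hmem : ∀ b, σ b ∈ A := fun b => StarSubalgebra.le_topologicalClosure _ ⟨b, rfl⟩
  have hind : ∀ (p : (f.GNS →L[ℂ] f.GNS) → Prop), IsClosed {x | p x} → (∀ b, p (σ b)) →
      ∀ x ∈ A, p x := fun p hc hb x hx =>
    closure_minimal (t := {x | p x}) (by rintro _ ⟨b, rfl⟩; exact hb b) hc hx
  have htr : ∀ x ∈ A, ∀ y ∈ A, ⟪o, (x * y) o⟫_ℂ = ⟪o, (y * x) o⟫_ℂ := by
    intro x hx y hy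
    refine hind (fun x => ⟪o, (x * y) o⟫_ℂ = ⟪o, (y * x) o⟫_ℂ)
      (isClosed_eq (by fun_prop) (by fun_prop)) (fun a => ?_) x hx
    refine hind (fun y => ⟪o, (σ a * y) o⟫_ℂ = ⟪o, (y * σ a) o⟫_ℂ)
      (isClosed_eq (by fun_prop) (by fun_prop)) (fun b => ?_) y hy
    rw [← map_mul, ← map_mul, ho, ho, ht]
  have hsq : ∀ x : f.GNS →L[ℂ] f.GNS, ⟪o, (star x * x) o⟫_ℂ = ⟪x o, x o⟫_ℂ := fun x => by
    rw [mul_apply_eq_comp, ContinuousLinearMap.star_eq_adjoint,
      ContinuousLinearMap.adjoint_inner_right]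
  let τ : A →ₗ[ℂ] ℂ :=
    { toFun := fun x => ⟪o, x.1 o⟫_ℂ
      map_add' := fun x y => by simp [inner_add_right]
      map_smul' := fun c x => by simp [inner_smul_right] }
  have hτ : ∀ x : A, τ x = ⟪o, x.1 o⟫_ℂ := fun x => rfl
  refine ⟨A, inferInstance, τ, σ.codRestrict A hmem, ⟨?_, fun a => ?_, fun a ha => ?_,
    fun a b => htr _ a.2 _ b.2⟩, ho⟩
  · have := ho 1
    rw [map_one, h1] at this
    exact this
  · have : τ (star a * a) = ⟪a.1 o, a.1 o⟫_ℂ := hsq a.1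
    rw [this]
    exact ⟨inner_self_im (𝕜 := ℂ) _, inner_self_nonneg (𝕜 := ℂ)⟩
  · have h0 : ⟪a.1 o, a.1 o⟫_ℂ = 0 := (hsq a.1).symm.trans ha
    rw [inner_self_eq_zero] at h0
    refine Subtype.ext ?_
    ext v
    induction v using UniformSpace.Completion.induction_on with
    | hp => exact isClosed_eq (by fun_prop) (by fun_prop)
    | ih c =>
      have hc : (c : f.GNS) = σ (f.ofPreGNS c) o := by rw [hσ]; rfl
      set b := f.ofPreGNS c
      have h2 := hsq (a.1 * σ b)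
      rw [star_mul, mul_assoc, htr _ (star_mem (hmem b)) _
        (mul_mem (star_mem a.2) (mul_mem a.2 (hmem b))), ← mul_assoc, mul_assoc,
        htr _ (mul_mem (star_mem a.2) a.2) _ (mul_mem (hmem b) (star_mem (hmem b)))] at h2
      simp only [mul_apply_eq_comp, h0, map_zero, inner_zero_right] at h2
      rw [eq_comm, inner_self_eq_zero] at h2
      rw [hc]
      simpa using h2

theorem entry_le {d : ℕ} (X : Matrix (Fin d) (Fin d) ℂ) (i j : Fin d) : ‖X i j‖ ≤ opn X := by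
  have h1 : (Matrix.toEuclideanCLM (n := Fin d) (𝕜 := ℂ) X (EuclideanSpace.single j 1)) i
      = X i j := by
    rw [Matrix.ofLp_toEuclideanCLM]
    simp
  rw [← h1]
  refine (PiLp.norm_apply_le _ i).trans ?_
  refine (ContinuousLinearMap.le_opNorm _ _).trans ?_
  simp [opn]

theorem ntr_le {d : ℕ} (X : Matrix (Fin d) (Fin d) ℂ) : ‖ntr d X‖ ≤ opn X := by
  have h0 : 0 ≤ opn X := norm_nonneg _
  rcases Nat.eq_zero_or_pos d with rfl | hd
  · simpa [ntr] using h0
  have h1 : ‖X.trace‖ ≤ d * opn X := by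
    refine (norm_sum_le _ _).trans ?_
    refine (Finset.sum_le_sum fun i _ => entry_le X i i).trans ?_
    simp
  have hd' : (0 : ℝ) < d := by exact_mod_cast hd
  simp only [ntr, LinearMap.smul_apply, Matrix.traceLinearMap_apply, smul_eq_mul, norm_mul,
    norm_inv, Complex.norm_natCast]
  rw [inv_mul_le_iff₀ hd']
  exact h1

noncomputable instance lpCStar {J : Type*} {A : J → Type*} [∀ i, Nontrivial (A i)]
    [∀ i, CStarAlgebra (A i)] : CStarAlgebra (lp A ∞) where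

theorem exists_prod (A : ℕ → Type) [∀ i, Nontrivial (A i)] [∀ i, CStarAlgebra (A i)] :
    ∃ (B : Type) (_ : CStarAlgebra B) (e : ∀ d, B →⋆ₐ[ℂ] A d), (∀ d b, ‖e d b‖ ≤ ‖b‖) ∧
      (∀ (x : ∀ d, A d) (C : ℝ), (∀ d, ‖x d‖ ≤ C) → ∃ b, ∀ d, e d b = x d) ∧
      ∀ b b', (∀ d, e d b = e d b') → b = b' := by
  refine ⟨lp A ∞, inferInstance, fun d =>
    { toFun := fun b => b d
      map_one' := rfl
      map_mul' := fun _ _ => rfl
      map_zero' := rfl
      map_add' := fun _ _ => rfl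
      commutes' := fun _ => rfl
      map_star' := fun _ => rfl }, fun d b => lp.norm_apply_le_norm (by simp) b d,
    fun x C h => ⟨⟨x, memℓp_infty ⟨C, ?_⟩⟩, fun d => rfl⟩, fun b b' h => lp.ext (funext h)⟩
  rintro _ ⟨d, rfl⟩
  exact h d

theorem exists_big : ∃ (B : Type) (_ : CStarAlgebra B)
    (e : ∀ d : ℕ, B →⋆ₐ[ℂ] Matrix (Fin d) (Fin d) ℂ), (∀ d b, opn (e d b) ≤ ‖b‖) ∧
      ∀ (x : ∀ d : ℕ, Matrix (Fin d) (Fin d) ℂ) (C : ℝ), (∀ d, (x d).IsHermitian) →
        (∀ d, opn (x d) ≤ C) → ∃ b, IsSelfAdjoint b ∧ ∀ d, e d b = x d := by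
  obtain ⟨B, iB, e, he, hx, hext⟩ := exists_prod fun d : ℕ =>
    (EuclideanSpace ℂ (Fin d) →L[ℂ] EuclideanSpace ℂ (Fin d)) × ℂ
  refine ⟨B, iB, fun d => ((Matrix.toEuclideanCLM (n := Fin d) (𝕜 := ℂ)).symm :
    _ →⋆ₐ[ℂ] _).comp ((StarAlgHom.fst ℂ _ ℂ).comp (e d)), fun d b => ?_, fun x C hh hC => ?_⟩
  · have : ∀ T : EuclideanSpace ℂ (Fin d) →L[ℂ] EuclideanSpace ℂ (Fin d),
        opn ((Matrix.toEuclideanCLM (n := Fin d) (𝕜 := ℂ)).symm T) = ‖T‖ := fun T => by
      rw [opn, StarAlgEquiv.apply_symm_apply]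
    exact (this (e d b).1).le.trans ((norm_fst_le _).trans (he d b))
  · obtain ⟨b, hb⟩ := hx (fun d => (Matrix.toEuclideanCLM (n := Fin d) (𝕜 := ℂ) (x d), 0)) C
      fun d => by
        rw [Prod.norm_def]
        exact max_le (hC d) (by rw [norm_zero]; exact (norm_nonneg _).trans (hC d))
    refine ⟨b, hext _ _ fun d => ?_, fun d => ?_⟩
    · rw [map_star, hb, Prod.star_def, ← map_star, star_zero, (hh d).isSelfAdjoint.star_eq]
    · change (Matrix.toEuclideanCLM (n := Fin d) (𝕜 := ℂ)).symm (e d b).1 = _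
      rw [hb, StarAlgEquiv.symm_apply_apply]

theorem exists_lim (z : ℕ → ℂ) (C : ℝ) (h : ∀ d, ‖z d‖ ≤ C) : ∃ w : ℂ,
    Tendsto z (hyperfilter ℕ : Filter ℕ) (𝓝 w) := by
  obtain ⟨w, -, hw⟩ := (isCompact_closedBall (0 : ℂ) C).ultrafilter_le_nhds
    ((hyperfilter ℕ).map z) (by
      rw [Ultrafilter.coe_map, le_principal_iff, mem_map]
      exact Eventually.of_forall fun d => by simpa using h d)
  exact ⟨w, hw⟩

end ULa

open ULa in
theorem ul : ULStmt := by
  intro Λ M hM hρ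
  obtain ⟨B, iB, e, he, hx⟩ := exists_big
  choose lm hlm using fun b : B =>
    exists_lim (fun d => ntr d (e d b)) ‖b‖ fun d => (ntr_le _).trans (he d b)
  let ω : B →ₗ[ℂ] ℂ :=
    { toFun := lm
      map_add' := fun x y => tendsto_nhds_unique (hlm (x + y)) (by
        simpa only [map_add] using (hlm x).add (hlm y))
      map_smul' := fun c x => tendsto_nhds_unique (hlm (c • x)) (by
        simpa only [map_smul, RingHom.id_apply] using (hlm x).const_smul c) }
  have hω : ∀ b, Tendsto (fun d => ntr d (e d b)) (hyperfilter ℕ : Filter ℕ) (𝓝 (ω b)) := hlm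
  have h1 : ω 1 = 1 := by
    refine tendsto_nhds_unique (hω 1) (tendsto_const_nhds.congr' ?_)
    have : ∀ᶠ d : ℕ in (hyperfilter ℕ : Filter ℕ), 0 < d :=
      (Nat.hyperfilter_le_atTop) (eventually_gt_atTop 0)
    filter_upwards [this] with d hd
    have : (d : ℂ) ≠ 0 := by exact_mod_cast hd.ne'
    rw [map_one]
    simp [ntr, this]
  have hp : ∀ a : B, 0 ≤ ω (star a * a) := fun a => by
    refine ge_of_tendsto' (hω _) fun d => ?_
    rw [map_mul, map_star]
    simp only [ntr, LinearMap.smul_apply, Matrix.traceLinearMap_apply, smul_eq_mul]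
    refine mul_nonneg (inv_nonneg.2 (Nat.cast_nonneg _)) ?_
    exact (Matrix.posSemidef_conjTranspose_mul_self _).trace_nonneg
  have ht : ∀ a b : B, ω (a * b) = ω (b * a) := fun a b => by
    refine tendsto_nhds_unique (hω _) ?_
    have := hω (b * a)
    simp only [map_mul, ntr, LinearMap.smul_apply, Matrix.traceLinearMap_apply] at this ⊢
    simpa only [Matrix.trace_mul_comm (e _ a)] using this
  obtain ⟨A, iA, τ, π, hτ, hπ⟩ := exists_faithful ω h1 hp ht
  choose ρ hρ using hρ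
  choose a0 hsa ha0 using fun l => hx (fun d => M d l) (ρ l) (fun d => hM d l) (hρ l)
  refine ⟨A, iA, τ, fun l => π (a0 l), hτ, fun l => (hsa l).map π, fun P => ?_⟩
  have e1 : FreeAlgebra.lift ℂ (fun l => π (a0 l)) P = π (FreeAlgebra.lift ℂ a0 P) := by
    have : FreeAlgebra.lift ℂ (fun l => π (a0 l)) =
        (π : B →ₐ[ℂ] A).comp (FreeAlgebra.lift ℂ a0) := by
      ext l; simp
    rw [this]; rfl
  have e2 : ∀ d, FreeAlgebra.lift ℂ (M d) P = e d (FreeAlgebra.lift ℂ a0 P) := fun d => by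
    have : FreeAlgebra.lift ℂ (M d) =
        (e d : B →ₐ[ℂ] _).comp (FreeAlgebra.lift ℂ a0) := by
      ext l : 2; simp [ha0]
    rw [this]; rfl
  rw [e1, hπ]
  simpa only [e2] using hω _

end Crest.Agent.FE
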