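import Crest.Agent.FE.Defs

/-! From volumes to the microstates entropy. -/

set_option autoImplicit false
open Crest.OpAlg MeasureTheory Filter Topology

namespace Crest.Agent.FE

theorem up : UPStmt := by
  intro A _ _ τ n Z t b c ht h
  refine iSup₂_le fun R _ => ?_
  obtain ⟨m, ε, hε, hv⟩ := h R
  refine (iInf_le_of_le m (iInf₂_le ε hε)).trans ?_
  set x : ℝ := (n : ℝ) / 2 * Real.log (2 * Real.pi * t) + b with hx
  have hlim : Tendsto (fun d : ℕ => ((x + c / d : ℝ) : EReal)) atTop (𝓝 (x : EReal)) := by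
    rw [EReal.tendsto_coe]
    simpa using (tendsto_const_div_atTop_nhds_zero_nat c).const_add x
  rw [← hlim.limsup_eq]
  refine limsup_le_limsup ?_
  filter_upwards [eventually_gt_atTop 0] with d hd
  have hd' : (0 : ℝ) < d := by exact_mod_cast hd
  have h1 := ENNReal.log_le_log (hv d hd)
  rw [ENNReal.log_ofReal_of_pos (Real.exp_pos _), Real.log_exp] at h1
  have h2 : (((((d : ℝ) ^ 2)⁻¹ : ℝ) : EReal) * (volume (microstates τ Z R m d ε)).log) ≤
      ((((d : ℝ) ^ 2)⁻¹ : ℝ) : EReal) * (((d : ℝ) ^ 2 *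
        ((n : ℝ) / 2 * Real.log (2 * Real.pi * t / d) + b) + d * c : ℝ) : EReal) :=
    mul_le_mul_of_nonneg_left h1 (by exact_mod_cast (by positivity : (0 : ℝ) ≤ ((d : ℝ) ^ 2)⁻¹))
  refine (add_le_add_left h2 _).trans (le_of_eq ?_)
  rw [← EReal.coe_mul, ← EReal.coe_add, hx, Real.log_div (by positivity) hd'.ne']
  congr 1
  field_simp
  ring

end Crest.Agent.FE

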