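import Crest.Agent.FE.VA

/-! (V) volume of the blocky set. -/

set_option autoImplicit false
open Crest.OpAlg MeasureTheory Filter Topology
open scoped ENNReal

namespace Crest.Agent.FE

namespace Va

variable {N k d : ℕ}

/-- indicator of the off-block coordinates -/
noncomputable def wt (cl : Fin d → Fin k) (q : Fin (N + 1) × (Fin d × Fin d)) : ℝ :=
  if q.1 = 0 then 0 else if cl q.2.1 = cl q.2.2 then 0 else 1

theorem wt_cases (cl : Fin d → Fin k) (q : Fin (N + 1) × (Fin d × Fin d)) :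
    wt cl q = 0 ∨ wt cl q = 1 := by
  unfold wt
  split_ifs <;> simp

theorem off_eq (cl : Fin d → Fin k) (U : Matrix (Fin d) (Fin d) ℂ)
    (a : EuclideanSpace ℝ (Fin (N + 1) × (Fin d × Fin d))) :
    ∑ i : Fin N, ∑ x, ∑ y, (if cl x = cl y then 0
        else ‖(star U * matrixTuple a i.succ * U) x y‖ ^ 2) = ∑ q, wt cl q * cj U a q ^ 2 := by
  rw [Fintype.sum_prod_type, Fin.sum_univ_succ]
  simp only [wt, if_true, zero_mul, Finset.sum_const_zero, zero_add, Fin.succ_ne_zero, if_false,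
    cj_apply]
  refine Finset.sum_congr rfl fun i _ => ?_
  rw [← sum_co (conj_herm U (mt_herm a i.succ)) (fun x y => if cl x = cl y then 0 else 1)
    fun x y => by simp only [eq_comm]]
  simp

/-- masking -/
noncomputable def mask (cl : Fin d → Fin k)
    (b : EuclideanSpace ℝ (Fin (N + 1) × (Fin d × Fin d))) :
    EuclideanSpace ℝ (Fin (N + 1) × (Fin d × Fin d)) := WithLp.toLp 2 fun q => wt cl q * b q

theorem mask_sq (cl : Fin d → Fin k) (b : EuclideanSpace ℝ (Fin (N + 1) × (Fin d × Fin d))) :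
    ‖mask cl b‖ ^ 2 = ∑ q, wt cl q * b q ^ 2 := by
  rw [EuclideanSpace.real_norm_sq_eq]
  refine Finset.sum_congr rfl fun q _ => ?_
  rcases wt_cases cl q with h | h <;> simp [mask, h]

theorem mask_le (cl : Fin d → Fin k) (b c : EuclideanSpace ℝ (Fin (N + 1) × (Fin d × Fin d))) :
    ‖mask cl b‖ ≤ ‖mask cl c‖ + ‖c - b‖ := by
  have h1 : mask cl b = mask cl c - mask cl (c - b) := by
    ext q
    simp [mask]; ring
  have h2 : ‖mask cl (c - b)‖ ≤ ‖c - b‖ := by
    rw [← sq_le_sq₀ (norm_nonneg _) (norm_nonneg _), mask_sq, EuclideanSpace.real_norm_sq_eq]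
    refine Finset.sum_le_sum fun q _ => ?_
    rcases wt_cases cl q with h | h <;> simp [h, sq_nonneg]
  rw [h1]
  exact (norm_sub_le _ _).trans (by linarith)

theorem count_le (cl : Fin d → Fin k)
    (hcl : ∀ j, (((Finset.univ.filter fun x => cl x = j).card : ℕ) : ℝ) ≤ 2 * d / k) :
    ∑ q : Fin (N + 1) × (Fin d × Fin d), (1 - wt cl q) ≤ (d : ℝ) ^ 2 * (2 * (N / k) + 1) := by
  rw [Fintype.sum_prod_type, Fin.sum_univ_succ]
  simp only [wt, if_true, Fin.succ_ne_zero, if_false]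
  have h1 : ∑ p : Fin d × Fin d, (1 - if cl p.1 = cl p.2 then (0 : ℝ) else 1) ≤
      d * (2 * d / k) := by
    rw [Fintype.sum_prod_type_right]
    refine (Finset.sum_le_card_nsmul _ _ (2 * d / k : ℝ) fun y _ => ?_).trans (by simp)
    refine le_trans (le_of_eq ?_) (hcl (cl y))
    rw [Finset.card_filter]
    push_cast
    refine Finset.sum_congr rfl fun x _ => ?_
    split_ifs <;> simp
  refine (add_le_add le_rfl (Finset.sum_le_card_nsmul _ _ _ fun i _ => h1)).trans (le_of_eq ?_)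
  simp
  ring

theorem vol_piece (hd : 0 < d) {E T t : ℝ} (hT : 0 ≤ T) (ht : 0 < t)
    (htT : t ≤ T + 1) (cl : Fin d → Fin k)
    (hcl : ∀ j, (((Finset.univ.filter fun x => cl x = j).card : ℕ) : ℝ) ≤ 2 * d / k) :
    volume {b : EuclideanSpace ℝ (Fin (N + 1) × (Fin d × Fin d)) |
      ‖b‖ ^ 2 ≤ T * d ∧ ‖mask cl b‖ ^ 2 ≤ E * d} ≤ ENNReal.ofReal (Real.exp ((d : ℝ) ^ 2 *
      ((N + 1 : ℝ) / 2 * Real.log (2 * Real.pi * t / d) + E / (2 * t) + 1 / 2 +
        (N / k + 1 / 2) * Real.log ((T + 1) / t)))) := by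
  have hd' : (0 : ℝ) < d := by exact_mod_cast hd
  have hT1 : 0 < T + 1 := by linarith
  let γ : Fin (N + 1) × (Fin d × Fin d) → ℝ := fun q =>
    wt cl q * (d / (2 * t)) + (1 - wt cl q) * (d / (2 * (T + 1)))
  have hγ : ∀ q, 0 < γ q := fun q => by
    rcases wt_cases cl q with h | h <;> simp only [γ, h] <;> simp <;> positivity
  refine le_trans (measure_mono ?_) ((vol_ellipsoid γ hγ
    (d / (2 * t) * (E * d) + d / (2 * (T + 1)) * (T * d))).trans ?_)
  · rintro b ⟨h1, h2⟩
    rw [mask_sq] at h2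
    rw [EuclideanSpace.real_norm_sq_eq] at h1
    change ∑ q, γ q * b q ^ 2 ≤ _
    refine le_trans ?_ (add_le_add (mul_le_mul_of_nonneg_left h2 (by positivity))
      (mul_le_mul_of_nonneg_left h1 (by positivity)))
    rw [Finset.mul_sum, Finset.mul_sum, ← Finset.sum_add_distrib]
    refine Finset.sum_le_sum fun q _ => ?_
    have : 0 ≤ d / (2 * (T + 1)) * b q ^ 2 := by positivity
    rcases wt_cases cl q with h | h <;> simp only [γ, h] <;> linarith
  · refine ENNReal.ofReal_le_ofReal (Real.exp_le_exp.2 ?_)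
    have hlog : ∀ q, Real.log (Real.pi / γ q) / 2 = Real.log (2 * Real.pi * t / d) / 2 +
        (1 - wt cl q) * (Real.log ((T + 1) / t) / 2) := fun q => by
      have hpi := Real.pi_pos
      rcases wt_cases cl q with h | h <;> simp only [γ, h]
      · rw [sub_zero, one_mul, one_mul, zero_mul, zero_add, ← add_div,
          ← Real.log_mul (by positivity) (by positivity)]
        congr 2
        field_simp
      · rw [sub_self, zero_mul, zero_mul, add_zero, add_zero, one_mul]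
        congr 2
        field_simp
    simp only [hlog, Finset.sum_add_distrib, ← Finset.sum_mul, Finset.sum_const, Finset.card_univ,
      Fintype.card_prod, Fintype.card_fin, nsmul_eq_mul]
    have hL : 0 ≤ Real.log ((T + 1) / t) / 2 :=
      div_nonneg (Real.log_nonneg ((one_le_div ht).2 htT)) (by norm_num)
    have h3 := mul_le_mul_of_nonneg_right (count_le (N := N) cl hcl) hL
    have h4 : d / (2 * (T + 1)) * (T * d) ≤ (d : ℝ) ^ 2 * (1 / 2) := by
      rw [div_mul_eq_mul_div, div_le_iff₀ (by positivity)]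
      nlinarith [sq_nonneg (d : ℝ)]
    have h5 : d / (2 * t) * (E * d) = (d : ℝ) ^ 2 * (E / (2 * t)) := by ring
    push_cast
    nlinarith

end Va

open Va in
theorem vol (h : NetStmt) : VStmt := by
  intro N k d m E T t hk hd hE hT ht htT
  obtain ⟨s, hs, hsU, hnet⟩ := h d m
  have hd' : (0 : ℝ) < d := by exact_mod_cast hd
  set E' : ℝ := (Real.sqrt E + 4 / 2 ^ m * Real.sqrt T) ^ 2 with hE'
  let good : Finset (Fin d → Fin k) := Finset.univ.filter fun cl =>
    ∀ j, (((Finset.univ.filter fun x => cl x = j).card : ℕ) : ℝ) ≤ 2 * d / k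
  let C : (Fin d → Fin k) → Set (EuclideanSpace ℝ (Fin (N + 1) × (Fin d × Fin d))) := fun cl =>
    {b | ‖b‖ ^ 2 ≤ T * d ∧ ‖mask cl b‖ ^ 2 ≤ E' * d}
  have hC : ∀ cl, MeasurableSet (C cl) := fun cl => by
    have h1 : IsClosed {b : EuclideanSpace ℝ (Fin (N + 1) × (Fin d × Fin d)) | ‖b‖ ^ 2 ≤ T * d} :=
      isClosed_le (by fun_prop) continuous_const
    have h2 : IsClosed {b : EuclideanSpace ℝ (Fin (N + 1) × (Fin d × Fin d)) |
        ‖mask cl b‖ ^ 2 ≤ E' * d} := by
      simp only [mask_sq]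
      exact isClosed_le (by fun_prop) continuous_const
    exact (h1.inter h2).measurableSet
  have hsub : Blocky N k d E T ⊆ ⋃ V ∈ s, ⋃ cl ∈ good, cj V ⁻¹' C cl := by
    rintro a ⟨h1, U, hU, cl, hcl, h2⟩
    obtain ⟨V, hV, hUV⟩ := hnet U hU
    simp only [Set.mem_iUnion]
    have h1' : ‖a‖ ^ 2 ≤ T * d := by rw [norm_sq_mt]; exact h1
    refine ⟨V, hV, cl, Finset.mem_filter.2 ⟨Finset.mem_univ _, hcl⟩, ?_, ?_⟩
    · rw [norm_cj (hsU V hV)]; exact h1'
    · rw [off_eq, ← mask_sq] at h2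
      have h3 := mask_le cl (cj V a) (cj U a)
      have h4 := norm_cj_sub hU (hsU V hV) a
      have h5 : ‖a‖ ≤ Real.sqrt T * Real.sqrt d := by
        rw [← Real.sqrt_mul hT]; exact Real.le_sqrt_of_sq_le h1'
      have h6 : ‖mask cl (cj U a)‖ ≤ Real.sqrt E * Real.sqrt d := by
        rw [← Real.sqrt_mul hE]; exact Real.le_sqrt_of_sq_le h2
      have h7 : 2 * opn (U - V) * ‖a‖ ≤ 2 * (2 / 2 ^ m) * (Real.sqrt T * Real.sqrt d) :=
        mul_le_mul (by linarith) h5 (norm_nonneg _) (by positivity)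
      have h8 : ‖mask cl (cj V a)‖ ≤ (Real.sqrt E + 4 / 2 ^ m * Real.sqrt T) * Real.sqrt d := by
        refine h3.trans ((add_le_add h6 (h4.trans h7)).trans (le_of_eq ?_))
        ring
      have h9 := pow_le_pow_left₀ (norm_nonneg _) h8 2
      rwa [mul_pow, Real.sq_sqrt hd'.le] at h9
  set B : ℝ := (d : ℝ) ^ 2 * ((N + 1 : ℝ) / 2 * Real.log (2 * Real.pi * t / d) + E' / (2 * t) +
    1 / 2 + (N / k + 1 / 2) * Real.log ((T + 1) / t)) with hB
  have hgood : good.card ≤ k ^ d := (Finset.card_filter_le _ _).trans (by simp)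
  refine (measure_mono hsub).trans ((measure_biUnion_finset_le _ _).trans ?_)
  refine (Finset.sum_le_card_nsmul _ _ ((k ^ d : ℕ) • ENNReal.ofReal (Real.exp B))
    fun V hV => ?_).trans ?_
  · refine (measure_biUnion_finset_le _ _).trans ?_
    refine (Finset.sum_le_card_nsmul _ _ (ENNReal.ofReal (Real.exp B)) fun cl hcl => ?_).trans
      (nsmul_le_nsmul_left bot_le hgood)
    rw [vol_cj (hsU V hV) (hC cl)]
    exact vol_piece hd hT ht htT cl (Finset.mem_filter.1 hcl).2
  · refine (nsmul_le_nsmul_left bot_le hs).trans (le_of_eq ?_)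
    rw [← ENNReal.ofReal_nsmul, ← ENNReal.ofReal_nsmul]
    congr 1
    have hk' : (0 : ℝ) < k := by exact_mod_cast hk
    have e1 : ((5 ^ (2 * d ^ 2 * m) : ℕ) : ℝ) = Real.exp ((d : ℝ) ^ 2 * (2 * m * Real.log 5)) := by
      rw [show (d : ℝ) ^ 2 * (2 * m * Real.log 5) = ((2 * d ^ 2 * m : ℕ) : ℝ) * Real.log 5 by
        push_cast; ring, Real.exp_nat_mul, Real.exp_log (by norm_num)]
      push_cast; rfl
    have e2 : ((k ^ d : ℕ) : ℝ) = Real.exp (d * Real.log k) := by
      rw [Real.exp_nat_mul, Real.exp_log hk']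
      push_cast; rfl
    rw [nsmul_eq_mul, nsmul_eq_mul, e1, e2, ← Real.exp_add, ← Real.exp_add, hB]
    congr 1
    ring

end Crest.Agent.FE
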