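import Crest.Agent.FE.Herm

/-! Ingredients for the volume bound: Gaussian bound, Hilbert-Schmidt norm, conjugation. -/

set_option autoImplicit false
open Crest.OpAlg MeasureTheory Filter Topology
open scoped ENNReal

namespace Crest.Agent.FE.Va

theorem vol_ellipsoid {ι : Type} [Fintype ι] (γ : ι → ℝ) (hγ : ∀ q, 0 < γ q) (c : ℝ) :
    volume {b : EuclideanSpace ℝ ι | ∑ q, γ q * b q ^ 2 ≤ c} ≤
      ENNReal.ofReal (Real.exp (c + ∑ q, Real.log (Real.pi / γ q) / 2)) := by
  have hm : MeasurableSet {b : EuclideanSpace ℝ ι | ∑ q, γ q * b q ^ 2 ≤ c} :=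
    (isClosed_le (by fun_prop) continuous_const).measurableSet
  rw [← (PiLp.volume_preserving_toLp ι).measure_preimage hm.nullMeasurableSet]
  have hi : Integrable (fun x : ι → ℝ => ∏ q, Real.exp (-γ q * x q ^ 2)) := by
    rw [volume_pi]
    exact Integrable.fintype_prod (f := fun q (y : ℝ) => Real.exp (-γ q * y ^ 2))
      fun q => integrable_exp_neg_mul_sq (hγ q)
  have h1 := meas_le_lintegral₀ (μ := (volume : Measure (ι → ℝ)))
    (f := fun x : ι → ℝ => ENNReal.ofReal (Real.exp c * ∏ q, Real.exp (-γ q * x q ^ 2)))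
    (Measurable.aemeasurable (by fun_prop)) (s := (WithLp.toLp 2) ⁻¹' {b : EuclideanSpace ℝ ι | ∑ q, γ q * b q ^ 2 ≤ c})
    fun x hx => by
      rw [← Real.exp_sum, ← Real.exp_add, ENNReal.one_le_ofReal, Real.one_le_exp_iff]
      have : ∑ q, γ q * x q ^ 2 ≤ c := hx
      simp only [neg_mul, Finset.sum_neg_distrib]
      linarith
  refine h1.trans (le_of_eq ?_)
  rw [← ofReal_integral_eq_lintegral_ofReal (hi.const_mul _)
    (Eventually.of_forall fun x => by positivity), integral_const_mul,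
    integral_fintype_prod_volume_eq_prod (fun q (y : ℝ) => Real.exp (-γ q * y ^ 2)),
    Real.exp_add, Real.exp_sum]
  congr 2
  refine Finset.prod_congr rfl fun q _ => ?_
  have : 0 < Real.pi / γ q := div_pos Real.pi_pos (hγ q)
  rw [integral_gaussian, ← Real.log_sqrt this.le, Real.exp_log (Real.sqrt_pos.2 this)]

variable {d : ℕ}

/-- squared Hilbert-Schmidt norm -/
noncomputable def hs (M : Matrix (Fin d) (Fin d) ℂ) : ℝ := ∑ x, ∑ y, ‖M x y‖ ^ 2

theorem hs_nonneg (M : Matrix (Fin d) (Fin d) ℂ) : 0 ≤ hs M := by unfold hs; positivity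

theorem hs_star (M : Matrix (Fin d) (Fin d) ℂ) : hs (star M) = hs M := by
  unfold hs
  rw [Finset.sum_comm]
  simp [Matrix.star_apply]

theorem opn_star (M : Matrix (Fin d) (Fin d) ℂ) : opn (star M) = opn M := by
  unfold opn
  rw [map_star]
  exact norm_star (Matrix.toEuclideanCLM (n := Fin d) (𝕜 := ℂ) M)

theorem hs_mul_left (A B : Matrix (Fin d) (Fin d) ℂ) : hs (A * B) ≤ opn A ^ 2 * hs B := by
  unfold hs
  rw [Finset.sum_comm, Finset.sum_comm (f := fun x y => ‖B x y‖ ^ 2), Finset.mul_sum]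
  refine Finset.sum_le_sum fun y _ => ?_
  have h := (Matrix.toEuclideanCLM (n := Fin d) (𝕜 := ℂ) A).le_opNorm
    (WithLp.toLp 2 fun x => B x y)
  have h2 := pow_le_pow_left₀ (norm_nonneg _) h 2
  rw [mul_pow, EuclideanSpace.norm_sq_eq, EuclideanSpace.norm_sq_eq] at h2
  exact h2

theorem hs_mul_right (A B : Matrix (Fin d) (Fin d) ℂ) : hs (A * B) ≤ opn B ^ 2 * hs A := by
  rw [← hs_star, star_mul, ← hs_star A, ← opn_star B]
  exact hs_mul_left _ _

theorem hs_add (A B : Matrix (Fin d) (Fin d) ℂ) : hs (A + B) ≤ 2 * hs A + 2 * hs B := by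
  unfold hs
  simp only [Finset.mul_sum, ← Finset.sum_add_distrib]
  refine Finset.sum_le_sum fun x _ => Finset.sum_le_sum fun y _ => ?_
  have h := norm_add_le (A x y) (B x y)
  have h2 := pow_le_pow_left₀ (norm_nonneg _) h 2
  rw [Matrix.add_apply]
  nlinarith [sq_nonneg (‖A x y‖ - ‖B x y‖)]

theorem opn_unitary {U : Matrix (Fin d) (Fin d) ℂ} (hU : U ∈ Matrix.unitaryGroup (Fin d) ℂ) :
    opn U ^ 2 ≤ 1 := by
  unfold opn
  rw [sq, ← CStarRing.norm_star_mul_self, ← map_star, ← map_mul, hU.1, map_one]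
  exact ContinuousLinearMap.norm_id_le

theorem hs_conj_le {U : Matrix (Fin d) (Fin d) ℂ} (hU : U ∈ Matrix.unitaryGroup (Fin d) ℂ)
    (M : Matrix (Fin d) (Fin d) ℂ) : hs (star U * M * U) ≤ hs M := by
  have h1 := hs_mul_right (star U * M) U
  have h2 := hs_mul_left (star U) M
  rw [opn_star] at h2
  have h3 := opn_unitary hU
  nlinarith [hs_nonneg M, hs_nonneg (star U * M)]

theorem hs_conj {U : Matrix (Fin d) (Fin d) ℂ} (hU : U ∈ Matrix.unitaryGroup (Fin d) ℂ)
    (M : Matrix (Fin d) (Fin d) ℂ) : hs (star U * M * U) = hs M := by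
  refine le_antisymm (hs_conj_le hU M) ?_
  have h := hs_conj_le (Unitary.star_mem hU) (star U * M * U)
  rwa [star_star, ← mul_assoc, ← mul_assoc, hU.2, one_mul, mul_assoc, hU.2, mul_one] at h

theorem hs_conj_sub {U V : Matrix (Fin d) (Fin d) ℂ} (hU : U ∈ Matrix.unitaryGroup (Fin d) ℂ)
    (hV : V ∈ Matrix.unitaryGroup (Fin d) ℂ) (M : Matrix (Fin d) (Fin d) ℂ) :
    hs (star U * M * U - star V * M * V) ≤ 4 * opn (U - V) ^ 2 * hs M := by
  have e : star U * M * U - star V * M * V =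
      star (U - V) * (M * U) + (star V * M) * (U - V) := by
    rw [star_sub]; noncomm_ring
  rw [e]
  have h1 := hs_mul_left (star (U - V)) (M * U)
  have h2 := hs_mul_right M U
  have h3 := hs_mul_right (star V * M) (U - V)
  have h4 := hs_mul_left (star V) M
  rw [opn_star] at h1 h4
  have h5 : hs (M * U) ≤ hs M := h2.trans (by nlinarith [opn_unitary hU, hs_nonneg M])
  have h6 : hs (star V * M) ≤ hs M := h4.trans (by nlinarith [opn_unitary hV, hs_nonneg M])
  have h7 := hs_add (star (U - V) * (M * U)) (star V * M * (U - V))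
  nlinarith [mul_le_mul_of_nonneg_left h5 (sq_nonneg (opn (U - V))),
    mul_le_mul_of_nonneg_left h6 (sq_nonneg (opn (U - V)))]

/-- coordinates of a Hermitian matrix -/
noncomputable def co (M : Matrix (Fin d) (Fin d) ℂ) (p : Fin d × Fin d) : ℝ :=
  if p.1 = p.2 then (M p.1 p.1).re else if p.1 < p.2 then
    Real.sqrt 2 * (M p.1 p.2).re else Real.sqrt 2 * (M p.2 p.1).im

theorem co_add (M N : Matrix (Fin d) (Fin d) ℂ) (p : Fin d × Fin d) :
    co (M + N) p = co M p + co N p := by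
  unfold co
  split_ifs <;> simp [mul_add]

theorem co_smul (c : ℝ) (M : Matrix (Fin d) (Fin d) ℂ) (p : Fin d × Fin d) :
    co ((c : ℂ) • M) p = c * co M p := by
  unfold co
  split_ifs <;> simp <;> ring

theorem co_sub (M N : Matrix (Fin d) (Fin d) ℂ) (p : Fin d × Fin d) :
    co (M - N) p = co M p - co N p := by
  unfold co
  split_ifs <;> simp [mul_sub]

theorem norm_sq_co {M : Matrix (Fin d) (Fin d) ℂ} (hM : M.IsHermitian) (x y : Fin d) :
    ‖M x y‖ ^ 2 = (co M (x, y) ^ 2 + co M (y, x) ^ 2) / 2 := by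
  have h2 : Real.sqrt 2 ^ 2 = 2 := Real.sq_sqrt (by norm_num)
  have hc := hM.apply x y
  unfold co
  rcases lt_trichotomy x y with h | h | h
  · simp only [h, h.ne, h.ne', h.not_gt, if_true, if_false, mul_pow, h2]
    rw [Complex.sq_norm, Complex.normSq_apply]; ring
  · subst h
    have := congrArg Complex.im hc
    simp only [if_true]
    simp at this
    rw [Complex.sq_norm, Complex.normSq_apply]
    have h0 : (M x x).im = 0 := by linarith
    rw [h0]; ring
  · simp only [h, h.ne, h.ne', h.not_gt, if_true, if_false, mul_pow, h2]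
    rw [← hc, norm_star, Complex.sq_norm, Complex.normSq_apply]; ring

theorem sum_co {M : Matrix (Fin d) (Fin d) ℂ} (hM : M.IsHermitian) (w : Fin d → Fin d → ℝ)
    (hw : ∀ x y, w x y = w y x) :
    ∑ x, ∑ y, w x y * ‖M x y‖ ^ 2 = ∑ p : Fin d × Fin d, w p.1 p.2 * co M p ^ 2 := by
  rw [Fintype.sum_prod_type]
  have h1 : ∑ x, ∑ y, w x y * co M (y, x) ^ 2 = ∑ x, ∑ y, w x y * co M (x, y) ^ 2 := by
    rw [Finset.sum_comm]
    simp only [hw]
  simp only [norm_sq_co hM, mul_div_assoc', mul_add, ← Finset.sum_div, Finset.sum_add_distrib, h1]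
  ring

theorem hs_co {M : Matrix (Fin d) (Fin d) ℂ} (hM : M.IsHermitian) :
    ∑ p : Fin d × Fin d, co M p ^ 2 = hs M := by
  simpa [hs] using (sum_co hM (fun _ _ => 1) fun _ _ => rfl).symm

theorem herm_isHermitian (z : EuclideanSpace ℝ (Fin d × Fin d)) :
    (hermitianOfCoords z).IsHermitian := by
  have : hermitianOfCoords z = ∑ p, (z p : ℂ) • Hm.E p := Hm.herm_eq z.ofLp
  rw [this, Matrix.IsHermitian, Matrix.conjTranspose_sum]
  simp [Hm.E_herm]

theorem co_herm (z : EuclideanSpace ℝ (Fin d × Fin d)) (p : Fin d × Fin d) :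
    co (hermitianOfCoords z) p = z p := by
  obtain ⟨x, y⟩ := p
  have h2 : Real.sqrt 2 ≠ 0 := by simp
  unfold co hermitianOfCoords
  rcases lt_trichotomy x y with h | h | h
  · simp only [h, h.ne, if_true, if_false, Complex.div_ofReal_re]
    simp; field_simp
  · subst h; simp
  · simp only [h, h.ne, h.ne', h.not_gt, if_true, if_false, Complex.div_ofReal_im]
    simp; field_simp

variable {n : ℕ}

theorem mt_herm (a : EuclideanSpace ℝ (Fin n × (Fin d × Fin d))) (l : Fin n) :
    (matrixTuple a l).IsHermitian := herm_isHermitian _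

theorem mt_add (a b : EuclideanSpace ℝ (Fin n × (Fin d × Fin d))) (l : Fin n) :
    matrixTuple (a + b) l = matrixTuple a l + matrixTuple b l := by
  simp only [matrixTuple, Hm.herm_eq, ← Finset.sum_add_distrib, ← add_smul]
  simp

theorem mt_smul (c : ℝ) (a : EuclideanSpace ℝ (Fin n × (Fin d × Fin d))) (l : Fin n) :
    matrixTuple (c • a) l = (c : ℂ) • matrixTuple a l := by
  simp only [matrixTuple, Hm.herm_eq, Finset.smul_sum, smul_smul]
  simp

theorem norm_sq_mt (a : EuclideanSpace ℝ (Fin n × (Fin d × Fin d))) :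
    ‖a‖ ^ 2 = ∑ l, hs (matrixTuple a l) := by
  rw [EuclideanSpace.real_norm_sq_eq, Fintype.sum_prod_type]
  refine Finset.sum_congr rfl fun l _ => ?_
  rw [← hs_co (mt_herm a l)]
  simp only [matrixTuple, co_herm]

theorem conj_herm (U : Matrix (Fin d) (Fin d) ℂ) {M : Matrix (Fin d) (Fin d) ℂ}
    (hM : M.IsHermitian) : (star U * M * U).IsHermitian :=
  Matrix.isHermitian_conjTranspose_mul_mul U hM

/-- conjugation in coordinates -/
noncomputable def cj (U : Matrix (Fin d) (Fin d) ℂ) :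
    EuclideanSpace ℝ (Fin n × (Fin d × Fin d)) →ₗ[ℝ] EuclideanSpace ℝ (Fin n × (Fin d × Fin d)) where
  toFun a := WithLp.toLp 2 fun q => co (star U * matrixTuple a q.1 * U) q.2
  map_add' a b := by
    ext q
    simp [mt_add, mul_add, add_mul, co_add]
  map_smul' c a := by
    ext q
    simp only [mt_smul, mul_smul_comm, smul_mul_assoc, co_smul]
    simp

theorem cj_apply (U : Matrix (Fin d) (Fin d) ℂ) (a : EuclideanSpace ℝ (Fin n × (Fin d × Fin d)))
    (q : Fin n × (Fin d × Fin d)) : cj U a q = co (star U * matrixTuple a q.1 * U) q.2 := rfl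

theorem norm_cj {U : Matrix (Fin d) (Fin d) ℂ} (hU : U ∈ Matrix.unitaryGroup (Fin d) ℂ)
    (a : EuclideanSpace ℝ (Fin n × (Fin d × Fin d))) : ‖cj U a‖ = ‖a‖ := by
  rw [← sq_eq_sq₀ (norm_nonneg _) (norm_nonneg _), norm_sq_mt a, EuclideanSpace.real_norm_sq_eq,
    Fintype.sum_prod_type]
  refine Finset.sum_congr rfl fun l _ => ?_
  simp only [cj_apply]
  rw [hs_co (conj_herm U (mt_herm a l)), hs_conj hU]

theorem norm_cj_sub {U V : Matrix (Fin d) (Fin d) ℂ} (hU : U ∈ Matrix.unitaryGroup (Fin d) ℂ)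
    (hV : V ∈ Matrix.unitaryGroup (Fin d) ℂ) (a : EuclideanSpace ℝ (Fin n × (Fin d × Fin d))) :
    ‖cj U a - cj V a‖ ≤ 2 * opn (U - V) * ‖a‖ := by
  have h0 : 0 ≤ opn (U - V) := norm_nonneg _
  rw [← sq_le_sq₀ (norm_nonneg _) (by positivity), mul_pow, norm_sq_mt a,
    EuclideanSpace.real_norm_sq_eq, Fintype.sum_prod_type, Finset.mul_sum]
  refine Finset.sum_le_sum fun l _ => ?_
  simp only [PiLp.sub_apply, cj_apply, ← co_sub]
  rw [hs_co ((conj_herm U (mt_herm a l)).sub (conj_herm V (mt_herm a l)))]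
  refine (hs_conj_sub hU hV _).trans (le_of_eq ?_)
  ring

theorem vol_cj {U : Matrix (Fin d) (Fin d) ℂ} (hU : U ∈ Matrix.unitaryGroup (Fin d) ℂ)
    {s : Set (EuclideanSpace ℝ (Fin n × (Fin d × Fin d)))} (hs : MeasurableSet s) :
    volume (cj U ⁻¹' s) = volume s :=
  ((LinearIsometry.mk (cj U) (norm_cj hU)).toLinearIsometryEquiv rfl).measurePreserving.measure_preimage
    hs.nullMeasurableSet

end Crest.Agent.FE.Va
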