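import Crest.Agent.FE.HA

/-! Toolkit for the Schwinger-Dyson equations. -/

set_option autoImplicit false
set_option linter.unusedSectionVars false
open Finset

namespace Crest.Agent.FE.Tk
open Hd

variable {A : Type*} [Ring A] [Algebra ℂ A] (τ : A →ₗ[ℂ] ℂ) (t : A)

/-- the defect of a list of letters with derivative coefficients -/
noncomputable def D (L : List (A × ℂ)) : ℂ :=
  τ (t * ev Prod.fst L) - spl L fun u e v => e.2 * (τ (ev Prod.fst u) * τ (ev Prod.fst v))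

lemma D_mid (L₁ L₂ : List (A × ℂ)) (e : A × ℂ) : D τ t (L₁ ++ e :: L₂) =
    τ (t * (ev Prod.fst L₁ * (e.1 * ev Prod.fst L₂))) -
      ((spl L₁ fun u i v => i.2 * (τ (ev Prod.fst u) *
        τ (ev Prod.fst v * (e.1 * ev Prod.fst L₂)))) +
      (e.2 * (τ (ev Prod.fst L₁) * τ (ev Prod.fst L₂)) +
      spl L₂ fun u i v => i.2 * (τ (ev Prod.fst L₁ * (e.1 * ev Prod.fst u)) *
        τ (ev Prod.fst v)))) := by
  simp only [D, spl_append, spl_cons, ev_append, ev_cons, ev_nil, mul_one]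

lemma D_add (L₁ L₂ : List (A × ℂ)) (e e' : A × ℂ) :
    D τ t (L₁ ++ (e + e') :: L₂) = D τ t (L₁ ++ e :: L₂) + D τ t (L₁ ++ e' :: L₂) := by
  simp only [D_mid, Prod.fst_add, Prod.snd_add, add_mul, mul_add, map_add, spl_add]
  ring

lemma D_smul (L₁ L₂ : List (A × ℂ)) (c : ℂ) (e : A × ℂ) :
    D τ t (L₁ ++ (c • e) :: L₂) = c * D τ t (L₁ ++ e :: L₂) := by
  simp only [D_mid, Prod.smul_fst, Prod.smul_snd, smul_mul_assoc, mul_smul_comm, map_smul,
    smul_eq_mul, mul_sub, mul_add, mul_spl]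
  congr 2
  · exact spl_congr fun _ _ _ _ => by ring
  · congr 1
    · ring
    · exact spl_congr fun _ _ _ _ => by ring

lemma D_mul (L₁ L₂ : List (A × ℂ)) (a b : A) :
    D τ t (L₁ ++ (a * b, 0) :: L₂) = D τ t (L₁ ++ (a, 0) :: (b, 0) :: L₂) := by
  simp only [D_mid, spl_cons, ev_cons, zero_mul, zero_add, mul_assoc]

lemma D_one (L₁ L₂ : List (A × ℂ)) : D τ t (L₁ ++ (1, 0) :: L₂) = D τ t (L₁ ++ L₂) := by
  rw [D_mid]
  simp only [D, spl_append, ev_append, zero_mul, zero_add, one_mul]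

lemma D_map {Λ : Type*} (v : Λ → A) (d : Λ → ℂ) (w : List Λ) :
    D τ t (w.map fun e => (v e, d e)) =
      τ (t * ev v w) - spl w fun u e x => d e * (τ (ev v u) * τ (ev v x)) := by
  simp only [D, spl_map, ev_map]; rfl

variable {Λ : Type*} (φ : Λ → A × ℂ) (S : Set Λ)

/-- good suffixes -/
def H (L : List (A × ℂ)) : Prop := ∀ w : List Λ, (∀ e ∈ w, e ∈ S) → D τ t (w.map φ ++ L) = 0

/-- good letters -/
def Q : Submodule ℂ (A × ℂ) where
  carrier := {e | ∀ L, H τ t φ S L → H τ t φ S (e :: L)}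
  add_mem' := fun {a b} ha hb L hL w hw => by rw [D_add, ha L hL w hw, hb L hL w hw, add_zero]
  zero_mem' := fun L hL w hw => by
    rw [← zero_smul ℂ (0 : A × ℂ), D_smul, zero_mul]
  smul_mem' := fun c a ha L hL w hw => by rw [D_smul, ha L hL w hw, mul_zero]

lemma mem_Q {e : Λ} (he : e ∈ S) : φ e ∈ Q τ t φ S := by
  intro L hL w hw
  have := hL (w ++ [e]) (by
    intro x hx
    rcases List.mem_append.mp hx with h | h
    · exact hw x h
    · rw [List.mem_singleton.mp h]; exact he)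
  simpa using this

/-- good constants -/
def Z : Subalgebra ℂ A where
  carrier := {a | (a, (0 : ℂ)) ∈ Q τ t φ S}
  mul_mem' := fun {a b} ha hb L hL w hw => by
    rw [D_mul]; exact ha _ (hb L hL) w hw
  one_mem' := fun L hL w hw => by rw [D_one]; exact hL w hw
  add_mem' := fun {a b} ha hb => by simpa using (Q τ t φ S).add_mem ha hb
  zero_mem' := (Q τ t φ S).zero_mem
  algebraMap_mem' := fun r => by
    have h1 : ((1 : A), (0 : ℂ)) ∈ Q τ t φ S := fun L hL w hw => by rw [D_one]; exact hL w hw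
    simpa [Algebra.algebraMap_eq_smul_one] using (Q τ t φ S).smul_mem r h1

lemma mem_Z {a : A} : a ∈ Z τ t φ S ↔ (a, (0 : ℂ)) ∈ Q τ t φ S := Iff.rfl

variable {τ t φ S}

lemma D_eq_zero (h : ∀ w : List Λ, (∀ e ∈ w, e ∈ S) → D τ t (w.map φ) = 0)
    (L : List (A × ℂ)) (hL : ∀ e ∈ L, e ∈ Q τ t φ S) : D τ t L = 0 := by
  have : H τ t φ S L := by
    induction L with
    | nil => intro w hw; simpa using h w hw
    | cons e L ih =>
      exact hL e (by simp) L (ih fun x hx => hL x (by simp [hx]))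
  simpa using this [] (by simp)

lemma aff_mem {κ : Type*} [Fintype κ] [DecidableEq κ] (g : κ → A) (j : κ)
    (hg : ∀ l, (g l, if l = j then (1 : ℂ) else 0) ∈ Q τ t φ S) (e : A × (κ → ℂ))
    (he : e.1 ∈ Z τ t φ S) : (aff g e, e.2 j) ∈ Q τ t φ S := by
  have : (aff g e, e.2 j) = (e.1, 0) + ∑ l, e.2 l • (g l, if l = j then (1 : ℂ) else 0) := by
    ext
    · simp [aff, Prod.fst_sum]
    · simp [Prod.snd_sum]
  rw [this]
  exact add_mem he (sum_mem fun l _ => Submodule.smul_mem _ _ (hg l))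

/-- deriving `SDL` from a family of vanishing defects -/
lemma sdl_of {κ : Type*} [Fintype κ] [DecidableEq κ] (B : Subalgebra ℂ A) (g : κ → A)
    (φ : κ → Λ → A × ℂ) (S : Set Λ)
    (h : ∀ j (w : List Λ), (∀ e ∈ w, e ∈ S) → D τ (g j) (w.map (φ j)) = 0)
    (hB : ∀ j, B ≤ Z τ (g j) (φ j) S)
    (hg : ∀ j l, (g l, if l = j then (1 : ℂ) else 0) ∈ Q τ (g j) (φ j) S) : SDL τ B g := by
  intro j L hL
  rw [← sub_eq_zero, ← D_map τ (g j) (aff g) (fun e => e.2 j)]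
  refine D_eq_zero (h j) _ fun e he => ?_
  obtain ⟨x, hx, rfl⟩ := List.mem_map.mp he
  exact aff_mem g j (hg j) x (hB j (hL x hx))

lemma sdl_D {κ : Type*} [Fintype κ] {B : Subalgebra ℂ A} {g : κ → A} (h : SDL τ B g) (j : κ)
    (w : List (A × (κ → ℂ))) (hw : ∀ e ∈ w, e ∈ {e : A × (κ → ℂ) | e.1 ∈ B}) :
    D τ (g j) (w.map fun e => (aff g e, e.2 j)) = 0 := by
  rw [D_map, h j w hw, sub_self]

lemma sdl_B {κ : Type*} [Fintype κ] (B : Subalgebra ℂ A) (g : κ → A) (j : κ) :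
    B ≤ Z τ (g j) (fun e => (aff g e, e.2 j)) {e : A × (κ → ℂ) | e.1 ∈ B} := by
  intro b hb
  have := mem_Q τ (g j) (fun e => (aff g e, e.2 j)) {e : A × (κ → ℂ) | e.1 ∈ B}
    (e := (b, 0)) hb
  rw [mem_Z]
  simpa [aff] using this

lemma sdl_g {κ : Type*} [Fintype κ] [DecidableEq κ] (B : Subalgebra ℂ A) (g : κ → A) (j l : κ) :
    (g l, if l = j then (1 : ℂ) else 0) ∈
      Q τ (g j) (fun e => (aff g e, e.2 j)) {e : A × (κ → ℂ) | e.1 ∈ B} := by
  have := mem_Q τ (g j) (fun e => (aff g e, e.2 j)) {e : A × (κ → ℂ) | e.1 ∈ B}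
    (e := (0, Pi.single l 1)) B.zero_mem
  simpa [aff, Pi.single_apply, eq_comm] using this

lemma part1 {β κ : Type*} [Fintype κ] [DecidableEq κ] (x : β → A) (g : κ → A) (h : SD τ x g) :
    SDL τ (Algebra.adjoin ℂ (Set.range x)) g := by
  refine sdl_of _ g (fun j i => (Sum.elim x g i,
    Sum.elim (fun _ => (0 : ℂ)) (fun j' => if j' = j then 1 else 0) i)) Set.univ ?_ ?_ ?_
  · intro j w _
    rw [D_map]; exact h j w
  · intro j
    refine Algebra.adjoin_le ?_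
    rintro _ ⟨b, rfl⟩
    exact mem_Q τ (g j) _ Set.univ (e := Sum.inl b) trivial
  · intro j l
    exact mem_Q τ (g j) _ Set.univ (e := Sum.inr l) trivial

lemma part2 {κ₁ κ₂ : Type*} [Fintype κ₁] [Fintype κ₂] (B : Subalgebra ℂ A) (g₁ : κ₁ → A)
    (g₂ : κ₂ → A) (h : SDL τ B (Sum.elim g₁ g₂)) :
    SDL τ (B ⊔ Algebra.adjoin ℂ (Set.range g₁)) g₂ ∧ SDL τ B g₁ := by
  classical
  constructor
  · refine sdl_of _ g₂ (fun j e => (aff (Sum.elim g₁ g₂) e, e.2 (Sum.inr j)))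
      {e : A × (κ₁ ⊕ κ₂ → ℂ) | e.1 ∈ B} (fun j => sdl_D h (Sum.inr j)) ?_ ?_
    · intro j
      refine sup_le (sdl_B B (Sum.elim g₁ g₂) (Sum.inr j)) (Algebra.adjoin_le ?_)
      rintro _ ⟨l, rfl⟩
      rw [SetLike.mem_coe, mem_Z]
      simpa using sdl_g (τ := τ) B (Sum.elim g₁ g₂) (Sum.inr j) (Sum.inl l)
    · intro j l
      simpa using sdl_g (τ := τ) B (Sum.elim g₁ g₂) (Sum.inr j) (Sum.inr l)
  · refine sdl_of _ g₁ (fun j e => (aff (Sum.elim g₁ g₂) e, e.2 (Sum.inl j)))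
      {e : A × (κ₁ ⊕ κ₂ → ℂ) | e.1 ∈ B} (fun j => sdl_D h (Sum.inl j)) ?_ ?_
    · intro j
      exact sdl_B B (Sum.elim g₁ g₂) (Sum.inl j)
    · intro j l
      simpa using sdl_g (τ := τ) B (Sum.elim g₁ g₂) (Sum.inl j) (Sum.inl l)

lemma sup_le_Z {κ : Type*} [Fintype κ] [DecidableEq κ] (B : Subalgebra ℂ A) (g : κ → A) (j : κ) :
    B ⊔ Algebra.adjoin ℂ (g '' {l | l ≠ j}) ≤
      Z τ (g j) (fun e => (aff g e, e.2 j)) {e : A × (κ → ℂ) | e.1 ∈ B} := by
  refine sup_le (sdl_B B g j) (Algebra.adjoin_le ?_)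
  rintro _ ⟨l, hl, rfl⟩
  have := sdl_g (τ := τ) B g j l
  rw [if_neg hl] at this
  exact this

lemma part3 {κ : Type*} [Fintype κ] [DecidableEq κ] (B : Subalgebra ℂ A) (g : κ → A) (j : κ)
    (h : SDL τ B g) (b : A) (hb : b ∈ B ⊔ Algebra.adjoin ℂ (g '' {l | l ≠ j})) (b' : A)
    (hb' : b' ∈ B ⊔ Algebra.adjoin ℂ (g '' {l | l ≠ j})) :
    τ (g j * b) = 0 ∧ τ (g j * b * g j * b') = τ b * τ b' := by
  have hle := sup_le_Z (τ := τ) B g j
  constructor
  · have := D_eq_zero (sdl_D h j) [(b, 0)] (by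
      intro e he
      rw [List.mem_singleton.mp he]; exact hle hb)
    simpa [D, spl_cons, ev_cons] using this
  · have h1 := sdl_g (τ := τ) B g j j
    rw [if_pos rfl] at h1
    have := D_eq_zero (sdl_D h j) [(b, 0), (g j, 1), (b', 0)] (by
      intro e he
      simp only [List.mem_cons, List.not_mem_nil, or_false] at he
      rcases he with rfl | rfl | rfl
      · exact hle hb
      · exact h1
      · exact hle hb')
    simpa [D, spl_cons, ev_cons, sub_eq_zero, mul_assoc] using this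

lemma part4 {κ : Type*} [Fintype κ] (B : Subalgebra ℂ A) (g₁ g₂ : κ → A) (α β : ℝ)
    (hαβ : α ^ 2 + β ^ 2 = 1) (h : SDL τ B (Sum.elim g₁ g₂)) :
    SDL τ B fun j => (α : ℂ) • g₁ j + (β : ℂ) • g₂ j := by
  intro j L hL
  set g : κ → A := fun j => (α : ℂ) • g₁ j + (β : ℂ) • g₂ j with hg
  let ψ : A × (κ → ℂ) → A × (κ ⊕ κ → ℂ) := fun e =>
    (e.1, Sum.elim (fun l => α * e.2 l) fun l => β * e.2 l)
  have hψ : aff (Sum.elim g₁ g₂) ∘ ψ = aff g := by
    funext e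
    simp only [Function.comp, aff, ψ, hg, Fintype.sum_sum_type, Sum.elim_inl, Sum.elim_inr,
      smul_add, sum_add_distrib, smul_smul, mul_comm]
  have hL' : ∀ e ∈ L.map ψ, e.1 ∈ B := by
    intro e he
    obtain ⟨x, hx, rfl⟩ := List.mem_map.mp he
    exact hL x hx
  have h1 := h (Sum.inl j) _ hL'
  have h2 := h (Sum.inr j) _ hL'
  simp only [spl_map, ev_map, hψ, Sum.elim_inl, Sum.elim_inr, ψ] at h1 h2
  have hc : (α : ℂ) ^ 2 + (β : ℂ) ^ 2 = 1 := by exact_mod_cast hαβ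
  simp only [hg, add_mul, smul_mul_assoc, map_add, map_smul, smul_eq_mul]
  rw [← hg, h1, h2, mul_spl, mul_spl, ← spl_add]
  refine spl_congr fun u e v _ => ?_
  linear_combination (e.2 j * (τ (ev (aff g) u) * τ (ev (aff g) v))) * hc

end Crest.Agent.FE.Tk

namespace Crest.Agent.FE

theorem w1 : W1Stmt := fun _ _ _ _ =>
  ⟨fun _ _ _ _ x g h => Tk.part1 x g h, fun _ _ _ _ B g₁ g₂ h => Tk.part2 B g₁ g₂ h,
    fun _ _ _ B g j h b hb b' hb' => Tk.part3 B g j h b hb b' hb',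
    fun _ _ B g₁ g₂ α β hαβ h => Tk.part4 B g₁ g₂ α β hαβ h⟩

end Crest.Agent.FE

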