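import Crest.Agent.FE.HA

/-! Basic trace inequalities; semicircular moments and norm. -/

set_option autoImplicit false
open Crest.OpAlg Filter Topology
open scoped ComplexOrder

namespace Crest.Agent.FE
namespace W3p
open Hd

lemma spl_replicate {Λ M : Type*} [AddCommMonoid M] (e : Λ) (n : ℕ)
    (F : List Λ → Λ → List Λ → M) : spl (List.replicate (n + 1) e) F =
      ∑ p ∈ Finset.HasAntidiagonal.antidiagonal n, F (List.replicate p.1 e) e (List.replicate p.2 e) := by
  induction n generalizing F with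
  | zero => simp [spl]
  | succ n ih =>
    rw [List.replicate_succ, spl_cons, ih, Finset.Nat.sum_antidiagonal_succ]
    simp [List.replicate_succ]

/-- semicircular moments -/
def cm (n : ℕ) : ℕ := if Even n then catalan (n / 2) else 0

lemma cm_even (k : ℕ) : cm (2 * k) = catalan k := by
  rw [cm, if_pos (even_two_mul k), Nat.mul_div_cancel_left _ two_pos]

lemma cm_odd (k : ℕ) : cm (2 * k + 1) = 0 := by
  rw [cm, if_neg (Nat.not_even_iff_odd.2 (odd_two_mul_add_one k))]

lemma cm_rec (n : ℕ) : cm (n + 2) = ∑ p ∈ Finset.HasAntidiagonal.antidiagonal n, cm p.1 * cm p.2 := by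
  rcases Nat.even_or_odd' n with ⟨k, rfl | rfl⟩
  · have h1 : cm (2 * k + 2) = catalan (k + 1) := cm_even (k + 1)
    rw [h1, catalan_succ']
    refine Finset.sum_of_injOn (fun p => (2 * p.1, 2 * p.2)) ?_ ?_ ?_ ?_
    · rintro ⟨a, b⟩ - ⟨c, d⟩ - h
      simp only [Prod.mk.injEq] at h ⊢; omega
    · rintro ⟨a, b⟩ h
      have := Finset.HasAntidiagonal.mem_antidiagonal.1 h
      exact Finset.HasAntidiagonal.mem_antidiagonal.2 (by simp only at this ⊢; omega)
    · rintro ⟨a, b⟩ h hn
      simp only [Finset.HasAntidiagonal.mem_antidiagonal] at h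
      rcases Nat.even_or_odd' a with ⟨c, rfl | rfl⟩
      · exact absurd ⟨(c, k - c), by simp; omega, by simp; omega⟩ hn
      · simp only [cm_odd, zero_mul]
    · rintro ⟨a, b⟩ -
      simp only [cm_even]
  · rw [show 2 * k + 1 + 2 = 2 * (k + 1) + 1 by ring, cm_odd]
    refine (Finset.sum_eq_zero ?_).symm
    rintro ⟨a, b⟩ h
    simp only [Finset.HasAntidiagonal.mem_antidiagonal] at h
    rcases Nat.even_or_odd' a with ⟨c, rfl | rfl⟩
    · have : b = 2 * (k - c) + 1 := by omega
      subst this; simp only [cm_odd, mul_zero]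
    · simp only [cm_odd, zero_mul]

lemma moments {A : Type} [Ring A] [Algebra ℂ A] (τ : A →ₗ[ℂ] ℂ) (h1 : τ 1 = 1) {κ : Type}
    [Fintype κ] (B : Subalgebra ℂ A) (g : κ → A) (h : SDL τ B g) (j : κ) (n : ℕ) :
    τ (g j ^ n) = cm n := by
  classical
  let e : A × (κ → ℂ) := (0, Pi.single j 1)
  have he : ∀ n, ev (aff g) (List.replicate n e) = g j ^ n := fun n => by
    simp [ev, aff, e, Pi.single_apply]
  have hr : ∀ n, τ (g j ^ (n + 1)) = spl (List.replicate n e) fun u e v =>
      e.2 j * (τ (ev (aff g) u) * τ (ev (aff g) v)) := fun n => by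
    rw [← h j _ fun e' he' => by rw [List.eq_of_mem_replicate he']; exact B.zero_mem, he, pow_succ']
  induction n using Nat.strong_induction_on with
  | _ n ih =>
    rcases n with _ | _ | n
    · rw [pow_zero, h1, cm_even 0, catalan_zero, Nat.cast_one]
    · rw [hr, cm_odd 0, Nat.cast_zero]; rfl
    · rw [hr, spl_replicate, cm_rec]
      push_cast
      refine Finset.sum_congr rfl fun p hp => ?_
      have := Finset.HasAntidiagonal.mem_antidiagonal.1 hp
      rw [he, he, ih _ (by omega), ih _ (by omega)]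
      simp [e]

end W3p
open W3p

theorem w3 : W3Stmt := by
  intro A _ τ ⟨h1, hp, hf, ht⟩
  let _ := CStarAlgebra.spectralOrder A
  have := CStarAlgebra.spectralOrderedRing A
  have hp' : ∀ a : A, 0 ≤ a → 0 ≤ τ a := fun a ha => by
    obtain ⟨b, rfl⟩ := CStarAlgebra.nonneg_iff_eq_star_mul_self.1 ha
    exact Complex.nonneg_iff.2 ⟨(hp b).2, (hp b).1.symm⟩
  let f : A →ₚ[ℂ] ℂ := PositiveLinearMap.mk₀ τ hp'
  have hmono : ∀ a b : A, a ≤ b → (τ a).re ≤ (τ b).re := fun a b h => by
    have := (Complex.nonneg_iff.1 (hp' _ (sub_nonneg.2 h))).1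
    rwa [map_sub, Complex.sub_re, sub_nonneg] at this
  have hn : ∀ a : A, ‖f.toPreGNS a‖ ^ 2 = n2 τ a := fun a => by
    rw [f.preGNS_norm_def]; exact Real.sq_sqrt (hp a).2
  have hcs : ∀ a b : A, ‖τ (star a * b)‖ ^ 2 ≤ n2 τ a * n2 τ b := fun a b => by
    rw [← hn, ← hn, ← mul_pow]
    exact pow_le_pow_left₀ (norm_nonneg _)
      (norm_inner_le_norm (𝕜 := ℂ) (f.toPreGNS a) (f.toPreGNS b)) 2
  have hl : ∀ a b : A, n2 τ (a * b) ≤ ‖a‖ ^ 2 * n2 τ b := fun a b => by
    have h2 := hmono _ _ (CStarAlgebra.star_left_conjugate_le_norm_smul (a := b) (b := star a * a)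
      (IsSelfAdjoint.star_mul_self a))
    rw [CStarRing.norm_star_mul_self, ← Complex.coe_smul, map_smul, smul_eq_mul,
      Complex.re_ofReal_mul, ← sq] at h2
    simpa [n2, mul_assoc] using h2
  have hs : ∀ a : A, n2 τ (star a) = n2 τ a := fun a => by rw [n2, n2, star_star, ht]
  have hb : ∀ a : A, ‖τ a‖ ≤ ‖a‖ := fun a => by
    have h2 := hcs 1 a
    have h3 := hl a 1
    have h4 : n2 τ (1 : A) = 1 := by simp [n2, h1]
    rw [star_one, one_mul, h4, one_mul] at h2
    rw [mul_one, h4, mul_one] at h3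
    exact (sq_le_sq₀ (norm_nonneg _) (norm_nonneg _)).1 (h2.trans h3)
  refine ⟨hb, fun a => map_star f a, hcs, fun a b => ⟨hl a b, ?_⟩, fun κ _ B g h hg j => ?_⟩
  · rw [← hs, star_mul, mul_comm, ← hs a, ← norm_star b]; exact hl _ _
  have hm := moments τ h1 B g h j
  refine ⟨?_, fun m => ⟨by rw [hm, cm_even], by rw [hm, cm_odd, Nat.cast_zero]⟩⟩
  by_contra hlt
  push Not at hlt
  have : Nontrivial A := ⟨1, 0, fun h => by simp [h] at h1⟩
  have hgj := hg j
  set r := ‖g j‖ with hr
  obtain ⟨s, hs1, hs2⟩ := exists_between hlt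
  let φ : ℝ → ℝ := fun x => max 0 (x ^ 2 - s ^ 2)
  have hφ : Continuous φ := by fun_prop
  have hne : cfc φ (g j) ≠ 0 := fun h0 => by
    have h2 := (cfc_eq_cfc_iff_eqOn (f := φ) (g := fun _ => 0) (a := g j)).1 (by simpa using h0)
    have h3 : s ^ 2 < r ^ 2 := by nlinarith
    rcases CStarAlgebra.norm_or_neg_norm_mem_spectrum (hg j) with h4 | h4
    · have := h2 h4
      simp only [φ] at this
      linarith [le_max_right 0 (r ^ 2 - s ^ 2)]
    · have := h2 h4
      simp only [φ, neg_sq] at this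
      linarith [le_max_right 0 (r ^ 2 - s ^ 2)]
  have hsa : IsSelfAdjoint (cfc φ (g j)) := cfc_predicate φ (g j)
  have hpos : 0 < n2 τ (cfc φ (g j)) := lt_of_le_of_ne (hp _).2 fun h0 =>
    hne (hf _ (Complex.ext h0.symm (hp _).1))
  have key : ∀ m : ℕ, (s ^ 2 / 4) ^ m ≤ r ^ 4 / n2 τ (cfc φ (g j)) := fun m => by
    have h2 : (s ^ (2 * m) / r ^ 4) • (cfc φ (g j) * cfc φ (g j)) ≤ g j ^ (2 * m) := by
      rw [← cfc_mul .., ← cfc_const_mul .., ← cfc_pow_id (R := ℝ) (g j) (2 * m)]
      refine cfc_mono fun x hx => ?_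
      have hx2 : x ^ 2 ≤ r ^ 2 := sq_le_sq.2 (by
        simpa [hr] using spectrum.norm_le_norm_of_mem hx)
      rcases le_total (x ^ 2) (s ^ 2) with h3 | h3
      · have : φ x = 0 := max_eq_left (by linarith)
        rw [this, pow_mul, pow_mul]; simp only [mul_zero]; positivity
      · have h4 : φ x * φ x ≤ r ^ 4 := by
          have h5 : φ x ≤ r ^ 2 := max_le (by positivity) (by nlinarith)
          have h6 : 0 ≤ φ x := le_max_left _ _
          nlinarith
        have hr0 : 0 < r := by linarith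
        calc s ^ (2 * m) / r ^ 4 * (φ x * φ x) ≤ s ^ (2 * m) / r ^ 4 * r ^ 4 := by
              have : 0 < s := by linarith
              exact mul_le_mul_of_nonneg_left h4 (by positivity)
          _ = (s ^ 2) ^ m := by rw [pow_mul]; field_simp
          _ ≤ (x ^ 2) ^ m := by gcongr
          _ = _ := by rw [pow_mul]
    have h3 := hmono _ _ h2
    rw [← Complex.coe_smul, map_smul, smul_eq_mul, Complex.re_ofReal_mul, hm] at h3
    have h4 : (cm (2 * m) : ℝ) ≤ 4 ^ m := by
      have h5 : cm (2 * m) = catalan m := cm_even m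
      have h6 : catalan m ≤ 4 ^ m := by
        rw [catalan_eq_centralBinom_div]
        exact (Nat.div_le_self _ _).trans (Nat.centralBinom_le_four_pow m)
      rw [h5]; exact_mod_cast h6
    have h5 : (τ (cfc φ (g j) * cfc φ (g j))).re = n2 τ (cfc φ (g j)) := by rw [n2, hsa.star_eq]
    have hr0 : 0 < r := by linarith
    rw [h5, Complex.natCast_re] at h3
    rw [div_pow, div_le_div_iff₀ (by positivity) hpos, ← pow_mul]
    have h6 := h3.trans h4
    rw [div_mul_eq_mul_div, div_le_iff₀ (by positivity)] at h6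
    linarith
  obtain ⟨m, hm⟩ := pow_unbounded_of_one_lt (r ^ 4 / n2 τ (cfc φ (g j)))
    (show 1 < s ^ 2 / 4 by nlinarith)
  exact absurd (key m) (not_le.2 hm)

end Crest.Agent.FE
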