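import Crest.Agent.FE.HB

/-! (W4) block compression of free semicirculars. -/

set_option autoImplicit false
open Finset

namespace Crest.Agent.FE.W4b
open Hd

variable {A : Type} [Ring A] [Algebra ℂ A] {τ : A →ₗ[ℂ] ℂ} {N k : ℕ} {p : Fin k → A}
  {G : Fin N → A}

noncomputable def yy (p : Fin k → A) (G : Fin N → A) (i : Fin N) : A :=
  ((Real.sqrt k : ℝ) : ℂ) • ∑ j, p j * G i * p j

noncomputable def fm (q : A) (c : ℂ) (w : List (Fin N)) : List (A × (Fin N → ℂ)) :=
  w.flatMap fun l => [(0, Pi.single l c), (q, 0)]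

omit [Algebra ℂ A] in
lemma spl_fm (q : A) (c : ℂ) (i : Fin N) (w : List (Fin N)) :
    ∀ H : List (A × (Fin N → ℂ)) → List (A × (Fin N → ℂ)) → ℂ,
      spl (fm q c w) (fun u e v => e.2 i * H u v) =
        spl w fun u l v => (if l = i then c else 0) * H (fm q c u) ((q, 0) :: fm q c v) := by
  induction w with
  | nil => simp [fm]
  | cons l w ih =>
    intro H
    have := ih fun u v => H ((0, Pi.single l c) :: (q, 0) :: u) v
    simp only [fm, List.flatMap_cons, List.cons_append, List.nil_append, spl_cons, List.flatMap_nil,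
      Pi.zero_apply, zero_mul, zero_add] at this ⊢
    rw [this, Pi.single_apply]; simp only [eq_comm]

lemma p_yy (hp : ∀ j l, p j * p l = if j = l then p j else 0) (j : Fin k) (i : Fin N) :
    p j * yy p G i = ((Real.sqrt k : ℝ) : ℂ) • (p j * G i * p j) := by
  simp only [yy, mul_smul_comm, mul_sum, ← mul_assoc, hp, ite_mul, zero_mul, sum_ite_eq, mem_univ,
    if_true]

lemma yy_p (hp : ∀ j l, p j * p l = if j = l then p j else 0) (j : Fin k) (i : Fin N) :
    yy p G i * p j = ((Real.sqrt k : ℝ) : ℂ) • (p j * G i * p j) := by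
  simp only [yy, smul_mul_assoc, sum_mul, mul_assoc, hp, mul_ite, mul_zero, sum_ite_eq', mem_univ,
    if_true]

lemma ev_p (hp : ∀ j l, p j * p l = if j = l then p j else 0) (j : Fin k) (w : List (Fin N)) :
    ev (yy p G) w * p j = p j * ev (yy p G) w := by
  induction w with
  | nil => simp
  | cons i w ih => rw [ev_cons, mul_assoc, ih, ← mul_assoc, yy_p hp, ← p_yy hp, mul_assoc]

lemma ev_fm (hp : ∀ j l, p j * p l = if j = l then p j else 0) (j : Fin k) (w : List (Fin N)) :
    ev (aff G) ((p j, 0) :: fm (p j) (Real.sqrt k : ℝ) w) = p j * ev (yy p G) w := by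
  induction w with
  | nil => simp [fm, ev_cons, aff]
  | cons i w ih =>
    have h : aff G (0, Pi.single i ((Real.sqrt k : ℝ) : ℂ)) = ((Real.sqrt k : ℝ) : ℂ) • G i := by
      simp [aff, Pi.single_apply]
    simp only [fm, List.flatMap_cons, List.cons_append, List.nil_append] at ih ⊢
    rw [ev_cons, ev_cons, ih, h, aff_const, ev_cons, ← mul_assoc (p j) (yy p G i), p_yy hp]
    simp only [mul_smul_comm, smul_mul_assoc, mul_assoc]

lemma rec_ (hT : Tr τ) (hp : ∀ j l, p j * p l = if j = l then p j else 0)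
    (h : SDL τ (Algebra.adjoin ℂ (Set.range p)) G) (j : Fin k) (i : Fin N) (w : List (Fin N)) :
    k * τ (p j * ev (yy p G) (i :: w)) = spl w fun u l v => (if l = i then 1 else 0) *
      (k * τ (p j * ev (yy p G) u) * (k * τ (p j * ev (yy p G) v))) := by
  have h1 := h i ((p j, 0) :: fm (p j) (Real.sqrt k : ℝ) w) (by
    intro e he
    have hj : p j ∈ Algebra.adjoin ℂ (Set.range p) := Algebra.subset_adjoin ⟨j, rfl⟩
    simp only [fm, List.mem_cons, List.mem_flatMap, List.not_mem_nil, or_false] at he
    rcases he with rfl | ⟨l, -, rfl | rfl⟩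
    exacts [hj, zero_mem _, hj])
  rw [spl_cons, spl_fm _ _ _ _ fun u v => τ (ev (aff G) ((p j, 0) :: u)) * τ (ev (aff G) v)] at h1
  simp only [ev_fm hp, Pi.zero_apply, zero_mul, zero_add] at h1
  have hk : ((Real.sqrt k : ℝ) : ℂ) * ((Real.sqrt k : ℝ) : ℂ) = k := by
    rw [← Complex.ofReal_mul, Real.mul_self_sqrt (Nat.cast_nonneg k)]; simp
  have h2 : p j * ev (yy p G) w * p j = p j * ev (yy p G) w := by
    rw [mul_assoc, ev_p hp, ← mul_assoc, hp, if_pos rfl]
  rw [ev_cons, ← mul_assoc, p_yy hp, smul_mul_assoc, map_smul, mul_assoc, mul_assoc, hT.2,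
    mul_assoc, h2, h1, smul_eq_mul, mul_spl, mul_spl]
  refine spl_congr fun u l v _ => ?_
  split_ifs
  · linear_combination (k * τ (p j * ev (yy p G) u) * τ (p j * ev (yy p G) v)) * hk
  · simp

theorem w4 (h1 : W1Stmt) : W4Stmt := by
  intro A _ _ τ N k p G hT hk hp hs ht h
  have hk' : (k : ℂ) ≠ 0 := by exact_mod_cast hk.ne'
  have hind : ∀ w : List (Fin N), ∀ j l,
      k * τ (p j * ev (yy p G) w) = k * τ (p l * ev (yy p G) w) := by
    intro w
    induction w using len_ind with
    | _ w ih =>
      intro j l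
      rcases w with _ | ⟨i, w⟩
      · simp [ht]
      · rw [rec_ hT hp h, rec_ hT hp h]
        refine spl_congr fun u a v e => ?_
        rw [ih u ((len_left e).trans (by simp)) j l, ih v ((len_right e).trans (by simp)) j l]
  have hm : ∀ w j, k * τ (p j * ev (yy p G) w) = τ (ev (yy p G) w) := fun w j => by
    have : τ (ev (yy p G) w) = ∑ l, τ (p l * ev (yy p G) w) := by
      rw [← map_sum, ← sum_mul, hs, one_mul]
    rw [this]
    refine mul_left_cancel₀ hk' ?_
    simp only [mul_sum, fun l => hind w l j, sum_const, card_univ, Fintype.card_fin, nsmul_eq_mul]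
  constructor
  · have := (h1 A τ).1 Empty (Fin N) Empty.elim (yy p G) fun i w => by
      obtain ⟨w, rfl⟩ : ∃ w' : List (Fin N), w = w'.map Sum.inr := by
        induction w with
        | nil => exact ⟨[], rfl⟩
        | cons a w ih =>
          obtain ⟨w', rfl⟩ := ih
          rcases a with a | a
          exacts [a.elim, ⟨a :: w', rfl⟩]
      have := rec_ hT hp h ⟨0, hk⟩ i w
      simp only [hm] at this
      rw [ev_cons] at this
      rw [sdd, spl_map]
      simp only [ev_map, Sum.elim_comp_inr, Sum.elim_inr, this, sub_self]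
    exact fun j L hL => this j L fun e he => bot_le (a := Algebra.adjoin ℂ _) (hL e he)
  · intro j a ha
    rw [← Subalgebra.mem_toSubmodule, Algebra.adjoin_eq_span] at ha
    induction ha using Submodule.span_induction with
    | mem x hx =>
      obtain ⟨w, rfl⟩ : ∃ w, x = ev (yy p G) w := by
        induction hx using Submonoid.closure_induction with
        | mem x hx => obtain ⟨i, rfl⟩ := hx; exact ⟨[i], by simp [ev_cons, yy]⟩
        | one => exact ⟨[], rfl⟩
        | mul x y _ _ hx hy =>
          obtain ⟨u, rfl⟩ := hx; obtain ⟨v, rfl⟩ := hy; exact ⟨u ++ v, (ev_append _ _ _).symm⟩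
      rw [← hm w j]; field_simp
    | zero => simp
    | add x y _ _ hx hy => simp only [mul_add, map_add, hx, hy, add_div]
    | smul c x _ hx => simp only [mul_smul_comm, map_smul, hx, smul_eq_mul, mul_div_assoc]

end Crest.Agent.FE.W4b
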